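/-
Dimension three, any norm: basic definitions.  See the paper proof in the team findings.
Notation: `Nrm c` norming functionals, `nr c` a chosen one, `Sm c` smooth point,
`Eo x` = unit vectors at distance one from `x`, `DSet` = directions of unit chords of the sphere,
`IsFlat x` = near `x` the sphere is contained in the face of `nr x`.
-/
import Mathlib
import Vale.Agent.Lib.P084.UC.APlus

namespace Vale.Agent.Lib.P084.D3

open Vale.Agent.Lib.P084.UC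

variable {X Y : Type*} [NormedAddCommGroup X] [NormedSpace ℝ X] [NormedAddCommGroup Y]
  [NormedSpace ℝ Y]

/-- Norming functionals of `c`. -/
def Nrm (c : X) : Set (X →L[ℝ] ℝ) := {φ | ‖φ‖ ≤ 1 ∧ φ c = 1}

/-- A chosen norming functional. -/
noncomputable def nr (c : X) : X →L[ℝ] ℝ :=
  open Classical in if h : ∃ φ, φ ∈ Nrm c then h.choose else 0

theorem nr_mem {c : X} (hc : ‖c‖ = 1) : nr c ∈ Nrm c := by
  classical
  have h : ∃ φ, φ ∈ Nrm c := by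
    have hc0 : ‖c‖ ≠ 0 := by rw [hc]; exact one_ne_zero
    obtain ⟨g, hg1, hg2⟩ := exists_dual_vector ℝ c hc0
    refine ⟨g, hg1.le, ?_⟩
    rw [hg2, hc]; simp
  unfold nr
  rw [dif_pos h]
  exact h.choose_spec

theorem nrm_abs_le {c : X} {φ : X →L[ℝ] ℝ} (h : φ ∈ Nrm c) (z : X) : |φ z| ≤ ‖z‖ := by
  have := φ.le_opNorm z
  have h2 : ‖φ‖ * ‖z‖ ≤ 1 * ‖z‖ := mul_le_mul_of_nonneg_right h.1 (norm_nonneg _)
  rw [Real.norm_eq_abs] at this
  linarith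

theorem nrm_le {c : X} {φ : X →L[ℝ] ℝ} (h : φ ∈ Nrm c) (z : X) : φ z ≤ ‖z‖ :=
  (le_abs_self _).trans (nrm_abs_le h z)

/-- Smooth point: the norming functional is unique. -/
def Sm (c : X) : Prop := ∀ φ ∈ Nrm c, φ = nr c

/-- Unit vectors at distance one from `x`. -/
def Eo (x : X) : Set X := {c | ‖c‖ = 1 ∧ ‖x - c‖ = 1}

/-- Directions of unit chords of the sphere. -/
def DSet : Set X := {x | ‖x‖ = 1 ∧ ∃ c ∈ Eo x, ∃ φ ∈ Nrm c, φ x = 0}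

/-- Near `x` the sphere is contained in the face of `nr x`. -/
def IsFlat (x : X) : Prop := ∃ ε > 0, ∀ z : X, ‖z‖ = 1 → ‖z - x‖ < ε → nr x z = 1

theorem Eo.symm {x c : X} (hc : c ∈ Eo x) : x - c ∈ Eo x := by
  refine ⟨hc.2, ?_⟩
  simpa using hc.1

theorem Eo.comm {x c : X} (hx : ‖x‖ = 1) (hc : c ∈ Eo x) : x ∈ Eo c :=
  ⟨hx, by rw [norm_sub_rev]; exact hc.2⟩

/-- Normals on `Eo x` are nonnegative at `x`. -/
theorem nonneg_at {x c : X} (hc : c ∈ Eo x) {φ : X →L[ℝ] ℝ} (h : φ ∈ Nrm c) : 0 ≤ φ x := by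
  have h1 := nrm_le h (c - x)
  rw [norm_sub_rev, hc.2, map_sub, h.2] at h1
  linarith

/-- Off `DSet`, normals on `Eo x` are positive at `x`. -/
theorem pos_at {x c : X} (hx : ‖x‖ = 1) (hD : x ∉ DSet) (hc : c ∈ Eo x) {φ : X →L[ℝ] ℝ}
    (h : φ ∈ Nrm c) : 0 < φ x := by
  refine lt_of_le_of_ne (nonneg_at hc h) (fun h0 => hD ⟨hx, c, hc, φ, h, h0.symm⟩)

/-- The standing facts about a sphere isometry in finite dimension. -/
structure Ctx (f : X → Y) : Prop where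
  iso : IsSphereIso f
  odd : ∀ x : X, ‖x‖ = 1 → f (-x) = - f x
  add : ∀ x y : X, ‖x‖ = 1 → ‖y‖ = 1 → ‖x + y‖ = 1 → f (x + y) = f x + f y
  aff : ∀ a b : X, (∀ t ∈ Set.Icc (0 : ℝ) 1, ‖a + t • (b - a)‖ = 1) →
      ∀ t ∈ Set.Icc (0 : ℝ) 1, f (a + t • (b - a)) = f a + t • (f b - f a)

theorem Ctx.sub {f : X → Y} (h : Ctx f) {x c : X} (hx : ‖x‖ = 1) (hc : c ∈ Eo x) :
    f (x - c) = f x - f c := by
  have := h.add c (x - c) hc.1 hc.2 (by simpa using hx)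
  rw [add_sub_cancel] at this
  rw [this]; abel

/-- Generic set. -/
structure IsGen (f : X → Y) (G : Set X) : Prop where
  reg : ∀ x ∈ G, ‖x‖ = 1 ∧ Sm x ∧ Sm (f x)
  notD : ∀ x ∈ G, x ∉ (DSet : Set X)
  dense : ∀ z : X, ‖z‖ = 1 → ∀ ε > 0, ∃ x ∈ G, ‖x - z‖ < ε
  dic : ∀ x ∈ G, IsFlat x ∨ ∀ a ∈ Eo x, ∀ b ∈ Eo x, nr x a = 0 → nr x b = 0 → a = b
  fib : ∀ x ∈ G, ∀ c ∈ Eo x, 0 < nr x c → ∀ ε > 0, ∃ c' ∈ G, c' ∈ Eo x ∧ 0 < nr x c' ∧ ‖c' - c‖ < ε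

/-- The Lipschitz loop parametrising `Eo x` for `x ∉ DSet`. -/
structure IsLoop (x : X) (γ : ℝ → X) : Prop where
  mem : ∀ t, γ t ∈ Eo x
  surj : ∀ a ∈ Eo x, ∃ t, γ t = a
  lip : ∃ C : NNReal, LipschitzWith C γ
  shift : ∀ t, γ (t + Real.pi) = x - γ t
  inj : ∀ s t, s < t → t < s + 2 * Real.pi → γ s ≠ γ t
  indep : ∀ s t, s < t → t < s + Real.pi → LinearIndependent ℝ ![x, γ s, γ t]
  ray : ∀ q : X, (∀ r : ℝ, q ≠ r • x) → ∃ t α β : ℝ, 0 < β ∧ q = α • x + β • γ t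

/-- `L` is the first order model of `f` at `x`. -/
structure IsLin (f : X → Y) (G : Set X) (x : X) (L : X ≃L[ℝ] Y) : Prop where
  val : L x = f x
  normal : ∀ a ∈ G, a ∈ Eo x → 0 < nr x a → (nr (f a)).comp (L : X →L[ℝ] Y) = nr a
  normal_self : (nr (f x)).comp (L : X →L[ℝ] Y) = nr x
  diff : ∀ ε > 0, ∃ δ > 0, ∀ x' : X, ‖x'‖ = 1 → ‖x' - x‖ < δ →
    ‖f x' - f x - L (x' - x)‖ ≤ ε * ‖x' - x‖

/-- Standing environment. -/
structure Env (f : X → Y) (G : Set X) : Prop where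
  ctx : Ctx f
  gen : IsGen f G
  dim : Module.finrank ℝ X = 3

end Vale.Agent.Lib.P084.D3
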