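/-
Elementary calculus at smooth points, usc of normals, radial intermediate value.
-/
import Vale.Agent.Lib.P084.D3.Basic

namespace Vale.Agent.Lib.P084.D3

variable {X : Type*} [NormedAddCommGroup X] [NormedSpace ℝ X]

/-- Closedness of the normal cone map (sequences). -/
theorem Nrm.of_tendsto {c_n : ℕ → X} {c : X} {φ_n : ℕ → X →L[ℝ] ℝ} {φ : X →L[ℝ] ℝ}
    (hc : Filter.Tendsto c_n Filter.atTop (nhds c)) (hφ : Filter.Tendsto φ_n Filter.atTop (nhds φ))
    (h : ∀ n, φ_n n ∈ Nrm (c_n n)) : φ ∈ Nrm c := by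
  constructor
  · have h1 : Filter.Tendsto (fun n => ‖φ_n n‖) Filter.atTop (nhds ‖φ‖) := hφ.norm
    exact le_of_tendsto' h1 (fun n => (h n).1)
  · have h2 : Filter.Tendsto (fun n => (φ_n n) (c_n n)) Filter.atTop (nhds (φ c)) :=
      (isBoundedBilinearMap_apply (𝕜 := ℝ) (E := X) (F := ℝ)).continuous.continuousAt.tendsto.comp
        (hφ.prodMk_nhds hc)
    have h3 : (fun n => (φ_n n) (c_n n)) = fun _ => (1 : ℝ) := by
      funext n; exact (h n).2
    rw [h3] at h2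
    exact tendsto_nhds_unique h2 tendsto_const_nhds

variable [FiniteDimensional ℝ X]

/-- At a smooth point normals are continuous. -/
theorem Sm.nr_near {c : X} (hc : ‖c‖ = 1) (hs : Sm c) {ε : ℝ} (hε : 0 < ε) :
    ∃ δ > 0, ∀ c' : X, ‖c'‖ = 1 → ‖c' - c‖ < δ → ∀ φ ∈ Nrm c', ‖φ - nr c‖ < ε := by
  by_contra hcon
  push Not at hcon
  have hn : ∀ n : ℕ, ∃ c' : X, ‖c'‖ = 1 ∧ ‖c' - c‖ < 1 / ((n : ℝ) + 1) ∧
      ∃ φ ∈ Nrm c', ε ≤ ‖φ - nr c‖ := by
    intro n
    obtain ⟨c', h1, h2, φ, h3, h4⟩ := hcon (1 / ((n : ℝ) + 1)) (by positivity)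
    exact ⟨c', h1, h2, φ, h3, h4⟩
  choose c_n h1 h2 φ_n h3 h4 using hn
  have hcomp : IsCompact (Metric.closedBall (0 : X →L[ℝ] ℝ) 1) := isCompact_closedBall _ _
  have hmem : ∀ n, φ_n n ∈ Metric.closedBall (0 : X →L[ℝ] ℝ) 1 := by
    intro n
    simpa using (h3 n).1
  obtain ⟨φ, _, ψ, hψ, hlim⟩ := hcomp.tendsto_subseq hmem
  have hcn : Filter.Tendsto c_n Filter.atTop (nhds c) := by
    rw [tendsto_iff_norm_sub_tendsto_zero]
    refine squeeze_zero (fun _ => norm_nonneg _) (fun n => (h2 n).le) ?_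
    exact tendsto_one_div_add_atTop_nhds_zero_nat
  have hcn2 : Filter.Tendsto (c_n ∘ ψ) Filter.atTop (nhds c) := hcn.comp hψ.tendsto_atTop
  have hφ : φ ∈ Nrm c := Nrm.of_tendsto hcn2 hlim (fun n => h3 (ψ n))
  have heq := hs φ hφ
  have hzero : Filter.Tendsto (fun n => ‖(φ_n ∘ ψ) n - nr c‖) Filter.atTop (nhds 0) := by
    have := (tendsto_iff_norm_sub_tendsto_zero.mp hlim)
    rwa [heq] at this
  have hge : ∀ n, ε ≤ ‖(φ_n ∘ ψ) n - nr c‖ := fun n => h4 (ψ n)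
  have := ge_of_tendsto' hzero hge
  linarith

/-- First order expansion of the norm at a smooth point. -/
theorem Sm.norm_expansion {c : X} (hc : ‖c‖ = 1) (hs : Sm c) {ε : ℝ} (hε : 0 < ε) :
    ∃ δ > 0, ∀ d : X, ‖d‖ < δ → |‖c + d‖ - 1 - nr c d| ≤ ε * ‖d‖ := by
  obtain ⟨δ0, hδ0, hnear⟩ := Sm.nr_near hc hs hε
  refine ⟨min (1 / 2) (δ0 / 2), by positivity, ?_⟩
  intro d hd
  have hd1 : ‖d‖ < 1 / 2 := lt_of_lt_of_le hd (min_le_left _ _)
  have hd2 : ‖d‖ < δ0 / 2 := lt_of_lt_of_le hd (min_le_right _ _)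
  have hnc : nr c ∈ Nrm c := nr_mem hc
  have hlow : 1 + nr c d ≤ ‖c + d‖ := by
    have := nrm_le hnc (c + d)
    rw [map_add, hnc.2] at this
    exact this
  have hdiff : |‖c + d‖ - 1| ≤ ‖d‖ := by
    have h := abs_norm_sub_norm_le (c + d) c
    rw [hc] at h
    simpa using h
  have hpos : 0 < ‖c + d‖ := by
    have := (abs_le.mp hdiff).1
    linarith
  set r := ‖c + d‖ with hr
  set u : X := r⁻¹ • (c + d) with hu
  have hu1 : ‖u‖ = 1 := by
    rw [hu, norm_smul, norm_inv, Real.norm_eq_abs, abs_of_pos hpos, ← hr]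
    exact inv_mul_cancel₀ hpos.ne'
  have hud : u - (c + d) = (r⁻¹ - 1) • (c + d) := by
    rw [hu, sub_smul, one_smul]
  have hud2 : ‖u - (c + d)‖ = |1 - r| := by
    rw [hud, norm_smul, ← hr, Real.norm_eq_abs]
    have : |r⁻¹ - 1| * r = |(r⁻¹ - 1) * r| := by
      rw [abs_mul, abs_of_pos hpos]
    rw [this]
    congr 1
    field_simp
  have huc : ‖u - c‖ ≤ 2 * ‖d‖ := by
    have h1 : u - c = (u - (c + d)) + d := by abel
    rw [h1]
    refine (norm_add_le _ _).trans ?_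
    rw [hud2, abs_sub_comm]
    linarith
  have huc2 : ‖u - c‖ < δ0 := by linarith
  have hφ : nr u ∈ Nrm u := nr_mem hu1
  have hclose := hnear u hu1 huc2 _ hφ
  have hval : nr u (c + d) = r := by
    have h1 : c + d = r • u := by
      rw [hu, smul_smul, mul_inv_cancel₀ hpos.ne', one_smul]
    rw [h1, map_smul, hφ.2]
    simp
  have hup : r ≤ 1 + nr c d + ε * ‖d‖ := by
    have h1 : nr u c ≤ 1 := by
      have := nrm_le hφ c
      rwa [hc] at this
    have h2 : (nr u - nr c) d ≤ ε * ‖d‖ := by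
      have h3 := (nr u - nr c).le_opNorm d
      have h4 : ‖nr u - nr c‖ * ‖d‖ ≤ ε * ‖d‖ :=
        mul_le_mul_of_nonneg_right hclose.le (norm_nonneg _)
      have h5 := le_abs_self ((nr u - nr c) d)
      rw [Real.norm_eq_abs] at h3
      linarith
    have h6 : nr u (c + d) = nr u c + (nr u - nr c) d + nr c d := by
      simp only [map_add, sub_apply]
      ring
    rw [hval] at h6
    linarith
  rw [abs_le]
  have hnd : 0 ≤ ε * ‖d‖ := by positivity
  constructor <;> linarith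

/-- Points of the sphere near a smooth `c` are tangent to first order. -/
theorem Sm.tangent {c : X} (hc : ‖c‖ = 1) (hs : Sm c) {ε : ℝ} (hε : 0 < ε) :
    ∃ δ > 0, ∀ c' : X, ‖c'‖ = 1 → ‖c' - c‖ < δ → |nr c (c' - c)| ≤ ε * ‖c' - c‖ := by
  obtain ⟨δ, hδ, h⟩ := Sm.norm_expansion hc hs hε
  refine ⟨δ, hδ, ?_⟩
  intro c' hc' hlt
  have := h (c' - c) hlt
  rw [add_sub_cancel, hc', sub_self, zero_sub, abs_neg] at this
  exact this

omit [FiniteDimensional ℝ X] in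
/-- Intermediate value along a normalised segment of the sphere. -/
theorem exists_radial_zero {p p' : X} (hp : ‖p‖ = 1) (hp' : ‖p'‖ = 1) (hpp : ‖p - p'‖ < 1)
    {g : X → ℝ} (hg : Continuous g) (h1 : g p < 0) (h2 : 0 < g p') :
    ∃ p'' : X, ‖p''‖ = 1 ∧ g p'' = 0 ∧ ‖p'' - p‖ ≤ 2 * ‖p - p'‖ ∧
      ∃ l s : ℝ, 0 < l ∧ s ∈ Set.Icc (0 : ℝ) 1 ∧ p'' = l • ((1 - s) • p + s • p') := by
  set w : ℝ → X := fun s => (1 - s) • p + s • p' with hw
  have hwc : Continuous w := by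
    simp only [hw]
    fun_prop
  have hwp : ∀ s : ℝ, s ∈ Set.Icc (0 : ℝ) 1 → ‖w s - p‖ ≤ s * ‖p - p'‖ := by
    intro s hs
    have h3 : w s - p = s • (p' - p) := by
      simp only [hw, sub_smul, smul_sub, one_smul]
      abel
    rw [h3, norm_smul, Real.norm_eq_abs, abs_of_nonneg hs.1, norm_sub_rev]
  have hwpos : ∀ s : ℝ, s ∈ Set.Icc (0 : ℝ) 1 → 0 < ‖w s‖ := by
    intro s hs
    have h3 := hwp s hs
    have h4 : s * ‖p - p'‖ ≤ 1 * ‖p - p'‖ :=
      mul_le_mul_of_nonneg_right hs.2 (norm_nonneg _)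
    have h5 : ‖p‖ - ‖w s‖ ≤ ‖w s - p‖ := by
      rw [norm_sub_rev]
      exact norm_sub_norm_le _ _
    rw [hp] at h5
    linarith
  set N : ℝ → X := fun s => ‖w s‖⁻¹ • w s with hN
  have hNc : ContinuousOn (fun s => g (N s)) (Set.Icc (0 : ℝ) 1) := by
    refine hg.comp_continuousOn ?_
    refine ContinuousOn.smul ?_ hwc.continuousOn
    refine ContinuousOn.inv₀ hwc.norm.continuousOn ?_
    intro s hs
    exact (hwpos s hs).ne'
  have hN0 : N 0 = p := by
    simp [hN, hw, hp]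
  have hN1 : N 1 = p' := by
    simp [hN, hw, hp']
  have hivt := intermediate_value_Icc (zero_le_one (α := ℝ)) hNc
  have hzero : (0 : ℝ) ∈ Set.Icc (g (N 0)) (g (N 1)) := by
    rw [hN0, hN1]
    exact ⟨h1.le, h2.le⟩
  obtain ⟨s, hs, hgs⟩ := hivt hzero
  have hwps := hwpos s hs
  refine ⟨N s, ?_, hgs, ?_, ‖w s‖⁻¹, s, by positivity, hs, rfl⟩
  · simp only [hN]
    rw [norm_smul, norm_inv, norm_norm]
    exact inv_mul_cancel₀ hwps.ne'
  · have h3 : N s - w s = (‖w s‖⁻¹ - 1) • w s := by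
      simp only [hN, sub_smul, one_smul]
    have h4 : ‖N s - w s‖ = |1 - ‖w s‖| := by
      rw [h3, norm_smul, Real.norm_eq_abs]
      have : |‖w s‖⁻¹ - 1| * ‖w s‖ = |(‖w s‖⁻¹ - 1) * ‖w s‖| := by
        rw [abs_mul, abs_of_pos hwps]
      rw [this]
      congr 1
      field_simp
    have h5 : |1 - ‖w s‖| ≤ ‖w s - p‖ := by
      have := abs_norm_sub_norm_le p (w s)
      rw [hp, norm_sub_rev] at this
      exact this
    have h6 := hwp s hs
    have h7 : s * ‖p - p'‖ ≤ 1 * ‖p - p'‖ :=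
      mul_le_mul_of_nonneg_right hs.2 (norm_nonneg _)
    have h8 : N s - p = (N s - w s) + (w s - p) := by abel
    rw [h8]
    refine (norm_add_le _ _).trans ?_
    rw [h4]
    linarith

end Vale.Agent.Lib.P084.D3
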