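/-
Step 9.  `FInt x` = points of the face of `x` where the sphere is flat, `BPlus x` = unit `c` with
`z₁,z₂ ∈ FInt x`, `‖c - z₁‖ < 1 < ‖c - z₂‖`.
`upper_near`: `z₁ = (1 - s) w + c`, `s = nr x c`, `w = x - a + τ a` (for `τ` small `w`, `w + a = x + τ a` are in the relative interior); `‖c - z₁‖ = 1 - s`;
`z₂`: some `z` in the relative interior with `z - a` off the face (else face `- a` ⊆ face, unbounded), `‖z - a‖ > 1`.
Also provides planar facts on `FInt`.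
-/
import Vale.Agent.Lib.P084.D3.Calc

namespace Vale.Agent.Lib.P084.D3

variable {X : Type*} [NormedAddCommGroup X] [NormedSpace ℝ X]

/-- Points of the face of `nr x` near which the sphere is in that face. -/
def FInt (x : X) : Set X :=
  {z | ‖z‖ = 1 ∧ nr x z = 1 ∧ ∃ ε > 0, ∀ w : X, ‖w‖ = 1 → ‖w - z‖ < ε → nr x w = 1}

/-- The band of the face of `x`. -/
def BPlus (x : X) : Set X :=
  {c | ‖c‖ = 1 ∧ ∃ z₁ ∈ FInt x, ∃ z₂ ∈ FInt x, ‖c - z₁‖ < 1 ∧ 1 < ‖c - z₂‖}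

theorem BPlus.near {x c : X} (hc : c ∈ BPlus x) :
    ∃ ε > 0, ∀ c' : X, ‖c'‖ = 1 → ‖c' - c‖ < ε → c' ∈ BPlus x := by
  obtain ⟨_, z₁, hz₁, z₂, hz₂, h1, h2⟩ := hc
  refine ⟨min (1 - ‖c - z₁‖) (‖c - z₂‖ - 1), lt_min (by linarith) (by linarith), ?_⟩
  intro c' hc' hcc
  have h3 : ‖c' - c‖ < 1 - ‖c - z₁‖ := lt_of_lt_of_le hcc (min_le_left _ _)
  have h4 : ‖c' - c‖ < ‖c - z₂‖ - 1 := lt_of_lt_of_le hcc (min_le_right _ _)
  refine ⟨hc', z₁, hz₁, z₂, hz₂, ?_, ?_⟩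
  · have : ‖c' - z₁‖ ≤ ‖c' - c‖ + ‖c - z₁‖ := by
      have := norm_add_le (c' - c) (c - z₁)
      simpa using this
    linarith
  · have : ‖c - z₂‖ ≤ ‖c - c'‖ + ‖c' - z₂‖ := by
      have := norm_add_le (c - c') (c' - z₂)
      simpa using this
    rw [norm_sub_rev c c'] at this
    linarith

/-- A point of the plane of the face close to a point of `FInt x` has norm one. -/
theorem FInt.norm_near {x z : X} (hx : ‖x‖ = 1) {ε : ℝ} (hz1 : ‖z‖ = 1)
    (hε : ∀ w : X, ‖w‖ = 1 → ‖w - z‖ < ε → nr x w = 1) {w : X} (hw : nr x w = 1)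
    (hwz : ‖w - z‖ < ε / 2) : ‖w‖ = 1 := by
  have hm := nr_mem hx
  have h1 : (1 : ℝ) ≤ ‖w‖ := by
    have := nrm_le hm w
    linarith
  by_contra hne
  have h2 : 1 < ‖w‖ := lt_of_le_of_ne h1 (Ne.symm hne)
  have h0 : 0 < ‖w‖ := by linarith
  have hw1 : ‖‖w‖⁻¹ • w‖ = 1 := by
    rw [norm_smul, norm_inv, norm_norm]
    field_simp
  have hle : ‖w‖ ≤ 1 + ‖w - z‖ := by
    have := norm_add_le (w - z) z
    rw [sub_add_cancel, hz1] at this
    linarith
  have hd : ‖‖w‖⁻¹ • w - w‖ = ‖w‖ - 1 := by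
    have e : ‖w‖⁻¹ • w - w = (‖w‖⁻¹ - 1) • w := by
      rw [sub_smul, one_smul]
    rw [e, norm_smul, Real.norm_eq_abs, abs_of_nonpos]
    · have : ‖w‖⁻¹ * ‖w‖ = 1 := inv_mul_cancel₀ h0.ne'
      nlinarith
    · have : ‖w‖⁻¹ ≤ 1 := inv_le_one_of_one_le₀ h1
      linarith
  have hnear : ‖‖w‖⁻¹ • w - z‖ < ε := by
    have : ‖‖w‖⁻¹ • w - z‖ ≤ ‖‖w‖⁻¹ • w - w‖ + ‖w - z‖ := by
      have := norm_add_le (‖w‖⁻¹ • w - w) (w - z)
      simpa using this
    rw [hd] at this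
    linarith
  have h3 := hε _ hw1 hnear
  rw [map_smul, hw, smul_eq_mul, mul_one] at h3
  have : ‖w‖⁻¹ < 1 := inv_lt_one_of_one_lt₀ h2
  linarith

/-- A point of the plane of the face close to a point of `FInt x` is in `FInt x`. -/
theorem FInt.near_plane {x z : X} (hx : ‖x‖ = 1) (hz : z ∈ FInt x) :
    ∃ ε > 0, ∀ w : X, nr x w = 1 → ‖w - z‖ < ε → w ∈ FInt x := by
  obtain ⟨hz1, _, ε, hε, h⟩ := hz
  refine ⟨ε / 2, by linarith, ?_⟩
  intro w hw hwz
  refine ⟨FInt.norm_near hx hz1 h hw hwz, hw, ε / 2, by linarith, ?_⟩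
  intro w' hw' hww
  apply h w' hw'
  have : ‖w' - z‖ ≤ ‖w' - w‖ + ‖w - z‖ := by
    have := norm_add_le (w' - w) (w - z)
    simpa using this
  linarith

/-- A unit vector `p` in the face such that plane points near `p` have norm one is in `FInt`. -/
theorem FInt.of_plane {x p : X} (hx : ‖x‖ = 1) (hp : nr x p = 1) {ε : ℝ} (hε : 0 < ε)
    (h : ∀ w : X, nr x w = 1 → ‖w - p‖ < ε → ‖w‖ = 1) : p ∈ FInt x := by
  have hm := nr_mem hx
  have hp1 : ‖p‖ = 1 := h p hp (by simpa using hε)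
  refine ⟨hp1, hp, min (1 / 2) (ε / 4), lt_min (by norm_num) (by linarith), ?_⟩
  intro w hw hwp
  have h1 : ‖w - p‖ < 1 / 2 := lt_of_lt_of_le hwp (min_le_left _ _)
  have h2 : ‖w - p‖ < ε / 4 := lt_of_lt_of_le hwp (min_le_right _ _)
  have hd : |nr x w - 1| ≤ ‖w - p‖ := by
    have := nrm_abs_le hm (w - p)
    rwa [map_sub, hp] at this
  have hpos : 1 / 2 < nr x w := by
    have := (abs_le.1 hd).1
    linarith
  set t := nr x w with ht
  have ht0 : t ≠ 0 := by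
    intro h0
    rw [h0] at hpos
    norm_num at hpos
  have hpl : nr x (t⁻¹ • w) = 1 := by
    rw [map_smul, smul_eq_mul, ← ht]
    exact inv_mul_cancel₀ ht0
  have hdist : ‖t⁻¹ • w - p‖ < ε := by
    have e : t⁻¹ • w - p = t⁻¹ • ((w - p) + (1 - t) • p) := by
      have e2 : t⁻¹ * (1 - t) = t⁻¹ - 1 := by
        rw [mul_sub, mul_one, inv_mul_cancel₀ ht0]
      rw [smul_add, smul_sub, smul_smul, e2, sub_smul, one_smul]
      abel
    rw [e, norm_smul, norm_inv, Real.norm_eq_abs, abs_of_pos (by linarith)]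
    have h3 : ‖(w - p) + (1 - t) • p‖ ≤ 2 * ‖w - p‖ := by
      calc ‖(w - p) + (1 - t) • p‖ ≤ ‖w - p‖ + ‖(1 - t) • p‖ := norm_add_le _ _
        _ = ‖w - p‖ + |t - 1| := by
            rw [norm_smul, hp1, mul_one, Real.norm_eq_abs, abs_sub_comm]
        _ ≤ 2 * ‖w - p‖ := by linarith
    have h4 : t⁻¹ ≤ 2 := by
      rw [inv_le_comm₀ (by linarith) (by norm_num)]
      linarith
    have h5 : 0 ≤ t⁻¹ := inv_nonneg.2 (by linarith)
    calc t⁻¹ * ‖(w - p) + (1 - t) • p‖ ≤ 2 * (2 * ‖w - p‖) :=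
          mul_le_mul h4 h3 (norm_nonneg _) (by norm_num)
      _ < ε := by linarith
  have h6 := h _ hpl hdist
  rw [norm_smul, norm_inv, Real.norm_eq_abs, abs_of_pos (by linarith), hw, mul_one] at h6
  have : t⁻¹ * t = 1 := inv_mul_cancel₀ ht0
  have h7 : t = 1 := by
    have := inv_eq_one.1 h6
    exact this
  exact h7

/-- Convex combination of a face point and a point of `FInt x`, with positive weight on the
second, is in `FInt x`. -/
theorem FInt.comb {x z₁ z₂ : X} (hx : ‖x‖ = 1) (h1 : ‖z₁‖ = 1) (h1' : nr x z₁ = 1)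
    (hz₂ : z₂ ∈ FInt x) {a b : ℝ} (ha : 0 ≤ a) (hb : 0 < b) (hab : a + b = 1) :
    a • z₁ + b • z₂ ∈ FInt x := by
  obtain ⟨ε, hε, hnp⟩ := FInt.near_plane hx hz₂
  have hm := nr_mem hx
  have hpl : nr x (a • z₁ + b • z₂) = 1 := by
    rw [map_add, map_smul, map_smul, smul_eq_mul, smul_eq_mul, h1', hz₂.2.1]
    linarith
  refine FInt.of_plane hx hpl (ε := b * ε) (mul_pos hb hε) ?_
  intro w hw hwp
  set v := b⁻¹ • (w - (a • z₁ + b • z₂)) with hv
  have hb0 : b ≠ 0 := hb.ne'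
  have hwe : w = a • z₁ + b • (z₂ + v) := by
    rw [hv, smul_add, smul_smul, mul_inv_cancel₀ hb0, one_smul]
    abel
  have hvnorm : ‖z₂ + v - z₂‖ < ε := by
    rw [add_sub_cancel_left, hv, norm_smul, norm_inv, Real.norm_eq_abs, abs_of_pos hb]
    rw [inv_mul_lt_iff₀ hb]
    exact hwp
  have hvpl : nr x (z₂ + v) = 1 := by
    have e : nr x v = 0 := by
      rw [hv, map_smul, map_sub, hw, hpl]; simp
    rw [map_add, e, hz₂.2.1, add_zero]
  have hmem := hnp _ hvpl hvnorm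
  have hle : ‖w‖ ≤ 1 := by
    rw [hwe]
    calc ‖a • z₁ + b • (z₂ + v)‖ ≤ ‖a • z₁‖ + ‖b • (z₂ + v)‖ := norm_add_le _ _
      _ = a + b := by
          rw [norm_smul, norm_smul, h1, hmem.1, mul_one, mul_one, Real.norm_eq_abs,
            Real.norm_eq_abs, abs_of_nonneg ha, abs_of_pos hb]
      _ = 1 := hab
  have hge : 1 ≤ ‖w‖ := by
    have := nrm_le hm w
    linarith
  linarith

/-- `FInt x` is convex. -/
theorem FInt.convex {x : X} (hx : ‖x‖ = 1) : Convex ℝ (FInt x) := by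
  intro z₁ hz₁ z₂ hz₂ a b ha hb hab
  rcases hb.eq_or_lt with hb0 | hb0
  · subst hb0
    have : a = 1 := by linarith
    subst this
    simpa using hz₁
  · exact FInt.comb hx hz₁.1 hz₁.2.1 hz₂ ha hb0 hab

variable [FiniteDimensional ℝ X]

omit [FiniteDimensional ℝ X] in
/-- One step down: if all of `FInt x` stays within distance one of `a`, a point of `FInt x`
translated by `-a` can be pushed back to `FInt x`. -/
theorem FInt.step_down {x a z : X} (hx : ‖x‖ = 1) (ha0 : nr x a = 0) (hxF : x ∈ FInt x)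
    (hall : ∀ z ∈ FInt x, ‖z - a‖ ≤ 1) (hz : z ∈ FInt x) :
    ∃ z' ∈ FInt x, ‖z' - (z - a)‖ ≤ 3 / 12 := by
  have hm := nr_mem hx
  have hpl : nr x (z - a) = 1 := by rw [map_sub, hz.2.1, ha0, sub_zero]
  have hn : ‖z - a‖ = 1 := by
    have h1 := hall z hz
    have h2 := nrm_le hm (z - a)
    linarith
  refine ⟨(11 / 12 : ℝ) • (z - a) + (1 / 12 : ℝ) • x,
    FInt.comb hx hn hpl hxF (by norm_num) (by norm_num) (by norm_num), ?_⟩
  have e : (11 / 12 : ℝ) • (z - a) + (1 / 12 : ℝ) • x - (z - a) = (1 / 12 : ℝ) • (x - (z - a)) := by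
    rw [smul_sub (1 / 12 : ℝ)]
    have : (z - a) = (11 / 12 : ℝ) • (z - a) + (1 / 12 : ℝ) • (z - a) := by
      rw [← add_smul]; norm_num
    nth_rw 2 [this]
    abel
  rw [e, norm_smul]
  have h3 : ‖x - (z - a)‖ ≤ 2 := by
    calc ‖x - (z - a)‖ ≤ ‖x‖ + ‖z - a‖ := norm_sub_le _ _
      _ = 2 := by rw [hx, hn]; norm_num
  have : ‖(1 / 12 : ℝ)‖ = 1 / 12 := by norm_num
  rw [this]
  linarith

omit [FiniteDimensional ℝ X] in
/-- Some point of `FInt x` is at distance more than one from `a`. -/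
theorem FInt.exists_far {x a : X} (hx : ‖x‖ = 1) (ha : ‖a‖ = 1) (ha0 : nr x a = 0)
    (hxF : x ∈ FInt x) : ∃ z ∈ FInt x, 1 < ‖z - a‖ := by
  by_contra hcon
  simp only [not_exists, not_and, not_lt] at hcon
  obtain ⟨z1, hz1, h1⟩ := FInt.step_down hx ha0 hxF hcon hxF
  obtain ⟨z2, hz2, h2⟩ := FInt.step_down hx ha0 hxF hcon hz1
  obtain ⟨z3, hz3, h3⟩ := FInt.step_down hx ha0 hxF hcon hz2
  obtain ⟨z4, hz4, h4⟩ := FInt.step_down hx ha0 hxF hcon hz3
  have hz41 : ‖z4‖ = 1 := hz4.1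
  have e : x - (4 : ℝ) • a = z4 - ((z4 - (z3 - a)) + (z3 - a - (z2 - a - a))
      + (z2 - a - a - (z1 - a - a - a)) + (z1 - a - a - a - (x - a - a - a - a))) := by
    have : (4 : ℝ) • a = a + a + a + a := by
      rw [show (4 : ℝ) = 1 + 1 + 1 + 1 by norm_num, add_smul, add_smul, add_smul, one_smul]
    rw [this]; abel
  have e2 : z3 - a - (z2 - a - a) = z3 - (z2 - a) := by abel
  have e3 : z2 - a - a - (z1 - a - a - a) = z2 - (z1 - a) := by abel
  have e4 : z1 - a - a - a - (x - a - a - a - a) = z1 - (x - a) := by abel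
  have hb : ‖x - (4 : ℝ) • a‖ ≤ 1 + (3 / 12 + 3 / 12 + 3 / 12 + 3 / 12) := by
    rw [e, e2, e3, e4]
    calc _ ≤ ‖z4‖ + ‖(z4 - (z3 - a)) + (z3 - (z2 - a)) + (z2 - (z1 - a)) + (z1 - (x - a))‖ :=
          norm_sub_le _ _
      _ ≤ 1 + (‖z4 - (z3 - a)‖ + ‖z3 - (z2 - a)‖ + ‖z2 - (z1 - a)‖ + ‖z1 - (x - a)‖) := by
          rw [hz41]
          have := norm_add₄_le (a := z4 - (z3 - a)) (b := z3 - (z2 - a)) (c := z2 - (z1 - a))
            (d := z1 - (x - a))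
          linarith
      _ ≤ _ := by linarith
  have hlow : 3 ≤ ‖x - (4 : ℝ) • a‖ := by
    have h5 : ‖(4 : ℝ) • a‖ ≤ ‖x - (4 : ℝ) • a‖ + ‖x‖ := by
      have := norm_sub_le (x - (4 : ℝ) • a) x
      have e5 : x - (4 : ℝ) • a - x = - ((4 : ℝ) • a) := by abel
      rw [e5, norm_neg] at this
      exact this
    rw [norm_smul, ha, hx] at h5
    have : ‖(4 : ℝ)‖ = 4 := by norm_num
    rw [this] at h5
    linarith
  linarith

theorem upper_near {x a : X} (hx : ‖x‖ = 1) (hs : Sm x) (hfl : IsFlat x) (ha : a ∈ Eo x)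
    (ha0 : nr x a = 0) :
    ∃ ε > 0, ∀ c : X, ‖c‖ = 1 → ‖c - a‖ < ε → 0 < nr x c → c ∈ BPlus x := by
  have hm := nr_mem hx
  have hxF : x ∈ FInt x := by
    obtain ⟨ε, hε, h⟩ := hfl
    exact ⟨hx, hm.2, ε, hε, h⟩
  have ha1 : ‖a‖ = 1 := ha.1
  -- the point `x - a` is in the face
  have hxa1 : ‖x - a‖ = 1 := ha.2
  have hxapl : nr x (x - a) = 1 := by rw [map_sub, hm.2, ha0, sub_zero]
  obtain ⟨ε₀, hε₀, hnp⟩ := FInt.near_plane hx hxF
  -- choose `τ`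
  set τ : ℝ := min (1 / 2) (ε₀ / 2) with hτ
  have hτ0 : 0 < τ := lt_min (by norm_num) (by linarith)
  have hτ1 : τ ≤ 1 / 2 := min_le_left _ _
  have hτ2 : τ ≤ ε₀ / 2 := min_le_right _ _
  -- `w = (1-τ)(x-a)+τ x`
  set w : X := (1 - τ) • (x - a) + τ • x with hw
  have hwF : w ∈ FInt x := FInt.comb hx hxa1 hxapl hxF (by linarith) hτ0 (by ring)
  have hwa : w + a = x + τ • a := by
    rw [hw, smul_sub, sub_smul, sub_smul, one_smul, one_smul]
    abel
  have hxτ : x + τ • a ∈ FInt x := by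
    apply hnp
    · rw [map_add, map_smul, ha0, hm.2]; simp
    · rw [add_sub_cancel_left, norm_smul, ha1, mul_one, Real.norm_eq_abs, abs_of_pos hτ0]
      linarith
  obtain ⟨ε₁, hε₁, hnp1⟩ := FInt.near_plane hx hxτ
  obtain ⟨z₂, hz₂, hfar⟩ := FInt.exists_far hx ha1 ha0 hxF
  refine ⟨min (ε₁ / 2) (‖z₂ - a‖ - 1), lt_min (by linarith) (by linarith), ?_⟩
  intro c hc hca hpos
  have hca1 : ‖c - a‖ < ε₁ / 2 := lt_of_lt_of_le hca (min_le_left _ _)
  have hca2 : ‖c - a‖ < ‖z₂ - a‖ - 1 := lt_of_lt_of_le hca (min_le_right _ _)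
  set s := nr x c with hs'
  have hsabs : |s| ≤ ‖c - a‖ := by
    have := nrm_abs_le hm (c - a)
    rwa [map_sub, ha0, sub_zero] at this
  have hsle : s ≤ 1 := by
    have := nrm_le hm c
    rw [hc] at this
    exact this
  set z₁ : X := (1 - s) • w + c with hz₁
  have hz₁pl : nr x z₁ = 1 := by
    rw [hz₁, map_add, map_smul, hwF.2.1, ← hs', smul_eq_mul]
    ring
  have hz₁near : ‖z₁ - (x + τ • a)‖ < ε₁ := by
    have e : z₁ - (x + τ • a) = (c - a) - s • w := by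
      rw [← hwa, hz₁, sub_smul, one_smul]
      abel
    rw [e]
    calc ‖(c - a) - s • w‖ ≤ ‖c - a‖ + ‖s • w‖ := norm_sub_le _ _
      _ = ‖c - a‖ + |s| := by rw [norm_smul, hwF.1, mul_one, Real.norm_eq_abs]
      _ < ε₁ := by linarith
  have hz₁F : z₁ ∈ FInt x := hnp1 _ hz₁pl hz₁near
  refine ⟨hc, z₁, hz₁F, z₂, hz₂, ?_, ?_⟩
  · have e : c - z₁ = - ((1 - s) • w) := by rw [hz₁]; abel
    rw [e, norm_neg, norm_smul, hwF.1, mul_one, Real.norm_eq_abs, abs_of_nonneg (by linarith)]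
    linarith
  · have : ‖z₂ - a‖ ≤ ‖z₂ - c‖ + ‖c - a‖ := by
      have := norm_add_le (z₂ - c) (c - a)
      simpa using this
    rw [norm_sub_rev c z₂]
    linarith

end Vale.Agent.Lib.P084.D3
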