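/-
Step 3 of the three-dimensional proof: for `x` off the set `D`, the set `E_x` is a Lipschitz closed
curve, two-pi periodic, over the rays of the plane `X / R x`.  The projection `P` has kernel `R x`,
the image of the open lens is open, convex, symmetric and bounded; its gauge is one exactly on the
image of `E_x`, and the projection is bi-Lipschitz on `E_x`.
-/
import Mathlib

namespace Vale.Agent.Lib.P084.D3.LoopAux

open Set Metric Filter Topology

variable {X : Type*} [NormedAddCommGroup X] [NormedSpace ℝ X]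

/-- The set `E_x`. -/
def En (x : X) : Set X := {c | ‖c‖ = 1 ∧ ‖x - c‖ = 1}

/-- `x` is off `D`: no norming functional of a point of `E_x` kills `x`. -/
def OffD (x : X) : Prop :=
  ∀ c ∈ En x, ∀ φ : StrongDual ℝ X, ‖φ‖ = 1 → φ c = 1 → φ x ≠ 0

lemma En_rho {x c : X} (hc : c ∈ En x) : x - c ∈ En x := by
  refine ⟨hc.2, ?_⟩
  simpa using hc.1

lemma le_one_of_norm {φ : StrongDual ℝ X} (hφ : ‖φ‖ = 1) (y : X) : φ y ≤ ‖y‖ := by
  have := φ.le_opNorm y
  rw [hφ, one_mul] at this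
  exact (le_abs_self _).trans this

lemma ge_neg_of_norm {φ : StrongDual ℝ X} (hφ : ‖φ‖ = 1) (y : X) : -‖y‖ ≤ φ y := by
  have := le_one_of_norm hφ (-y)
  simp only [map_neg, norm_neg] at this
  linarith

/-- Positivity of the normals on `E_x`. -/
lemma OffD.pos {x : X} (hD : OffD x) {c : X} (hc : c ∈ En x) {φ : StrongDual ℝ X}
    (hφ : ‖φ‖ = 1) (hφc : φ c = 1) : 0 < φ x := by
  have h0 : 0 ≤ φ x := by
    have h1 : φ x = φ c + φ (x - c) := by rw [map_sub]; ring
    have h2 := ge_neg_of_norm hφ (x - c)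
    rw [hc.2] at h2
    rw [h1, hφc]
    linarith
  exact lt_of_le_of_ne h0 (Ne.symm (hD c hc φ hφ hφc))

section FD

variable [FiniteDimensional ℝ X]

/-- A strictly inward direction at the unit vector `ρ` (all normals positive on `x`): `ρ - τ x` is
in the open ball for some `τ > 0`. -/
lemma exists_inward {ρ x : X} (hρ : ‖ρ‖ = 1)
    (hpos : ∀ φ : StrongDual ℝ X, ‖φ‖ = 1 → φ ρ = 1 → 0 < φ x) :
    ∃ τ₀ : ℝ, 0 < τ₀ ∧ ‖ρ - τ₀ • x‖ < 1 := by
  classical
  by_contra hcon
  have hcon : ∀ τ₀ : ℝ, 0 < τ₀ → 1 ≤ ‖ρ - τ₀ • x‖ := by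
    intro τ₀ h0
    by_contra h1
    exact hcon ⟨τ₀, h0, not_le.mp h1⟩
  have hsel : ∀ n : ℕ, ∃ φ : StrongDual ℝ X, ‖φ‖ = 1 ∧
      φ (ρ - (1 / ((n : ℝ) + 1)) • x) = ‖ρ - (1 / ((n : ℝ) + 1)) • x‖ := by
    intro n
    have hne : ρ - (1 / ((n : ℝ) + 1)) • x ≠ 0 := by
      intro h0
      have := hcon (1 / ((n : ℝ) + 1)) (by positivity)
      rw [h0, norm_zero] at this
      linarith
    obtain ⟨φ, h1, h2⟩ := exists_dual_vector ℝ _ (norm_ne_zero_iff.mpr hne)
    exact ⟨φ, h1, by simpa using h2⟩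
  choose φ hφ1 hφ2 using hsel
  have : ProperSpace (StrongDual ℝ X) := FiniteDimensional.proper_real _
  have hcomp : IsCompact (sphere (0 : StrongDual ℝ X) 1) := isCompact_sphere _ _
  have hmem : ∀ n, φ n ∈ sphere (0 : StrongDual ℝ X) 1 := fun n => by simp [hφ1 n]
  obtain ⟨ψ, hψ, σ, hσ, hlim⟩ := hcomp.tendsto_subseq hmem
  have hψ1 : ‖ψ‖ = 1 := by simpa using hψ
  have hinv : Tendsto (fun n : ℕ => 1 / (((σ n : ℕ) : ℝ) + 1)) atTop (𝓝 0) :=
    (tendsto_one_div_add_atTop_nhds_zero_nat (𝕜 := ℝ)).comp hσ.tendsto_atTop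
  have happ : ∀ y : X, Tendsto (fun n => φ (σ n) y) atTop (𝓝 (ψ y)) := fun y =>
    ((ContinuousLinearMap.apply ℝ ℝ y).continuous.tendsto ψ).comp hlim
  -- each φ n is nonpositive on x, and nearly one on ρ
  have hfacts : ∀ n, φ n x ≤ 0 ∧ 1 + (1 / ((n : ℝ) + 1)) * φ n x ≤ φ n ρ := by
    intro n
    have h1 := hφ2 n
    have h2 := hcon (1 / ((n : ℝ) + 1)) (by positivity)
    rw [map_sub, map_smul, smul_eq_mul] at h1
    have h3 := le_one_of_norm (hφ1 n) ρ
    rw [hρ] at h3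
    have hpos' : (0 : ℝ) < 1 / ((n : ℝ) + 1) := by positivity
    constructor
    · by_contra hgt
      have hgt := not_le.mp hgt
      have := mul_pos hpos' hgt
      nlinarith
    · nlinarith
  have hx0 : ψ x ≤ 0 := le_of_tendsto' (happ x) fun n => (hfacts (σ n)).1
  have hρ1 : 1 ≤ ψ ρ := by
    have hl : Tendsto (fun n : ℕ => 1 + (1 / (((σ n : ℕ) : ℝ) + 1)) * φ (σ n) x) atTop
        (𝓝 (1 + 0 * ψ x)) := tendsto_const_nhds.add (hinv.mul (happ x))
    have : 1 + 0 * ψ x ≤ ψ ρ := le_of_tendsto_of_tendsto' hl (happ ρ) fun n => (hfacts (σ n)).2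
    linarith
  have hρ2 : ψ ρ = 1 := le_antisymm (by simpa [hρ] using le_one_of_norm hψ1 ρ) hρ1
  exact absurd (hpos ψ hψ1 hρ2) (not_lt.mpr hx0)

/-- Moving to the open lens: a point of the closed lens with one constraint strict has a point of
the open lens on the same line parallel to `x`. -/
lemma exists_open_of_strict {x y : X} (hy1 : ‖y‖ ≤ 1) (hy2 : ‖x - y‖ ≤ 1)
    (hs : ‖y‖ < 1 ∨ ‖x - y‖ < 1) :
    ∃ τ : ℝ, ‖y + τ • x‖ < 1 ∧ ‖x - (y + τ • x)‖ < 1 := by
  by_cases h1 : ‖y‖ < 1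
  · by_cases h2 : ‖x - y‖ < 1
    · exact ⟨0, by simpa using h1, by simpa using h2⟩
    · have h2' : ‖x - y‖ = 1 := le_antisymm hy2 (not_lt.mp h2)
      -- move in the direction + x
      obtain ⟨τ₀, hτ₀, hτ⟩ := exists_inward (ρ := x - y) (x := x) h2' (by
        intro φ hφ hφ1
        have h3 : φ x = φ (x - y) + φ y := by rw [map_sub]; ring
        have h4 := ge_neg_of_norm hφ y
        rw [h3, hφ1]
        linarith)
      have hcont : ContinuousAt (fun t : ℝ => ‖y + t • x‖) 0 := by fun_prop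
      have hev : ∀ᶠ t in 𝓝 (0 : ℝ), ‖y + t • x‖ < 1 := by
        apply hcont.eventually_lt continuousAt_const
        simpa using h1
      obtain ⟨ε, hε, hball⟩ := Metric.eventually_nhds_iff.mp hev
      set τ := min (ε / 2) τ₀ with hτdef
      have hτpos : 0 < τ := lt_min (by linarith) hτ₀
      have hτle : τ ≤ τ₀ := min_le_right _ _
      refine ⟨τ, hball ?_, ?_⟩
      · rw [Real.dist_eq, sub_zero, abs_of_pos hτpos]
        exact lt_of_le_of_lt (min_le_left _ _) (by linarith)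
      · -- convexity along the segment
        have hlam : x - (y + τ • x) = (1 - τ / τ₀) • (x - y) + (τ / τ₀) • ((x - y) - τ₀ • x) := by
          have : (τ / τ₀) * τ₀ = τ := by field_simp
          rw [smul_sub (τ / τ₀), smul_smul, this]
          rw [sub_smul, one_smul]
          abel
        rw [hlam]
        have h0 : 0 < τ / τ₀ := by positivity
        have h1' : τ / τ₀ ≤ 1 := (div_le_one hτ₀).mpr hτle
        calc ‖(1 - τ / τ₀) • (x - y) + (τ / τ₀) • ((x - y) - τ₀ • x)‖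
            ≤ (1 - τ / τ₀) * ‖x - y‖ + (τ / τ₀) * ‖(x - y) - τ₀ • x‖ := by
              refine (norm_add_le _ _).trans ?_
              rw [norm_smul, norm_smul, Real.norm_of_nonneg (by linarith),
                Real.norm_of_nonneg h0.le]
          _ < 1 := by
              rw [h2']
              have := mul_lt_mul_of_pos_left hτ h0
              nlinarith
  · have h1' : ‖y‖ = 1 := le_antisymm hy1 (not_lt.mp h1)
    have h2 : ‖x - y‖ < 1 := hs.resolve_left h1
    obtain ⟨τ₀, hτ₀, hτ⟩ := exists_inward (ρ := y) (x := x) h1' (by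
      intro φ hφ hφ1
      have h3 : φ x = φ y + φ (x - y) := by rw [map_sub]; ring
      have h4 := ge_neg_of_norm hφ (x - y)
      rw [h3, hφ1]
      linarith)
    have hcont : ContinuousAt (fun t : ℝ => ‖x - (y - t • x)‖) 0 := by fun_prop
    have hev : ∀ᶠ t in 𝓝 (0 : ℝ), ‖x - (y - t • x)‖ < 1 := by
      apply hcont.eventually_lt continuousAt_const
      simpa using h2
    obtain ⟨ε, hε, hball⟩ := Metric.eventually_nhds_iff.mp hev
    set τ := min (ε / 2) τ₀ with hτdef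
    have hτpos : 0 < τ := lt_min (by linarith) hτ₀
    have hτle : τ ≤ τ₀ := min_le_right _ _
    refine ⟨-τ, ?_, ?_⟩
    · have hlam : y + (-τ) • x = (1 - τ / τ₀) • y + (τ / τ₀) • (y - τ₀ • x) := by
        have : (τ / τ₀) * τ₀ = τ := by field_simp
        rw [smul_sub (τ / τ₀), smul_smul, this, neg_smul, sub_smul, one_smul]
        abel
      rw [hlam]
      have h0 : 0 < τ / τ₀ := by positivity
      have h1'' : τ / τ₀ ≤ 1 := (div_le_one hτ₀).mpr hτle
      calc ‖(1 - τ / τ₀) • y + (τ / τ₀) • (y - τ₀ • x)‖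
          ≤ (1 - τ / τ₀) * ‖y‖ + (τ / τ₀) * ‖y - τ₀ • x‖ := by
            refine (norm_add_le _ _).trans ?_
            rw [norm_smul, norm_smul, Real.norm_of_nonneg (by linarith),
              Real.norm_of_nonneg h0.le]
        _ < 1 := by
            rw [h1']
            have := mul_lt_mul_of_pos_left hτ h0
            nlinarith
    · have : ‖x - (y - τ • x)‖ < 1 := hball (by
        rw [Real.dist_eq, sub_zero, abs_of_pos hτpos]
        exact lt_of_le_of_lt (min_le_left _ _) (by linarith))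
      simpa [neg_smul, sub_eq_add_neg] using this

/-- The open lens. -/
def OLens (x : X) : Set X := {y | ‖y‖ < 1 ∧ ‖x - y‖ < 1}

lemma isOpen_OLens (x : X) : IsOpen (OLens x) := by
  have h1 : IsOpen {y : X | ‖y‖ < 1} := isOpen_lt (by fun_prop) continuous_const
  have h2 : IsOpen {y : X | ‖x - y‖ < 1} := isOpen_lt (by fun_prop) continuous_const
  exact h1.inter h2

lemma convex_OLens (x : X) : Convex ℝ (OLens x) := by
  intro a ha b hb p q hp hq hpq
  have hcomb : ∀ u v : X, ‖u‖ < 1 → ‖v‖ < 1 → ‖p • u + q • v‖ < 1 := by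
    intro u v hu hv
    have h1 : ‖p • u + q • v‖ ≤ p * ‖u‖ + q * ‖v‖ := by
      refine (norm_add_le _ _).trans ?_
      rw [norm_smul, norm_smul, Real.norm_of_nonneg hp, Real.norm_of_nonneg hq]
    rcases hp.eq_or_lt with h0 | h0
    · have hq1 : q = 1 := by linarith
      subst h0; subst hq1
      simpa using hv
    · have : p * ‖u‖ < p * 1 := mul_lt_mul_of_pos_left hu h0
      have h3 : q * ‖v‖ ≤ q * 1 := mul_le_mul_of_nonneg_left hv.le hq
      linarith
  refine ⟨hcomb a b ha.1 hb.1, ?_⟩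
  have : x - (p • a + q • b) = p • (x - a) + q • (x - b) := by
    have hq' : q = 1 - p := by linarith
    subst hq'
    module
  rw [this]
  exact hcomb _ _ ha.2 hb.2

lemma half_mem_OLens {x : X} (hx : ‖x‖ = 1) : (1 / 2 : ℝ) • x ∈ OLens x := by
  constructor
  · rw [norm_smul, hx]; norm_num
  · have : x - (1 / 2 : ℝ) • x = (1 / 2 : ℝ) • x := by
      rw [eq_comm, eq_sub_iff_add_eq, ← add_smul]; norm_num
    rw [this, norm_smul, hx]; norm_num

/-- Convexity along the line through `c` parallel to `x`: outside the open interval `(-1, 0)` the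
norm of `c + s x` is at least one. -/
lemma one_le_norm_line {x c : X} (hc : c ∈ En x) {s : ℝ} (hs : s ≤ -1 ∨ 0 ≤ s) :
    1 ≤ ‖c + s • x‖ := by
  rcases hs with hs | hs
  · -- c - x is between c + s x and c
    have hs' : 0 < -s := by linarith
    have hl : c - x = (1 / (-s)) • (c + s • x) + (1 - 1 / (-s)) • c := by
      have h0 : s ≠ 0 := by linarith
      have : (1 / (-s)) * s = -1 := by
        field_simp
      rw [smul_add, smul_smul, this]
      module
    have h1 : ‖c - x‖ = 1 := by rw [norm_sub_rev]; exact hc.2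
    have h2 : ‖c - x‖ ≤ (1 / (-s)) * ‖c + s • x‖ + (1 - 1 / (-s)) * ‖c‖ := by
      rw [hl]
      refine (norm_add_le _ _).trans ?_
      have hle : 1 / (-s) ≤ 1 := by
        rw [div_le_one hs']
        linarith
      rw [norm_smul, norm_smul, Real.norm_of_nonneg (by positivity),
        Real.norm_of_nonneg (by linarith)]
    rw [h1, hc.1, mul_one] at h2
    have h3 : (0 : ℝ) < 1 / (-s) := by positivity
    have h4 : 1 / (-s) * 1 ≤ 1 / (-s) * ‖c + s • x‖ := by linarith
    exact le_of_mul_le_mul_left h4 h3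
  · -- c is between c + s x and c - x
    have hs' : 0 < 1 + s := by linarith
    have hne : (1 + s) ≠ 0 := ne_of_gt hs'
    have hl : c = (1 / (1 + s)) • (c + s • x) + (s / (1 + s)) • (c - x) := by
      have h1 : (1 / (1 + s)) * s = s / (1 + s) := by ring
      have h2 : (1 / (1 + s)) + s / (1 + s) = 1 := by field_simp
      rw [smul_add, smul_smul, h1, smul_sub]
      have h3 : c = ((1 / (1 + s)) + s / (1 + s)) • c := by rw [h2, one_smul]
      nth_rewrite 1 [h3]
      module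
    have h1 : ‖c - x‖ = 1 := by rw [norm_sub_rev]; exact hc.2
    have h2 : ‖c‖ ≤ (1 / (1 + s)) * ‖c + s • x‖ + (s / (1 + s)) * ‖c - x‖ := by
      nth_rewrite 1 [hl]
      refine (norm_add_le _ _).trans ?_
      rw [norm_smul, norm_smul, Real.norm_of_nonneg (by positivity),
        Real.norm_of_nonneg (by positivity)]
    rw [h1, hc.1] at h2
    have h3 : (0 : ℝ) < 1 / (1 + s) := by positivity
    have h4 : (1 / (1 + s)) + s / (1 + s) = 1 := by field_simp
    have h5 : 1 / (1 + s) * 1 ≤ 1 / (1 + s) * ‖c + s • x‖ := by nlinarith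
    exact le_of_mul_le_mul_left h5 h3

/-- A point of `E_x` is off the image of the open lens. -/
lemma not_mem_image_OLens {x c : X} (hc : c ∈ En x) {P : X →L[ℝ] ℂ}
    (hPk : ∀ y, P y = 0 → ∃ s : ℝ, y = s • x) : P c ∉ P '' OLens x := by
  rintro ⟨y, hy, hyc⟩
  obtain ⟨τ, hτ⟩ := hPk (y - c) (by rw [map_sub, hyc, sub_self])
  have hy' : y = c + τ • x := by rw [← hτ]; abel
  have h1 : ‖c + τ • x‖ < 1 := by rw [← hy']; exact hy.1
  have h2 : ‖c + (τ - 1) • x‖ < 1 := by
    have h3 := hy.2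
    rw [hy', norm_sub_rev] at h3
    have : c + τ • x - x = c + (τ - 1) • x := by module
    rwa [this] at h3
  have hτ1 : -1 < τ ∧ τ < 0 := by
    constructor
    · by_contra hcon
      exact absurd h1 (not_lt.mpr (one_le_norm_line hc (Or.inl (not_lt.mp hcon))))
    · by_contra hcon
      exact absurd h1 (not_lt.mpr (one_le_norm_line hc (Or.inr (not_lt.mp hcon))))
  have hτ2 : 0 ≤ τ - 1 ∨ τ - 1 ≤ -1 := by
    right; linarith [hτ1.2]
  exact absurd h2 (not_lt.mpr (one_le_norm_line hc hτ2.symm))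

/-- Lift: a point of the closed lens over a point off the image of the open lens is in `E_x`. -/
lemma mem_En_of_not_mem {x y : X} {P : X →L[ℝ] ℂ} (hPx : P x = 0) (hy1 : ‖y‖ ≤ 1)
    (hy2 : ‖x - y‖ ≤ 1) (hy : P y ∉ P '' OLens x) : y ∈ En x := by
  by_contra hcon
  have hs : ‖y‖ < 1 ∨ ‖x - y‖ < 1 := by
    by_contra hcon2
    have h1 : ¬ ‖y‖ < 1 := fun h => hcon2 (Or.inl h)
    have h2 : ¬ ‖x - y‖ < 1 := fun h => hcon2 (Or.inr h)
    exact hcon ⟨le_antisymm hy1 (not_lt.mp h1), le_antisymm hy2 (not_lt.mp h2)⟩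
  obtain ⟨τ, h1, h2⟩ := exists_open_of_strict hy1 hy2 hs
  exact hy ⟨y + τ • x, ⟨h1, h2⟩, by rw [map_add, map_smul, hPx, smul_zero, add_zero]⟩

/-- Uniform positivity of the normals on `E_x`. -/
lemma OffD.exists_min {x : X} (hD : OffD x) :
    ∃ m : ℝ, 0 < m ∧ ∀ c ∈ En x, ∀ φ : StrongDual ℝ X, ‖φ‖ = 1 → φ c = 1 → m ≤ φ x := by
  classical
  have : ProperSpace X := FiniteDimensional.proper_real _
  have : ProperSpace (StrongDual ℝ X) := FiniteDimensional.proper_real _
  let C : Set (X × StrongDual ℝ X) :=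
    {p | ‖p.1‖ = 1 ∧ ‖x - p.1‖ = 1 ∧ ‖p.2‖ = 1 ∧ p.2 p.1 = 1}
  have hcl : IsClosed C := by
    have h1 : IsClosed {p : X × StrongDual ℝ X | ‖p.1‖ = 1} :=
      isClosed_eq (by fun_prop) continuous_const
    have h2 : IsClosed {p : X × StrongDual ℝ X | ‖x - p.1‖ = 1} :=
      isClosed_eq (by fun_prop) continuous_const
    have h3 : IsClosed {p : X × StrongDual ℝ X | ‖p.2‖ = 1} :=
      isClosed_eq (by fun_prop) continuous_const
    have h4 : IsClosed {p : X × StrongDual ℝ X | p.2 p.1 = 1} :=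
      isClosed_eq (continuous_snd.clm_apply continuous_fst) continuous_const
    exact h1.inter (h2.inter (h3.inter h4))
  have hsub : C ⊆ closedBall (0 : X) 1 ×ˢ closedBall (0 : StrongDual ℝ X) 1 := by
    rintro ⟨a, b⟩ ⟨h1, -, h3, -⟩
    exact ⟨by simp [h1], by simp [h3]⟩
  have hcomp : IsCompact C :=
    ((isCompact_closedBall _ _).prod (isCompact_closedBall _ _)).of_isClosed_subset hcl hsub
  rcases C.eq_empty_or_nonempty with hE | hN
  · refine ⟨1, one_pos, fun c hc φ hφ hφc => ?_⟩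
    have : (c, φ) ∈ C := ⟨hc.1, hc.2, hφ, hφc⟩
    rw [hE] at this
    exact absurd this (notMem_empty _)
  · obtain ⟨p, hp, hmin⟩ := hcomp.exists_isMinOn hN
      (f := fun p : X × StrongDual ℝ X => p.2 x)
      (continuous_snd.clm_apply continuous_const).continuousOn
    refine ⟨p.2 x, hD.pos ⟨hp.1, hp.2.1⟩ hp.2.2.1 hp.2.2.2, fun c hc φ hφ hφc => ?_⟩
    exact hmin (show (c, φ) ∈ C from ⟨hc.1, hc.2, hφ, hφc⟩)


/-! ### The projection onto the plane -/

/-- Points of `E_x` do not project to zero. -/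
lemma En_ne_mul {x c : X} (hx : ‖x‖ = 1) (hc : c ∈ En x) (s : ℝ) : c ≠ s • x := by
  intro h
  have h1 := hc.1
  have h2 := hc.2
  rw [h, norm_smul, hx, mul_one, Real.norm_eq_abs] at h1
  have h3 : x - s • x = (1 - s) • x := by module
  rw [h, h3, norm_smul, hx, mul_one, Real.norm_eq_abs] at h2
  rcases abs_cases s with ⟨h4, _⟩ | ⟨h4, _⟩ <;> rcases abs_cases (1 - s) with ⟨h5, _⟩ | ⟨h5, _⟩ <;>
    linarith

/-- The projection along `x` onto a plane. -/
lemma exists_proj (hdim : Module.finrank ℝ X = 3) {x : X} (hx : x ≠ 0) :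
    ∃ P : X →L[ℝ] ℂ, Function.Surjective P ∧ P x = 0 ∧ ∀ y, P y = 0 → ∃ s : ℝ, y = s • x := by
  classical
  set S : Submodule ℝ X := Submodule.span ℝ {x} with hS
  have h1 : Module.finrank ℝ S = 1 := finrank_span_singleton hx
  have h2 : Module.finrank ℝ (X ⧸ S) = 2 := by
    have := Submodule.finrank_quotient_add_finrank S
    omega
  have h3 : Module.finrank ℝ (X ⧸ S) = Module.finrank ℝ ℂ := by
    rw [h2, Complex.finrank_real_complex]
  let e : (X ⧸ S) ≃ₗ[ℝ] ℂ := LinearEquiv.ofFinrankEq _ _ h3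
  let P0 : X →ₗ[ℝ] ℂ := e.toLinearMap ∘ₗ S.mkQ
  refine ⟨LinearMap.toContinuousLinearMap P0, ?_, ?_, ?_⟩
  · intro z
    obtain ⟨w, hw⟩ := e.surjective z
    obtain ⟨y, hy⟩ := S.mkQ_surjective w
    exact ⟨y, by simp [P0, hy, hw]⟩
  · have : S.mkQ x = 0 := by
      rw [Submodule.mkQ_apply, Submodule.Quotient.mk_eq_zero]
      exact Submodule.mem_span_singleton_self x
    simp [P0, this]
  · intro y hy
    have h4 : e (S.mkQ y) = 0 := by simpa [P0] using hy
    have h5 : S.mkQ y = 0 := by simpa using h4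
    rw [Submodule.mkQ_apply, Submodule.Quotient.mk_eq_zero] at h5
    obtain ⟨s, hs⟩ := Submodule.mem_span_singleton.mp h5
    exact ⟨s, hs.symm⟩

/-! ### The image of the lens and its gauge -/

/-- The image of the open lens. -/
def AA (x : X) (P : X →L[ℝ] ℂ) : Set ℂ := P '' OLens x

lemma AA_isOpen {x : X} {P : X →L[ℝ] ℂ} (hPs : Function.Surjective P) : IsOpen (AA x P) := by
  have : CompleteSpace X := FiniteDimensional.complete ℝ X
  exact P.isOpenMap hPs _ (isOpen_OLens x)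

lemma AA_convex {x : X} {P : X →L[ℝ] ℂ} : Convex ℝ (AA x P) :=
  (convex_OLens x).linear_image P.toLinearMap

lemma AA_zero {x : X} {P : X →L[ℝ] ℂ} (hx : ‖x‖ = 1) (hPx : P x = 0) : (0 : ℂ) ∈ AA x P :=
  ⟨(1 / 2 : ℝ) • x, half_mem_OLens hx, by rw [map_smul, hPx, smul_zero]⟩

lemma AA_sym {x : X} {P : X →L[ℝ] ℂ} (hPx : P x = 0) : ∀ z ∈ AA x P, -z ∈ AA x P := by
  rintro z ⟨y, hy, rfl⟩
  refine ⟨x - y, ⟨hy.2, ?_⟩, ?_⟩
  · simpa using hy.1
  · rw [map_sub, hPx, zero_sub]

lemma AA_bdd {x : X} {P : X →L[ℝ] ℂ} : AA x P ⊆ closedBall (0 : ℂ) (‖P‖ + 1) := by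
  rintro z ⟨y, hy, rfl⟩
  rw [mem_closedBall, dist_zero_right]
  have h1 := P.le_opNorm y
  have h2 : ‖P‖ * ‖y‖ ≤ ‖P‖ * 1 := mul_le_mul_of_nonneg_left hy.1.le (norm_nonneg _)
  have h3 := norm_nonneg P
  linarith

lemma gg_En {x c : X} {P : X →L[ℝ] ℂ} (hPs : Function.Surjective P) (hx : ‖x‖ = 1) (hPx : P x = 0)
    (hPk : ∀ y, P y = 0 → ∃ s : ℝ, y = s • x) (hc : c ∈ En x) : gauge (AA x P) (P c) = 1 := by
  have hO := AA_isOpen (x := x) hPs
  have hn : AA x P ∈ 𝓝 (0 : ℂ) := hO.mem_nhds (AA_zero hx hPx)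
  have ha : Absorbent ℝ (AA x P) := absorbent_nhds_zero hn
  apply le_antisymm
  · by_contra hcon
    have hg : 1 < gauge (AA x P) (P c) := not_le.mp hcon
    set g := gauge (AA x P) (P c) with hgdef
    have hg0 : 0 < g := by linarith
    set r := g⁻¹ with hr
    have hr0 : 0 < r := inv_pos.mpr hg0
    have hr1 : r < 1 := inv_lt_one_of_one_lt₀ hg
    have hmem : r • P c ∈ AA x P := by
      refine ⟨r • c + (1 - r) • ((1 / 2 : ℝ) • x), ⟨?_, ?_⟩, ?_⟩
      · have hm := half_mem_OLens hx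
        have := (convex_OLens x)
        have h1 : ‖r • c + (1 - r) • ((1 / 2 : ℝ) • x)‖ ≤ r * ‖c‖ + (1 - r) * ‖(1 / 2 : ℝ) • x‖ := by
          refine (norm_add_le _ _).trans ?_
          rw [norm_smul, norm_smul, Real.norm_of_nonneg hr0.le,
            Real.norm_of_nonneg (by linarith)]
        have h2 : (1 - r) * ‖(1 / 2 : ℝ) • x‖ < (1 - r) * 1 :=
          mul_lt_mul_of_pos_left hm.1 (by linarith)
        rw [hc.1] at h1
        linarith
      · have hm := half_mem_OLens hx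
        have h0 : x - (r • c + (1 - r) • ((1 / 2 : ℝ) • x)) =
            r • (x - c) + (1 - r) • (x - (1 / 2 : ℝ) • x) := by module
        rw [h0]
        have h1 : ‖r • (x - c) + (1 - r) • (x - (1 / 2 : ℝ) • x)‖ ≤
            r * ‖x - c‖ + (1 - r) * ‖x - (1 / 2 : ℝ) • x‖ := by
          refine (norm_add_le _ _).trans ?_
          rw [norm_smul, norm_smul, Real.norm_of_nonneg hr0.le,
            Real.norm_of_nonneg (by linarith)]
        have h2 : (1 - r) * ‖x - (1 / 2 : ℝ) • x‖ < (1 - r) * 1 :=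
          mul_lt_mul_of_pos_left hm.2 (by linarith)
        rw [hc.2] at h1
        linarith
      · simp only [map_add, map_smul, hPx, smul_zero, add_zero]
    have h3 := gauge_lt_one_of_mem_of_isOpen hO hmem
    rw [gauge_smul_of_nonneg hr0.le, smul_eq_mul, ← hgdef, hr, inv_mul_cancel₀ hg0.ne'] at h3
    exact lt_irrefl _ h3
  · by_contra hcon
    have hlt : gauge (AA x P) (P c) < 1 := not_le.mp hcon
    have : P c ∈ AA x P :=
      setOfPred_gauge_lt_one_subset_self (AA_convex) (AA_zero hx hPx) ha hlt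
    exact not_mem_image_OLens hc hPk this

lemma gg_lift {x : X} {P : X →L[ℝ] ℂ} (hPs : Function.Surjective P) (hx : ‖x‖ = 1) (hPx : P x = 0)
    {z : ℂ} (hz : gauge (AA x P) z = 1) : ∃ c ∈ En x, P c = z := by
  have : ProperSpace X := FiniteDimensional.proper_real _
  have hO := AA_isOpen (x := x) hPs
  have hn : AA x P ∈ 𝓝 (0 : ℂ) := hO.mem_nhds (AA_zero hx hPx)
  have hcl : z ∈ closure (AA x P) := (gauge_le_one_iff_mem_closure AA_convex hn).mp hz.le
  -- compact closed lens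
  let CL : Set X := {y | ‖y‖ ≤ 1 ∧ ‖x - y‖ ≤ 1}
  have hCLc : IsCompact CL := by
    refine (isCompact_closedBall (0 : X) 1).of_isClosed_subset ?_ ?_
    · have h1 : IsClosed {y : X | ‖y‖ ≤ 1} := isClosed_le (by fun_prop) continuous_const
      have h2 : IsClosed {y : X | ‖x - y‖ ≤ 1} := isClosed_le (by fun_prop) continuous_const
      exact h1.inter h2
    · intro y hy
      simpa using hy.1
  have hIc : IsClosed (P '' CL) := (hCLc.image P.continuous).isClosed
  have hsub : AA x P ⊆ P '' CL := by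
    rintro w ⟨y, hy, rfl⟩
    exact ⟨y, ⟨hy.1.le, hy.2.le⟩, rfl⟩
  obtain ⟨y, hy, hyz⟩ := closure_minimal hsub hIc hcl
  refine ⟨y, ?_, hyz⟩
  refine mem_En_of_not_mem hPx hy.1 hy.2 ?_
  rw [hyz]
  intro hzA
  have := gauge_lt_one_of_mem_of_isOpen hO hzA
  rw [hz] at this
  exact lt_irrefl _ this

/-- The projection is bi-Lipschitz on `E_x`. -/
lemma En_lip {x : X} {P : X →L[ℝ] ℂ} (hPs : Function.Surjective P) (hx : ‖x‖ = 1)
    (hPk : ∀ y, P y = 0 → ∃ s : ℝ, y = s • x) (hD : OffD x) :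
    ∃ K : ℝ, 0 < K ∧ ∀ c ∈ En x, ∀ c' ∈ En x, ‖c' - c‖ ≤ K * ‖P c' - P c‖ := by
  have : CompleteSpace X := FiniteDimensional.complete ℝ X
  obtain ⟨m, hm, hmin⟩ := hD.exists_min
  obtain ⟨C, hC, hCpre⟩ := P.exists_preimage_norm_le hPs
  refine ⟨(1 + 1 / m) * C, by positivity, fun c hc c' hc' => ?_⟩
  obtain ⟨w, hw, hwn⟩ := hCpre (P c' - P c)
  obtain ⟨s, hs⟩ := hPk (c' - c - w) (by rw [map_sub, map_sub, hw, sub_self])
  have hdiff : c' - c = w + s • x := by rw [← hs]; abel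
  have hc0 : ‖c‖ ≠ 0 := by rw [hc.1]; exact one_ne_zero
  have hc0' : ‖c'‖ ≠ 0 := by rw [hc'.1]; exact one_ne_zero
  obtain ⟨φ, hφ1, hφ2⟩ := exists_dual_vector ℝ c hc0
  obtain ⟨φ', hφ1', hφ2'⟩ := exists_dual_vector ℝ c' hc0'
  have hφc : φ c = 1 := by rw [hφ2, hc.1]; simp
  have hφc' : φ' c' = 1 := by rw [hφ2', hc'.1]; simp
  have h1 : m ≤ φ x := hmin c hc φ hφ1 hφc
  have h1' : m ≤ φ' x := hmin c' hc' φ' hφ1' hφc'
  -- two inequalities
  have h2 : φ (c' - c) ≤ 0 := by
    have := le_one_of_norm hφ1 c'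
    rw [hc'.1] at this
    rw [map_sub, hφc]; linarith
  have h2' : 0 ≤ φ' (c' - c) := by
    have := le_one_of_norm hφ1' c
    rw [hc.1] at this
    rw [map_sub, hφc']; linarith
  rw [hdiff, map_add, map_smul, smul_eq_mul] at h2 h2'
  have h3 := ge_neg_of_norm hφ1 w
  have h3' := le_one_of_norm hφ1' w
  have h4 : |s| * m ≤ ‖w‖ := by
    rcases le_total 0 s with h0 | h0
    · rw [abs_of_nonneg h0]
      have := mul_le_mul_of_nonneg_left h1 h0
      linarith
    · rw [abs_of_nonpos h0]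
      have := mul_le_mul_of_nonneg_left h1' (neg_nonneg.mpr h0)
      nlinarith
  have h5 : |s| ≤ ‖w‖ / m := by
    rw [le_div_iff₀ hm]; exact h4
  calc ‖c' - c‖ = ‖w + s • x‖ := by rw [hdiff]
    _ ≤ ‖w‖ + |s| := by
        refine (norm_add_le _ _).trans ?_
        rw [norm_smul, hx, mul_one, Real.norm_eq_abs]
    _ ≤ ‖w‖ + ‖w‖ / m := by linarith
    _ = (1 + 1 / m) * ‖w‖ := by field_simp
    _ ≤ (1 + 1 / m) * (C * ‖P c' - P c‖) :=
        mul_le_mul_of_nonneg_left hwn (by positivity)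
    _ = (1 + 1 / m) * C * ‖P c' - P c‖ := by ring

/-! ### The unit circle -/

/-- The unit circle. -/
noncomputable def uu (t : ℝ) : ℂ := Complex.exp (t * Complex.I)

lemma norm_uu (t : ℝ) : ‖uu t‖ = 1 := Complex.norm_exp_ofReal_mul_I t

lemma uu_add_pi (t : ℝ) : uu (t + Real.pi) = - uu t := by
  unfold uu
  push_cast
  rw [add_mul, Complex.exp_add, Complex.exp_pi_mul_I]
  ring

lemma uu_sub_le (s t : ℝ) : ‖uu s - uu t‖ ≤ |s - t| := by
  have h1 : uu s - uu t = uu t * (Complex.exp (Complex.I * ((s - t : ℝ) : ℂ)) - 1) := by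
    unfold uu
    rw [mul_sub, mul_one, ← Complex.exp_add]
    congr 2
    push_cast
    ring
  rw [h1, norm_mul, norm_uu, one_mul]
  exact Real.norm_exp_I_mul_ofReal_sub_one_le

lemma uu_polar (z : ℂ) : z = ‖z‖ • uu (Complex.arg z) := by
  unfold uu
  rw [Complex.real_smul]
  exact (Complex.norm_mul_exp_arg_mul_I z).symm

lemma uu_re (t : ℝ) : (uu t).re = Real.cos t := Complex.exp_ofReal_mul_I_re t
lemma uu_im (t : ℝ) : (uu t).im = Real.sin t := Complex.exp_ofReal_mul_I_im t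

lemma uu_indep {s t : ℝ} (hst : s < t) (h2 : t < s + Real.pi) {a b : ℝ}
    (h : a • uu s + b • uu t = 0) : a = 0 ∧ b = 0 := by
  have hre := congrArg Complex.re h
  have him := congrArg Complex.im h
  simp only [Complex.add_re, Complex.real_smul, Complex.mul_re, Complex.ofReal_re,
    Complex.ofReal_im, zero_mul, sub_zero, uu_re, Complex.zero_re, Complex.add_im,
    Complex.mul_im, uu_im, add_zero, Complex.zero_im] at hre him
  have hsin : 0 < Real.sin (t - s) :=
    Real.sin_pos_of_pos_of_lt_pi (by linarith) (by linarith)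
  rw [Real.sin_sub] at hsin
  have hb : b * (Real.sin t * Real.cos s - Real.cos t * Real.sin s) = 0 := by
    linear_combination Real.cos s * him - Real.sin s * hre
  have ha : a * (Real.sin t * Real.cos s - Real.cos t * Real.sin s) = 0 := by
    linear_combination Real.sin t * hre - Real.cos t * him
  exact ⟨(mul_eq_zero.mp ha).resolve_right hsin.ne', (mul_eq_zero.mp hb).resolve_right hsin.ne'⟩

lemma uu_inj {s t : ℝ} (hst : s < t) (h2 : t < s + 2 * Real.pi) : uu s ≠ uu t := by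
  intro h
  obtain ⟨n, hn⟩ := Complex.exp_eq_exp_iff_exists_int.mp h
  have h3 : (s : ℂ) = t + n * (2 * Real.pi) := by
    have hI : Complex.I ≠ 0 := Complex.I_ne_zero
    apply mul_right_cancel₀ hI
    rw [hn]; ring
  have h4 : s = t + n * (2 * Real.pi) := by exact_mod_cast h3
  have hpi := Real.pi_pos
  have h5 : (n : ℝ) < 0 := by
    by_contra hcon
    have : 0 ≤ (n : ℝ) * (2 * Real.pi) := mul_nonneg (not_lt.mp hcon) (by positivity)
    linarith
  have h6 : (-1 : ℝ) < n := by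
    by_contra hcon
    have hle : (n : ℝ) ≤ -1 := not_lt.mp hcon
    have : (n : ℝ) * (2 * Real.pi) ≤ (-1) * (2 * Real.pi) :=
      mul_le_mul_of_nonneg_right hle (by positivity)
    linarith
  have h7 : n < 0 := by exact_mod_cast h5
  have h8 : (-1 : ℤ) < n := by exact_mod_cast h6
  omega

/-! ### The curve -/

/-- The point over angle `t` on the boundary. -/
noncomputable def qq (x : X) (P : X →L[ℝ] ℂ) (t : ℝ) : ℂ :=
  (gauge (AA x P) (uu t))⁻¹ • uu t

/-- The loop in terms of `E_x`. -/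
theorem exists_En_loop (hdim : Module.finrank ℝ X = 3) {x : X} (hx : ‖x‖ = 1) (hD : OffD x) :
    ∃ γ : ℝ → X, (∀ t, γ t ∈ En x) ∧ (∀ a ∈ En x, ∃ t, γ t = a) ∧
      (∃ C : NNReal, LipschitzWith C γ) ∧ (∀ t, γ (t + Real.pi) = x - γ t) ∧
      (∀ s t, s < t → t < s + 2 * Real.pi → γ s ≠ γ t) ∧
      (∀ s t, s < t → t < s + Real.pi → LinearIndependent ℝ ![x, γ s, γ t]) ∧
      (∀ q : X, (∀ r : ℝ, q ≠ r • x) → ∃ t α β : ℝ, 0 < β ∧ q = α • x + β • γ t) := by
  have hx0 : x ≠ 0 := norm_ne_zero_iff.mp (by rw [hx]; exact one_ne_zero)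
  obtain ⟨P, hPs, hPx, hPk⟩ := exists_proj hdim hx0
  have hO := AA_isOpen (x := x) hPs
  have hA0 := AA_zero (P := P) hx hPx
  have hn : AA x P ∈ 𝓝 (0 : ℂ) := hO.mem_nhds hA0
  have ha : Absorbent ℝ (AA x P) := absorbent_nhds_zero hn
  have hconv : Convex ℝ (AA x P) := AA_convex
  set g := gauge (AA x P) with hg
  obtain ⟨ρ, hρ, hball⟩ := Metric.mem_nhds_iff.mp hn
  have hgs : ∀ (a : ℝ), 0 ≤ a → ∀ z : ℂ, g (a • z) = a * g z := fun a ha z =>
    gauge_smul_of_nonneg (s := AA x P) ha z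
  set R : ℝ := ‖P‖ + 1 with hR
  have hR0 : 0 < R := by have := norm_nonneg P; linarith
  have hgu : ∀ t, 1 / R ≤ g (uu t) := by
    intro t
    have := le_gauge_of_subset_closedBall (x := uu t) ha hR0.le AA_bdd
    rwa [norm_uu] at this
  have hgpos : ∀ t, 0 < g (uu t) := fun t => lt_of_lt_of_le (by positivity) (hgu t)
  have hginv : ∀ t, (g (uu t))⁻¹ ≤ R := by
    intro t
    have h1 := hgu t
    rw [inv_le_comm₀ (hgpos t) hR0]
    simpa using h1
  have hgq : ∀ t, g (qq x P t) = 1 := by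
    intro t
    unfold qq
    rw [hgs _ (inv_nonneg.mpr (hgpos t).le)]
    exact inv_mul_cancel₀ (hgpos t).ne'
  have hlift : ∀ t, ∃ c ∈ En x, P c = qq x P t := fun t => gg_lift hPs hx hPx (hgq t)
  choose γ hγE hγP using hlift
  obtain ⟨K, hK, hKlip⟩ := En_lip hPs hx hPk hD
  have huniq : ∀ c ∈ En x, ∀ c' ∈ En x, P c' = P c → c' = c := by
    intro c hc c' hc' h
    have := hKlip c hc c' hc'
    rw [h, sub_self, norm_zero, mul_zero] at this
    exact sub_eq_zero.mp (norm_le_zero_iff.mp this)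
  have hkernel : ∀ y : X, (∀ r : ℝ, y ≠ r • x) → P y ≠ 0 := by
    intro y hy h0
    obtain ⟨s, hs⟩ := hPk y h0
    exact hy s hs
  -- gauge is Lipschitz
  have hglip : ∀ z w : ℂ, |g z - g w| ≤ ρ⁻¹ * ‖z - w‖ := by
    have hr : ((ρ.toNNReal : NNReal) : ℝ) = ρ := Real.coe_toNNReal _ hρ.le
    have h1 : LipschitzWith (ρ.toNNReal)⁻¹ g :=
      hconv.lipschitzWith_gauge (r := ρ.toNNReal) (Real.toNNReal_pos.mpr hρ)
        (by rw [hr]; exact hball)
    intro z w
    have := h1.dist_le_mul z w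
    rw [Real.dist_eq, dist_eq_norm, NNReal.coe_inv, hr] at this
    exact this
  refine ⟨γ, hγE, ?_, ?_, ?_, ?_, ?_, ?_⟩
  · -- surjectivity
    intro a ha'
    refine ⟨Complex.arg (P a), ?_⟩
    set t := Complex.arg (P a) with ht
    have hgPa : g (P a) = 1 := gg_En hPs hx hPx hPk ha'
    have hpol : P a = ‖P a‖ • uu t := uu_polar _
    have h1 : ‖P a‖ * g (uu t) = 1 := by
      rw [← hgPa]
      nth_rewrite 2 [hpol]
      rw [hgs _ (norm_nonneg _)]
    have h2 : ‖P a‖ = (g (uu t))⁻¹ := eq_inv_of_mul_eq_one_left h1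
    apply huniq a ha' _ (hγE t)
    rw [hγP t, hpol, h2]
    rfl
  · -- Lipschitz
    refine ⟨Real.toNNReal (K * (R + R * R * ρ⁻¹)), LipschitzWith.of_dist_le_mul fun s t => ?_⟩
    rw [Real.coe_toNNReal _ (by positivity), dist_eq_norm, Real.dist_eq]
    have h1 := hKlip (γ t) (hγE t) (γ s) (hγE s)
    rw [hγP, hγP] at h1
    refine h1.trans ?_
    rw [mul_assoc]
    refine mul_le_mul_of_nonneg_left ?_ hK.le
    unfold qq
    have h2 : (g (uu s))⁻¹ • uu s - (g (uu t))⁻¹ • uu t =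
        (g (uu s))⁻¹ • (uu s - uu t) + ((g (uu s))⁻¹ - (g (uu t))⁻¹) • uu t := by module
    rw [h2]
    have h3 : |(g (uu s))⁻¹ - (g (uu t))⁻¹| ≤ R * R * (ρ⁻¹ * |s - t|) := by
      have h4 : (g (uu s))⁻¹ - (g (uu t))⁻¹ =
          (g (uu s))⁻¹ * (g (uu t))⁻¹ * (g (uu t) - g (uu s)) := by
        have := (hgpos s).ne'
        have := (hgpos t).ne'
        field_simp
      rw [h4, abs_mul, abs_mul, abs_of_pos (inv_pos.mpr (hgpos s)),
        abs_of_pos (inv_pos.mpr (hgpos t))]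
      have h5 : |g (uu t) - g (uu s)| ≤ ρ⁻¹ * |s - t| := by
        refine (hglip _ _).trans ?_
        refine mul_le_mul_of_nonneg_left ?_ (by positivity)
        rw [norm_sub_rev]
        exact uu_sub_le s t
      have h6 : 0 < (g (uu s))⁻¹ := inv_pos.mpr (hgpos s)
      have h7 : 0 < (g (uu t))⁻¹ := inv_pos.mpr (hgpos t)
      have h8 : (g (uu s))⁻¹ * (g (uu t))⁻¹ ≤ R * R :=
        mul_le_mul (hginv s) (hginv t) h7.le hR0.le
      exact mul_le_mul h8 h5 (abs_nonneg _) (by positivity)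
    calc ‖(g (uu s))⁻¹ • (uu s - uu t) + ((g (uu s))⁻¹ - (g (uu t))⁻¹) • uu t‖
        ≤ ‖(g (uu s))⁻¹ • (uu s - uu t)‖ + ‖((g (uu s))⁻¹ - (g (uu t))⁻¹) • uu t‖ :=
          norm_add_le _ _
      _ = (g (uu s))⁻¹ * ‖uu s - uu t‖ + |(g (uu s))⁻¹ - (g (uu t))⁻¹| := by
          rw [norm_smul, norm_smul, norm_uu, mul_one, Real.norm_of_nonneg (inv_pos.mpr (hgpos s)).le,
            Real.norm_eq_abs]
      _ ≤ R * |s - t| + R * R * (ρ⁻¹ * |s - t|) := by
          refine add_le_add ?_ h3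
          exact mul_le_mul (hginv s) (uu_sub_le s t) (norm_nonneg _) hR0.le
      _ = (R + R * R * ρ⁻¹) * |s - t| := by ring
  · -- shift
    intro t
    apply huniq (x - γ t) (En_rho (hγE t)) _ (hγE _)
    rw [hγP, map_sub, hPx, zero_sub, hγP]
    unfold qq
    rw [uu_add_pi, gauge_neg (AA_sym hPx), smul_neg]
  · -- injective
    intro s t hst hst2 h
    have h1 : qq x P s = qq x P t := by rw [← hγP, ← hγP, h]
    unfold qq at h1
    have h2 := congrArg norm h1
    rw [norm_smul, norm_smul, norm_uu, norm_uu, mul_one, mul_one,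
      Real.norm_of_nonneg (inv_pos.mpr (hgpos s)).le,
      Real.norm_of_nonneg (inv_pos.mpr (hgpos t)).le] at h2
    rw [h2] at h1
    have h3 : uu s = uu t := smul_right_injective ℂ (inv_pos.mpr (hgpos t)).ne' h1
    exact uu_inj hst hst2 h3
  · -- independent
    intro s t hst hst2
    rw [Fintype.linearIndependent_iff]
    intro a ha0
    rw [Fin.sum_univ_three] at ha0
    simp only [Matrix.cons_val_zero, Matrix.cons_val_one, Matrix.cons_val] at ha0
    have h1 : (a 1 * (g (uu s))⁻¹) • uu s + (a 2 * (g (uu t))⁻¹) • uu t = 0 := by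
      have := congrArg P ha0
      simp only [map_add, map_smul, hPx, smul_zero, zero_add, hγP, map_zero] at this
      unfold qq at this
      rw [smul_smul, smul_smul] at this
      exact this
    obtain ⟨h2, h3⟩ := uu_indep hst hst2 h1
    have h4 : a 1 = 0 := (mul_eq_zero.mp h2).resolve_right (inv_pos.mpr (hgpos s)).ne'
    have h5 : a 2 = 0 := (mul_eq_zero.mp h3).resolve_right (inv_pos.mpr (hgpos t)).ne'
    rw [h4, h5, zero_smul, zero_smul, add_zero, add_zero] at ha0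
    have h6 : a 0 = 0 := (smul_eq_zero.mp ha0).resolve_right hx0
    intro i
    fin_cases i
    · exact h6
    · exact h4
    · exact h5
  · -- rays
    intro q hq
    have hPq : P q ≠ 0 := hkernel q hq
    set t := Complex.arg (P q) with ht
    have hpol : P q = ‖P q‖ • uu t := uu_polar _
    have hpos : 0 < ‖P q‖ := norm_pos_iff.mpr hPq
    set β := ‖P q‖ * g (uu t) with hβ
    have hβ0 : 0 < β := mul_pos hpos (hgpos t)
    obtain ⟨α, hα⟩ := hPk (q - β • γ t) (by
      rw [map_sub, map_smul, hγP]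
      unfold qq
      rw [smul_smul, hβ, mul_assoc, mul_inv_cancel₀ (hgpos t).ne', mul_one, sub_eq_zero]
      exact hpol)
    refine ⟨t, α, β, hβ0, ?_⟩
    rw [← hα]
    abel

end FD

end Vale.Agent.Lib.P084.D3.LoopAux
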