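/-
Step 3: for `x ∉ DSet` the set `Eo x` is a Lipschitz loop.  See `Dim3N/Param.lean` for a strict
version and `NS/Conn.lean` for the lens.  Proof: `ℓ x = 1`, `π c = c - ℓ c • x` onto `ker ℓ` (a
plane), `K = π (closed lens)` convex, symmetric, `0` interior (half x is in the open lens);
fibres over the frontier of `K` are single points of `Eo x` (normals at `Eo x` are positive at `x`),
`π` maps `Eo x` onto the frontier of `K`; `u t = cos t e₁ + sin t e₂`, `p t = u t / gauge K (u t)`,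
`γ t` = the lift.  Lipschitz: for `c,c'` in `Eo x`, with `φ ∈ Nrm c`, `φ' ∈ Nrm c'`, `φ x, φ' x ≥ m > 0`
(compactness), the `x` coordinate of `c - c'` is bounded by `‖π c - π c'‖ / m`.
-/
import Vale.Agent.Lib.P084.D3.Calc
import Vale.Agent.Lib.P084.D3.LoopAux

namespace Vale.Agent.Lib.P084.D3

variable {X : Type*} [NormedAddCommGroup X] [NormedSpace ℝ X] [FiniteDimensional ℝ X]

theorem exists_loop (hdim : Module.finrank ℝ X = 3) {x : X} (hx : ‖x‖ = 1) (hD : x ∉ (DSet : Set X)) :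
    ∃ γ : ℝ → X, IsLoop x γ := by
  have hoff : LoopAux.OffD x := by
    intro c hc φ hφ hφc h0
    exact hD ⟨hx, c, hc, φ, ⟨hφ.le, hφc⟩, h0⟩
  obtain ⟨γ, h1, h2, h3, h4, h5, h6, h7⟩ := LoopAux.exists_En_loop hdim hx hoff
  exact ⟨γ, ⟨h1, h2, h3, h4, h5, h6, h7⟩⟩

omit [FiniteDimensional ℝ X] in
theorem IsLoop.two_pi {x : X} {γ : ℝ → X} (h : IsLoop x γ) (t : ℝ) :
    γ (t + 2 * Real.pi) = γ t := by
  have h1 := h.shift (t + Real.pi)
  have h2 := h.shift t
  have : t + 2 * Real.pi = t + Real.pi + Real.pi := by ring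
  rw [this, h1, h2]; abel

end Vale.Agent.Lib.P084.D3
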