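/-
Step 4.  Key lemma (helper32 Lemma A).  `c` smooth, `f c` smooth, `K = nr (f c) ∘ f - nr c`.
For `a ∈ Eo c`, `a'` near `a` on the sphere: `‖a' - (a - c)‖ = ‖f a' - f (a - c)‖` reads
`‖c + d‖ = ‖f c + d'‖`, `d = a' - a`, `d' = f a' - f a`, `‖d‖ = ‖d'‖`; so `K a' - K a = o(‖d‖)`.
On the loop `K` has derivative `0`, so it is constant; `K (c - a) = - K a`, so `K = 0`.
-/
import Vale.Agent.Lib.P084.D3.Loop

namespace Vale.Agent.Lib.P084.D3

variable {X Y : Type*} [NormedAddCommGroup X] [NormedSpace ℝ X] [FiniteDimensional ℝ X]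
  [NormedAddCommGroup Y] [NormedSpace ℝ Y] [FiniteDimensional ℝ Y]

omit [FiniteDimensional ℝ X] [FiniteDimensional ℝ Y] in
/-- Both expansions combined: equal norms of the two shifted vectors force closeness of slopes. -/
theorem key_core {c d : X} {c' : Y} {d' : Y} {φ : X →L[ℝ] ℝ} {ψ : Y →L[ℝ] ℝ} {ε : ℝ}
    (h1 : |‖c + d‖ - 1 - φ d| ≤ (ε / 2) * ‖d‖) (h2 : |‖c' + d'‖ - 1 - ψ d'| ≤ (ε / 2) * ‖d'‖)
    (heq : ‖c + d‖ = ‖c' + d'‖) (hn : ‖d'‖ = ‖d‖) : |ψ d' - φ d| ≤ ε * ‖d‖ := by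
  rw [hn] at h2
  rw [heq] at h1
  have h3 := abs_le.1 h1
  have h4 := abs_le.1 h2
  rw [abs_le]
  constructor <;> nlinarith [h3.1, h3.2, h4.1, h4.2]

theorem key_flat {f : X → Y} (hC : Ctx f) {c a : X} (hc : ‖c‖ = 1) (hs : Sm c) (hs' : Sm (f c))
    (ha : a ∈ Eo c) {ε : ℝ} (hε : 0 < ε) :
    ∃ δ > 0, ∀ a' : X, ‖a'‖ = 1 → ‖a' - a‖ < δ →
      |nr (f c) (f a' - f a) - nr c (a' - a)| ≤ ε * ‖a' - a‖ := by
  have hfc : ‖f c‖ = 1 := hC.iso.1 c hc
  obtain ⟨δ1, hδ1, h1⟩ := Sm.norm_expansion hc hs (half_pos hε)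
  obtain ⟨δ2, hδ2, h2⟩ := Sm.norm_expansion hfc hs' (half_pos hε)
  refine ⟨min δ1 δ2, lt_min hδ1 hδ2, fun a' ha' hd => ?_⟩
  have ha1 : ‖a‖ = 1 := ha.1
  have hdn : ‖f a' - f a‖ = ‖a' - a‖ := hC.iso.2 a' a ha' ha1
  have hd1 : ‖a' - a‖ < δ1 := lt_of_lt_of_le hd (min_le_left _ _)
  have hd2 : ‖f a' - f a‖ < δ2 := by rw [hdn]; exact lt_of_lt_of_le hd (min_le_right _ _)
  have e1 := h1 (a' - a) hd1
  have e2 := h2 (f a' - f a) hd2
  have hca : ‖c - a‖ = 1 := ha.2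
  have hmem : c - a ∈ Eo c := Eo.symm ha
  have hsub : f (c - (c - a)) = f c - f (c - a) := hC.sub hc hmem
  have hac : f a = f c - f (c - a) := by
    have : c - (c - a) = a := by abel
    rwa [this] at hsub
  have hnorm : ‖c + (a' - a)‖ = ‖f c + (f a' - f a)‖ := by
    have h3 : c + (a' - a) = a' - (a - c) := by abel
    have hac1 : ‖a - c‖ = 1 := by rw [norm_sub_rev]; exact hca
    have h4 := hC.iso.2 a' (a - c) ha' hac1
    have h5 : f (a - c) = f a - f c := by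
      have h6 : a - c = -(c - a) := by abel
      rw [h6, hC.odd (c - a) hca]
      rw [hac]; abel
    rw [h3, ← h4, h5]
    congr 1; abel
  exact key_core e1 e2 hnorm hdn

theorem key_flat_self {f : X → Y} (hC : Ctx f) {c : X} (hc : ‖c‖ = 1) (hs : Sm c) (hs' : Sm (f c))
    {ε : ℝ} (hε : 0 < ε) :
    ∃ δ > 0, ∀ a' : X, ‖a'‖ = 1 → ‖a' - c‖ < δ →
      |nr (f c) (f a' - f c) - nr c (a' - c)| ≤ ε * ‖a' - c‖ := by
  have hfc : ‖f c‖ = 1 := hC.iso.1 c hc
  obtain ⟨δ1, hδ1, h1⟩ := Sm.norm_expansion hc hs (half_pos hε)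
  obtain ⟨δ2, hδ2, h2⟩ := Sm.norm_expansion hfc hs' (half_pos hε)
  refine ⟨min δ1 δ2, lt_min hδ1 hδ2, fun a' ha' hd => ?_⟩
  have hdn : ‖f a' - f c‖ = ‖a' - c‖ := hC.iso.2 a' c ha' hc
  have hd1 : ‖a' - c‖ < δ1 := lt_of_lt_of_le hd (min_le_left _ _)
  have hd2 : ‖f a' - f c‖ < δ2 := by rw [hdn]; exact lt_of_lt_of_le hd (min_le_right _ _)
  have e1 := h1 (a' - c) hd1
  have e2 := h2 (f a' - f c) hd2
  have hnorm : ‖c + (a' - c)‖ = ‖f c + (f a' - f c)‖ := by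
    rw [add_sub_cancel, add_sub_cancel, ha', hC.iso.1 a' ha']
  exact key_core e1 e2 hnorm hdn

theorem key_zero {f : X → Y} (hC : Ctx f) (hdim : Module.finrank ℝ X = 3) {c a : X} (hc : ‖c‖ = 1)
    (hs : Sm c) (hs' : Sm (f c)) (hD : c ∉ (DSet : Set X)) (ha : a ∈ Eo c) :
    nr (f c) (f a) = nr c a := by
  obtain ⟨γ, hγ⟩ := exists_loop hdim hc hD
  obtain ⟨C, hC'⟩ := hγ.lip
  set K : ℝ → ℝ := fun t => nr (f c) (f (γ t)) - nr c (γ t) with hK
  -- `K` has derivative zero everywhere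
  have hderiv : ∀ t, HasDerivAt K 0 t := by
    intro t
    rw [hasDerivAt_iff_isLittleO_nhds_zero]
    rw [Asymptotics.isLittleO_iff]
    intro ε hε
    have hCpos : (0 : ℝ) < (C : ℝ) + 1 := by positivity
    obtain ⟨δ, hδ, hflat⟩ := key_flat hC hc hs hs' (hγ.mem t) (div_pos hε hCpos)
    have hcont : Continuous γ := hC'.continuous
    have hev : ∀ᶠ h : ℝ in nhds 0, ‖γ (t + h) - γ t‖ < δ := by
      have h1 : Filter.Tendsto (fun h : ℝ => ‖γ (t + h) - γ t‖) (nhds 0) (nhds ‖γ (t + 0) - γ t‖) := by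
        apply Continuous.tendsto
        fun_prop
      simp only [add_zero, sub_self, norm_zero] at h1
      exact h1.eventually (gt_mem_nhds hδ)
    filter_upwards [hev] with h hh
    have h1 := hflat (γ (t + h)) (hγ.mem _).1 hh
    have h2 : K (t + h) - K t - h • (0 : ℝ) =
        nr (f c) (f (γ (t + h)) - f (γ t)) - nr c (γ (t + h) - γ t) := by
      simp only [hK, smul_zero, sub_zero, map_sub]
      ring
    rw [h2]
    have h3 : ‖γ (t + h) - γ t‖ ≤ C * |h| := by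
      have := hC'.dist_le_mul (t + h) t
      rw [dist_eq_norm, dist_eq_norm] at this
      simpa using this
    rw [Real.norm_eq_abs, Real.norm_eq_abs]
    calc _ ≤ ε / (C + 1) * ‖γ (t + h) - γ t‖ := h1
      _ ≤ ε / (C + 1) * ((C + 1) * |h|) := by
          apply mul_le_mul_of_nonneg_left _ (by positivity)
          nlinarith [abs_nonneg h]
      _ = ε * |h| := by field_simp
  have hconst : ∀ s t, K s = K t := fun s t =>
    is_const_of_deriv_eq_zero (fun t => (hderiv t).differentiableAt) (fun t => (hderiv t).deriv) s t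
  have hshift : ∀ t, K (t + Real.pi) = - K t := by
    intro t
    have h1 := hγ.shift t
    have h2 : f (c - γ t) = f c - f (γ t) := hC.sub hc (hγ.mem t)
    have hψ : nr (f c) (f c) = 1 := (nr_mem (hC.iso.1 c hc)).2
    have hφ : nr c c = 1 := (nr_mem hc).2
    simp only [hK]
    rw [h1, h2, map_sub, map_sub, hψ, hφ]
    ring
  obtain ⟨t, ht⟩ := hγ.surj a ha
  have h0 : K t = 0 := by
    have h1 := hshift t
    rw [hconst (t + Real.pi) t] at h1
    linarith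
  simp only [hK] at h0
  rw [ht] at h0
  linarith

end Vale.Agent.Lib.P084.D3
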