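/-
The wedge lemma: secants of a Lipschitz curve squeezed between normal pairs.
Proof by contradiction with sequences: `t_n → s`, `w_n = (h t_n - h s) / |t_n - s|` bounded, `p_n ∈ 𝒜 (t_n)`
bounded, pass to subsequences: `p_n → p ∈ 𝒜 s`, `w_n → w`; `p.1 w_n ≤ 0 ≤ p_n.1 w_n` gives `p.1 w = 0`,
the same for `p.2`, so `w = r e`.
-/
import Vale.Agent.Lib.P084.D3.Calc

namespace Vale.Agent.Lib.P084.D3

open Filter Topology

variable {E : Type*} [NormedAddCommGroup E] [NormedSpace ℝ E] [FiniteDimensional ℝ E]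

theorem wedge_line {h : ℝ → E} {C : NNReal} (hh : LipschitzWith C h) {s : ℝ} {e : E}
    (A : ℝ → Set ((E →L[ℝ] ℝ) × (E →L[ℝ] ℝ)))
    (hne : ∀ᶠ t in 𝓝 s, (A t).Nonempty)
    (hbd : ∀ t, ∀ p ∈ A t, ‖p.1‖ ≤ 1 ∧ ‖p.2‖ ≤ 1)
    (hcl : ∀ (t_n : ℕ → ℝ) (p_n : ℕ → (E →L[ℝ] ℝ) × (E →L[ℝ] ℝ)) (p : (E →L[ℝ] ℝ) × (E →L[ℝ] ℝ)),
      Tendsto t_n atTop (𝓝 s) → (∀ n, p_n n ∈ A (t_n n)) → Tendsto p_n atTop (𝓝 p) → p ∈ A s)
    (hineq : ∀ᶠ t in 𝓝 s, ∀ p ∈ A s, ∀ p' ∈ A t,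
      p.1 (h t - h s) ≤ 0 ∧ 0 ≤ p'.1 (h t - h s) ∧ 0 ≤ p.2 (h t - h s) ∧ p'.2 (h t - h s) ≤ 0)
    (hker : ∀ p ∈ A s, ∀ v : E, p.1 v = 0 → p.2 v = 0 → ∃ r : ℝ, v = r • e) :
    ∀ ε > 0, ∃ δ > 0, ∀ t, |t - s| < δ → ∃ r : ℝ, ‖h t - h s - r • e‖ ≤ ε * |t - s| := by
  intro ε hε
  by_contra hcon
  push Not at hcon
  have : ProperSpace (E →L[ℝ] ℝ) := FiniteDimensional.proper_real _
  have : ProperSpace E := FiniteDimensional.proper_real _
  -- the eventual sets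
  obtain ⟨δ₀, hδ₀, hev⟩ := Metric.eventually_nhds_iff.mp (hne.and hineq)
  -- choose the bad sequence
  have hseq : ∀ n : ℕ, ∃ t, |t - s| < min δ₀ (1 / ((n : ℝ) + 1)) ∧
      ∀ r : ℝ, ε * |t - s| < ‖h t - h s - r • e‖ := by
    intro n
    have hpos : 0 < min δ₀ (1 / ((n : ℝ) + 1)) := lt_min hδ₀ (by positivity)
    exact hcon _ hpos
  choose t ht1 ht2 using hseq
  have htδ : ∀ n, dist (t n) s < δ₀ := fun n => by
    rw [Real.dist_eq]; exact (ht1 n).trans_le (min_le_left _ _)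
  have hts : Tendsto t atTop (𝓝 s) := by
    rw [Metric.tendsto_atTop]
    intro η hη
    obtain ⟨N, hN⟩ := exists_nat_one_div_lt hη
    refine ⟨N, fun n hn => ?_⟩
    rw [Real.dist_eq]
    have h1 := (ht1 n).trans_le (min_le_right _ _)
    have h2 : 1 / ((n : ℝ) + 1) ≤ 1 / ((N : ℝ) + 1) := by
      apply one_div_le_one_div_of_le (by positivity)
      have : (N : ℝ) ≤ n := by exact_mod_cast hn
      linarith
    linarith
  have hne' : ∀ n, t n ≠ s := by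
    intro n hn
    have := ht2 n 0
    rw [hn] at this
    simp at this
  have habs : ∀ n, 0 < |t n - s| := fun n => abs_pos.mpr (sub_ne_zero.mpr (hne' n))
  choose p hp using fun n => (hev (htδ n)).1
  -- normalised secants
  let w : ℕ → E := fun n => (|t n - s|)⁻¹ • (h (t n) - h s)
  have hwbd : ∀ n, ‖w n‖ ≤ C := by
    intro n
    have h1 : ‖h (t n) - h s‖ ≤ C * |t n - s| := by
      have := hh.dist_le_mul (t n) s
      rwa [dist_eq_norm, Real.dist_eq] at this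
    simp only [w, norm_smul, norm_inv, Real.norm_eq_abs, abs_abs]
    rw [inv_mul_le_iff₀ (habs n)]
    linarith [mul_comm (C : ℝ) (|t n - s|)]
  -- compactness
  let K : Set (E × ((E →L[ℝ] ℝ) × (E →L[ℝ] ℝ))) :=
    Metric.closedBall 0 C ×ˢ (Metric.closedBall 0 1 ×ˢ Metric.closedBall 0 1)
  have hK : IsCompact K :=
    (isCompact_closedBall _ _).prod ((isCompact_closedBall _ _).prod (isCompact_closedBall _ _))
  have hmem : ∀ n, (w n, p n) ∈ K := by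
    intro n
    refine ⟨by simpa using hwbd n, ?_, ?_⟩
    · simpa using (hbd _ _ (hp n)).1
    · simpa using (hbd _ _ (hp n)).2
  obtain ⟨⟨w0, p0⟩, -, φ, hφ, hlim⟩ := hK.tendsto_subseq hmem
  have hlimw : Tendsto (fun n => w (φ n)) atTop (𝓝 w0) := (continuous_fst.tendsto _).comp hlim
  have hlimp : Tendsto (fun n => p (φ n)) atTop (𝓝 p0) := (continuous_snd.tendsto _).comp hlim
  have hp0 : p0 ∈ A s := hcl (fun n => t (φ n)) (fun n => p (φ n)) p0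
    (hts.comp hφ.tendsto_atTop) (fun n => hp (φ n)) hlimp
  have heval : Continuous (fun q : (E →L[ℝ] ℝ) × E => q.1 q.2) :=
    continuous_fst.clm_apply continuous_snd
  have hlim1 : Tendsto (fun n => (p (φ n)).1 (w (φ n))) atTop (𝓝 (p0.1 (w0))) :=
    (heval.tendsto (p0.1, w0)).comp
      ((show Tendsto (fun n => (p (φ n)).1) atTop (𝓝 p0.1) from
        (continuous_fst.tendsto p0).comp hlimp).prodMk_nhds hlimw)
  have hlim2 : Tendsto (fun n => (p (φ n)).2 (w (φ n))) atTop (𝓝 (p0.2 (w0))) :=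
    (heval.tendsto (p0.2, w0)).comp
      ((show Tendsto (fun n => (p (φ n)).2) atTop (𝓝 p0.2) from
        (continuous_snd.tendsto p0).comp hlimp).prodMk_nhds hlimw)
  have hlim1' : Tendsto (fun n => p0.1 (w (φ n))) atTop (𝓝 (p0.1 (w0))) :=
    (p0.1.continuous.tendsto _).comp hlimw
  have hlim2' : Tendsto (fun n => p0.2 (w (φ n))) atTop (𝓝 (p0.2 (w0))) :=
    (p0.2.continuous.tendsto _).comp hlimw
  have hscale : ∀ (ψ : E →L[ℝ] ℝ) (n : ℕ), ψ (w n) = (|t n - s|)⁻¹ * ψ (h (t n) - h s) := by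
    intro ψ n
    simp only [w, map_smul, smul_eq_mul]
  have hsign : ∀ n, p0.1 (w n) ≤ 0 ∧ 0 ≤ (p n).1 (w n) ∧ 0 ≤ p0.2 (w n) ∧ (p n).2 (w n) ≤ 0 := by
    intro n
    obtain ⟨a1, a2, a3, a4⟩ := (hev (htδ n)).2 p0 hp0 (p n) (hp n)
    have hi : 0 < (|t n - s|)⁻¹ := inv_pos.mpr (habs n)
    rw [hscale, hscale, hscale, hscale]
    exact ⟨mul_nonpos_of_nonneg_of_nonpos hi.le a1, mul_nonneg hi.le a2, mul_nonneg hi.le a3,
      mul_nonpos_of_nonneg_of_nonpos hi.le a4⟩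
  have h1a : p0.1 w0 ≤ 0 := le_of_tendsto' hlim1' (fun n => (hsign (φ n)).1)
  have h1b : 0 ≤ p0.1 w0 := ge_of_tendsto' hlim1 (fun n => (hsign (φ n)).2.1)
  have h2a : 0 ≤ p0.2 w0 := ge_of_tendsto' hlim2' (fun n => (hsign (φ n)).2.2.1)
  have h2b : p0.2 w0 ≤ 0 := le_of_tendsto' hlim2 (fun n => (hsign (φ n)).2.2.2)
  obtain ⟨r, hr⟩ := hker p0 hp0 w0 (le_antisymm h1a h1b) (le_antisymm h2b h2a)
  -- contradiction
  have hfar : ∀ n, ε < ‖w n - r • e‖ := by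
    intro n
    have h3 := ht2 n (|t n - s| * r)
    have h4 : h (t n) - h s - (|t n - s| * r) • e = |t n - s| • (w n - r • e) := by
      show _ = |t n - s| • ((|t n - s|)⁻¹ • (h (t n) - h s) - r • e)
      rw [smul_sub (|t n - s|), smul_smul, smul_smul, mul_inv_cancel₀ (habs n).ne', one_smul]
    rw [h4, norm_smul, Real.norm_eq_abs, abs_abs, mul_comm ε] at h3
    exact lt_of_mul_lt_mul_left h3 (habs n).le
  have hconv : Tendsto (fun n => ‖w (φ n) - r • e‖) atTop (𝓝 0) := by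
    have h0 : w0 - r • e = 0 := by rw [hr, sub_self]
    have : Tendsto (fun n => w (φ n) - r • e) atTop (𝓝 (w0 - r • e)) := hlimw.sub_const _
    rw [h0] at this
    simpa using this.norm
  have hge : ε ≤ 0 := ge_of_tendsto' hconv (fun n => (hfar (φ n)).le)
  linarith

/-- If the increments of `G` are close to the line of `G s`, the unit direction has derivative `0`. -/
theorem unit_deriv_zero {G : ℝ → E} {s : ℝ} (hG : ContinuousAt G s) (hs : G s ≠ 0)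
    (hline : ∀ ε > 0, ∃ δ > 0, ∀ t, |t - s| < δ → ∃ r : ℝ, ‖G t - G s - r • G s‖ ≤ ε * |t - s|) :
    HasDerivAt (fun t => ‖G t‖⁻¹ • G t) 0 s := by
  rw [hasDerivAt_iff_isLittleO]
  rw [Asymptotics.isLittleO_iff]
  intro c hc
  set g := G s with hg
  have ha : 0 < ‖g‖ := norm_pos_iff.mpr hs
  set a := ‖g‖ with ha_def
  obtain ⟨δ, hδ, hδ2⟩ := hline (c * a / 4) (by positivity)
  have hnear : ∀ᶠ t in 𝓝 s, ‖G t - g‖ < a / 4 := by
    have h := (hG.tendsto.sub_const g).norm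
    rw [show G s - g = 0 from sub_eq_zero.mpr rfl, norm_zero] at h
    exact h.eventually (gt_mem_nhds (by positivity))
  have hclose : ∀ᶠ t in 𝓝 s, (c * a / 4) * |t - s| < a / 4 ∧ |t - s| < δ := by
    have h1 : Filter.Tendsto (fun t : ℝ => (c * a / 4) * |t - s|) (𝓝 s) (𝓝 ((c * a / 4) * |s - s|)) :=
      (continuous_const.mul (continuous_abs.comp (continuous_id.sub continuous_const))).tendsto s
    simp only [sub_self, abs_zero, mul_zero] at h1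
    have h2 : Filter.Tendsto (fun t : ℝ => |t - s|) (𝓝 s) (𝓝 (|s - s|)) :=
      (continuous_abs.comp (continuous_id.sub continuous_const)).tendsto s
    simp only [sub_self, abs_zero] at h2
    exact (h1.eventually (gt_mem_nhds (by positivity))).and (h2.eventually (gt_mem_nhds hδ))
  filter_upwards [hnear, hclose] with t ht1 ⟨ht2, ht3⟩
  obtain ⟨r, hr⟩ := hδ2 t ht3
  simp only [smul_zero, sub_zero]
  -- lower bound on the norm of `G t`
  have hGt : a / 2 ≤ ‖G t‖ := by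
    have h0 : a ≤ ‖G t‖ + ‖G t - g‖ := by
      have := norm_sub_le (G t) (G t - g)
      simpa using this
    linarith
  have hGtpos : 0 < ‖G t‖ := by linarith
  -- `r` small
  have hr2 : |r| * a < a / 2 := by
    have h1 : ‖r • g‖ ≤ ‖G t - g‖ + ‖G t - g - r • g‖ := by
      have := norm_sub_le (G t - g) (G t - g - r • g)
      simpa using this
    rw [norm_smul, Real.norm_eq_abs] at h1
    linarith
  have hr3 : |r| < 1 / 2 := by
    have : |r| * a < (1 / 2) * a := by linarith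
    exact lt_of_mul_lt_mul_right this ha.le
  have hr4 : 0 < 1 + r := by
    have := neg_abs_le r
    linarith
  -- the comparison point
  set u : E := (1 + r) • g with hu
  have hun : ‖u‖ = (1 + r) * a := by
    rw [hu, norm_smul, Real.norm_eq_abs, abs_of_pos hr4]
  have hunpos : 0 < ‖u‖ := by rw [hun]; positivity
  have hQ : ‖u‖⁻¹ • u = a⁻¹ • g := by
    rw [hun, hu, smul_smul]
    congr 1
    field_simp
  have hyu : G t - u = G t - g - r • g := by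
    rw [hu, add_smul, one_smul]; abel
  have hdiff : ‖G t - u‖ ≤ (c * a / 4) * |t - s| := by rw [hyu]; exact hr
  have hkey : ‖G t‖⁻¹ • G t - ‖u‖⁻¹ • u = ‖G t‖⁻¹ • (G t - u) + (‖G t‖⁻¹ - ‖u‖⁻¹) • u := by
    rw [smul_sub, sub_smul]; abel
  have hbound1 : ‖(‖G t‖⁻¹ - ‖u‖⁻¹) • u‖ ≤ ‖G t‖⁻¹ * ‖G t - u‖ := by
    rw [norm_smul, Real.norm_eq_abs]
    have h1 : ‖G t‖⁻¹ - ‖u‖⁻¹ = (‖u‖ - ‖G t‖) / (‖G t‖ * ‖u‖) := by
      field_simp
    rw [h1, abs_div, abs_of_pos (mul_pos hGtpos hunpos)]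
    have h2 : |‖u‖ - ‖G t‖| ≤ ‖G t - u‖ := by
      rw [abs_sub_comm]
      exact abs_norm_sub_norm_le _ _
    calc |‖u‖ - ‖G t‖| / (‖G t‖ * ‖u‖) * ‖u‖ = |‖u‖ - ‖G t‖| * ‖G t‖⁻¹ := by
          field_simp
      _ ≤ ‖G t - u‖ * ‖G t‖⁻¹ := by gcongr
      _ = ‖G t‖⁻¹ * ‖G t - u‖ := mul_comm _ _
  have hfin : ‖‖G t‖⁻¹ • G t - a⁻¹ • g‖ ≤ 2 * (‖G t‖⁻¹ * ‖G t - u‖) := by
    rw [← hQ, hkey]
    calc _ ≤ ‖‖G t‖⁻¹ • (G t - u)‖ + ‖(‖G t‖⁻¹ - ‖u‖⁻¹) • u‖ := norm_add_le _ _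
      _ ≤ ‖G t‖⁻¹ * ‖G t - u‖ + ‖G t‖⁻¹ * ‖G t - u‖ := by
          gcongr
          rw [norm_smul, Real.norm_eq_abs, abs_of_pos (inv_pos.mpr hGtpos)]
      _ = _ := by ring
  have hinv : ‖G t‖⁻¹ ≤ 2 / a := by
    rw [inv_le_comm₀ hGtpos (by positivity)]
    rw [inv_div]
    exact hGt
  have hprod : ‖G t‖⁻¹ * ‖G t - u‖ ≤ (2 / a) * ((c * a / 4) * |t - s|) :=
    mul_le_mul hinv hdiff (norm_nonneg _) (by positivity)
  have hfinal : 2 * ((2 / a) * ((c * a / 4) * |t - s|)) = c * |t - s| := by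
    field_simp
    ring
  rw [Real.norm_eq_abs]
  have : ‖‖G t‖⁻¹ • G t - ‖g‖⁻¹ • g‖ ≤ c * |t - s| := by
    rw [← ha_def]
    linarith
  simpa using this

end Vale.Agent.Lib.P084.D3
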