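/-
Step 5, spanning.  If `v ∈ ker (nr x)`, `v ≠ 0`, then some `a ∈ G ∩ Eo x`, `nr x a > 0` has `nr a v ≠ 0`.
Otherwise for `A t` = pairs of limits of normals at points of `G ∩ Eo x` near `γ t`, resp. `x - γ t` (they kill `v`),
`wedge_line` gives (on `{0 < h < 1}`, `h = nr x ∘ γ`) derivative `0` of `h`; `h (t + π) = 1 - h t`, so `h ≡ 1/2` (a
component of `{0 < h < 1}` has `h` constant, and boundary values in `{0,1}`); the loop point over the ray of `v`
(`IsLoop.ray`) is `α v + x/2` and has a normal `φ` killing `v`, with `φ (α v + x/2) ≤ 1/2`: contradiction.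
-/
import Vale.Agent.Lib.P084.D3.KeyLemma
import Vale.Agent.Lib.P084.D3.Wedge

namespace Vale.Agent.Lib.P084.D3

open Filter Topology

variable {X Y : Type*} [NormedAddCommGroup X] [NormedSpace ℝ X] [FiniteDimensional ℝ X]
  [NormedAddCommGroup Y] [NormedSpace ℝ Y] [FiniteDimensional ℝ Y]

variable {f : X → Y} {G : Set X}

omit [FiniteDimensional ℝ Y] in
/-- Under the negation of spanning every point of the upper part of `Eo x` has a normal killing `v`. -/
theorem exists_normal_kill (E : Env f G) {x : X} (hx : x ∈ G) {v : X}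
    (hcon : ∀ a ∈ G, a ∈ Eo x → 0 < nr x a → nr a v = 0) {c : X} (hc : c ∈ Eo x)
    (hc0 : 0 < nr x c) : ∃ α ∈ Nrm c, α v = 0 := by
  have hseq : ∀ n : ℕ, ∃ c' ∈ G, c' ∈ Eo x ∧ 0 < nr x c' ∧ ‖c' - c‖ < 1 / ((n : ℝ) + 1) := fun n =>
    E.gen.fib x hx c hc hc0 _ (by positivity)
  choose c_n hG hEo hpos hnear using hseq
  have hcn : Tendsto c_n atTop (𝓝 c) := by
    rw [tendsto_iff_norm_sub_tendsto_zero]
    exact squeeze_zero (fun _ => norm_nonneg _) (fun n => (hnear n).le)
      tendsto_one_div_add_atTop_nhds_zero_nat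
  have hmem : ∀ n, nr (c_n n) ∈ Metric.closedBall (0 : X →L[ℝ] ℝ) 1 := fun n => by
    have := (nr_mem (hEo n).1).1
    simpa using this
  obtain ⟨φ, -, ψ, hψ, hlim⟩ := (isCompact_closedBall (0 : X →L[ℝ] ℝ) 1).tendsto_subseq hmem
  refine ⟨φ, Nrm.of_tendsto (hcn.comp hψ.tendsto_atTop) hlim (fun n => nr_mem (hEo _).1), ?_⟩
  have h1 : Tendsto (fun n => (nr (c_n (ψ n))) v) atTop (𝓝 (φ v)) :=
    ((ContinuousLinearMap.apply ℝ ℝ v).continuous.tendsto φ).comp hlim
  have h2 : (fun n => (nr (c_n (ψ n))) v) = fun _ => (0 : ℝ) := by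
    funext n
    exact hcon _ (hG _) (hEo _) (hpos _)
  rw [h2] at h1
  exact (tendsto_nhds_unique h1 tendsto_const_nhds)

/-- Two independent functionals in dimension three cut out a line. -/
theorem ker_line (hdim : Module.finrank ℝ X = 3) {α β : X →L[ℝ] ℝ} {c c' v w : X}
    (hdet : α c * β c' - α c' * β c ≠ 0) (hv0 : v ≠ 0) (hαv : α v = 0) (hβv : β v = 0)
    (hαw : α w = 0) (hβw : β w = 0) : ∃ r : ℝ, w = r • v := by
  classical
  set Φ : X →ₗ[ℝ] ℝ × ℝ := (α : X →ₗ[ℝ] ℝ).prod (β : X →ₗ[ℝ] ℝ) with hΦ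
  have hΦapp : ∀ z, Φ z = (α z, β z) := fun z => rfl
  have hsurj : Function.Surjective Φ := by
    rintro ⟨p, q⟩
    set d := α c * β c' - α c' * β c with hd
    refine ⟨((p * β c' - q * α c') / d) • c + ((q * α c - p * β c) / d) • c', ?_⟩
    rw [hΦapp]
    simp only [map_add, map_smul, smul_eq_mul, Prod.mk.injEq]
    constructor
    · field_simp
      rw [hd]; ring
    · field_simp
      rw [hd]; ring
  have hrange : Module.finrank ℝ (LinearMap.range Φ) = 2 := by
    rw [LinearMap.range_eq_top.mpr hsurj]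
    simp
  have hker : Module.finrank ℝ (LinearMap.ker Φ) = 1 := by
    have := LinearMap.finrank_range_add_finrank_ker Φ
    omega
  have hvmem : v ∈ LinearMap.ker Φ := by
    rw [LinearMap.mem_ker, hΦapp, hαv, hβv]; rfl
  have hwmem : w ∈ LinearMap.ker Φ := by
    rw [LinearMap.mem_ker, hΦapp, hαw, hβw]; rfl
  have hne : (⟨v, hvmem⟩ : LinearMap.ker Φ) ≠ 0 := by
    intro h
    exact hv0 (congrArg Subtype.val h)
  obtain ⟨r, hr⟩ := (finrank_eq_one_iff_of_nonzero' _ hne).mp hker ⟨w, hwmem⟩
  refine ⟨r, ?_⟩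
  have := congrArg Subtype.val hr
  simpa using this.symm

theorem spanning (E : Env f G) {x : X} (hx : x ∈ G) {v : X} (hv : nr x v = 0) (hv0 : v ≠ 0) :
    ∃ a ∈ G, a ∈ Eo x ∧ 0 < nr x a ∧ nr a v ≠ 0 := by
  by_contra hcon
  push Not at hcon
  obtain ⟨hx1, hsm, hsm'⟩ := E.gen.reg x hx
  have hD := E.gen.notD x hx
  obtain ⟨γ, hγ⟩ := exists_loop E.dim hx1 hD
  have hnx := nr_mem hx1
  obtain ⟨C, hC⟩ := hγ.lip
  set h : ℝ → ℝ := fun t => nr x (γ t) with hh
  have hcont : Continuous h := (nr x).continuous.comp hC.continuous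
  have hshift : ∀ t, h (t + Real.pi) = 1 - h t := by
    intro t
    simp only [hh]
    rw [hγ.shift t, map_sub, hnx.2]
  -- the pairs
  set A : ℝ → Set ((X →L[ℝ] ℝ) × (X →L[ℝ] ℝ)) := fun t =>
    {p | p.1 ∈ Nrm (γ t) ∧ p.2 ∈ Nrm (x - γ t) ∧ p.1 v = 0 ∧ p.2 v = 0} with hA
  have hAne : ∀ t, 0 < h t → h t < 1 → (A t).Nonempty := by
    intro t h0 h1
    obtain ⟨α, hα, hαv⟩ := exists_normal_kill E hx hcon (hγ.mem t) h0
    have hmem' : x - γ t ∈ Eo x := Eo.symm (hγ.mem t)
    have hpos' : 0 < nr x (x - γ t) := by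
      rw [map_sub, hnx.2]
      simp only [hh] at h1
      linarith
    obtain ⟨β, hβ, hβv⟩ := exists_normal_kill E hx hcon hmem' hpos'
    exact ⟨(α, β), hα, hβ, hαv, hβv⟩
  -- wedge at a point
  have hderiv : ∀ s, 0 < h s → h s < 1 → HasDerivAt h 0 s := by
    intro s h0 h1
    have hw := wedge_line (E := X) (h := γ) (C := C) hC (s := s) (e := v) A
      (by
        have hop : ∀ᶠ t in 𝓝 s, 0 < h t ∧ h t < 1 :=
          (hcont.continuousAt.eventually (lt_mem_nhds h0)).and
            (hcont.continuousAt.eventually (gt_mem_nhds h1))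
        filter_upwards [hop] with t ht using hAne t ht.1 ht.2)
      (by
        rintro t p ⟨hp1, hp2, -, -⟩
        exact ⟨hp1.1, hp2.1⟩)
      (by
        intro t_n p_n p ht hpn hp
        have hγt : Tendsto (fun n => γ (t_n n)) atTop (𝓝 (γ s)) :=
          (hC.continuous.tendsto s).comp ht
        have h1' : p.1 ∈ Nrm (γ s) :=
          Nrm.of_tendsto hγt ((continuous_fst.tendsto p).comp hp) (fun n => (hpn n).1)
        have h2' : p.2 ∈ Nrm (x - γ s) :=
          Nrm.of_tendsto (tendsto_const_nhds.sub hγt) ((continuous_snd.tendsto p).comp hp)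
            (fun n => (hpn n).2.1)
        have hl1 : Tendsto (fun n => (p_n n).1 v) atTop (𝓝 (p.1 v)) :=
          ((ContinuousLinearMap.apply ℝ ℝ v).continuous.tendsto p.1).comp
            ((continuous_fst.tendsto p).comp hp)
        have hl2 : Tendsto (fun n => (p_n n).2 v) atTop (𝓝 (p.2 v)) :=
          ((ContinuousLinearMap.apply ℝ ℝ v).continuous.tendsto p.2).comp
            ((continuous_snd.tendsto p).comp hp)
        have hz1 : (fun n => (p_n n).1 v) = fun _ => (0 : ℝ) := by
          funext n; exact (hpn n).2.2.1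
        have hz2 : (fun n => (p_n n).2 v) = fun _ => (0 : ℝ) := by
          funext n; exact (hpn n).2.2.2
        rw [hz1] at hl1
        rw [hz2] at hl2
        exact ⟨h1', h2', (tendsto_nhds_unique hl1 tendsto_const_nhds),
          (tendsto_nhds_unique hl2 tendsto_const_nhds)⟩)
      (by
        refine Eventually.of_forall ?_
        rintro t p ⟨hp1, hp2, -, -⟩ p' ⟨hp1', hp2', -, -⟩
        have hnt := (hγ.mem t)
        have hns := (hγ.mem s)
        refine ⟨?_, ?_, ?_, ?_⟩
        · have := nrm_le hp1 (γ t)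
          rw [hnt.1] at this
          rw [map_sub, hp1.2]; linarith
        · have := nrm_le hp1' (γ s)
          rw [hns.1] at this
          rw [map_sub, hp1'.2]; linarith
        · have := nrm_le hp2 (x - γ t)
          rw [hnt.2] at this
          have e : γ t - γ s = (x - γ s) - (x - γ t) := by abel
          rw [e, map_sub, hp2.2]; linarith
        · have := nrm_le hp2' (x - γ s)
          rw [hns.2] at this
          have e : γ t - γ s = (x - γ s) - (x - γ t) := by abel
          rw [e, map_sub, hp2'.2]; linarith)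
      (by
        rintro p ⟨hp1, hp2, hp1v, hp2v⟩ w hw1 hw2
        have hns := hγ.mem s
        have ha : 0 < p.1 x := pos_at hx1 hD hns hp1
        have hb : 0 < p.2 x := pos_at hx1 hD (Eo.symm hns) hp2
        have ha' : p.1 x ≤ 1 := by
          have := nrm_le hp1 x
          rwa [hx1] at this
        have hb' : p.2 x ≤ 1 := by
          have := nrm_le hp2 x
          rwa [hx1] at this
        refine ker_line E.dim (c := γ s) (c' := x - γ s) ?_ hv0 hp1v hp2v hw1 hw2
        have e1 : p.1 (γ s) = 1 := hp1.2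
        have e2 : p.2 (x - γ s) = 1 := hp2.2
        have e3 : p.1 (x - γ s) = p.1 x - 1 := by rw [map_sub, e1]
        have e4 : p.2 (γ s) = p.2 x - 1 := by
          have := map_sub p.2 x (γ s)
          rw [e2] at this
          linarith
        rw [e1, e2, e3, e4]
        have : (p.1 x - 1) * (p.2 x - 1) < 1 := by nlinarith
        intro hz
        nlinarith)
    rw [hasDerivAt_iff_isLittleO]
    rw [Asymptotics.isLittleO_iff]
    intro ε hε
    obtain ⟨δ, hδ, hδ'⟩ := hw (ε / 1) (by positivity)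
    have hball : ∀ᶠ t in 𝓝 s, |t - s| < δ := by
      have : Metric.ball s δ ∈ 𝓝 s := Metric.ball_mem_nhds s hδ
      filter_upwards [this] with t ht
      simpa [Real.dist_eq] using ht
    filter_upwards [hball] with t ht
    obtain ⟨r, hr⟩ := hδ' t ht
    have e : h t - h s = nr x (γ t - γ s - r • v) := by
      simp only [hh, map_sub, map_smul, hv, smul_eq_mul, mul_zero, sub_zero]
    have hle := nrm_abs_le hnx (γ t - γ s - r • v)
    simp only [smul_eq_mul, mul_zero, sub_zero, Real.norm_eq_abs]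
    rw [e]
    calc |nr x (γ t - γ s - r • v)| ≤ ‖γ t - γ s - r • v‖ := hle
      _ ≤ ε / 1 * |t - s| := hr
      _ = ε * |t - s| := by ring
  -- `h` is constant one half
  have hZne : ∃ t, h t = 1 / 2 := by
    apply mem_range_of_exists_le_of_exists_ge hcont
    · by_cases h0 : h 0 ≤ 1 / 2
      · exact ⟨0, h0⟩
      · refine ⟨0 + Real.pi, ?_⟩
        rw [hshift]; linarith
    · by_cases h0 : 1 / 2 ≤ h 0
      · exact ⟨0, h0⟩
      · refine ⟨0 + Real.pi, ?_⟩
        rw [hshift]; linarith
  have hclopen : IsClopen {t | h t = 1 / 2} := by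
    refine ⟨isClosed_eq hcont continuous_const, ?_⟩
    rw [isOpen_iff_mem_nhds]
    intro s hs
    have hs' : h s = 1 / 2 := hs
    have hop : ∀ᶠ t in 𝓝 s, 0 < h t ∧ h t < 1 :=
      (hcont.continuousAt.eventually (lt_mem_nhds (by rw [hs']; norm_num))).and
        (hcont.continuousAt.eventually (gt_mem_nhds (by rw [hs']; norm_num)))
    obtain ⟨δ, hδ, hball⟩ := Metric.eventually_nhds_iff_ball.mp hop
    have hconst : ∀ t ∈ Metric.ball s δ, h t = h s := by
      intro t ht
      have hd : ∀ y ∈ Metric.ball s δ, HasDerivAt h 0 y := fun y hy =>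
        hderiv y (hball y hy).1 (hball y hy).2
      refine IsOpen.is_const_of_deriv_eq_zero (𝕜 := ℝ) Metric.isOpen_ball
        (convex_ball s δ).isPreconnected (fun y hy => (hd y hy).differentiableAt.differentiableWithinAt)
        (fun y hy => (hd y hy).deriv) ht (Metric.mem_ball_self hδ)
    filter_upwards [Metric.ball_mem_nhds s hδ] with t ht
    show h t = 1 / 2
    rw [hconst t ht, hs']
  have hall : ∀ t, h t = 1 / 2 := by
    obtain ⟨t0, ht0⟩ := hZne
    have := hclopen.eq_univ ⟨t0, ht0⟩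
    intro t
    have ht : t ∈ {t | h t = 1 / 2} := by rw [this]; trivial
    exact ht
  -- contradiction on the ray of `v`
  have hvnot : ∀ r : ℝ, v ≠ r • x := by
    intro r hr
    have : nr x v = r := by
      rw [hr, map_smul, hnx.2]; simp
    have hr0 : r = 0 := by rw [← this]; exact hv
    apply hv0
    rw [hr, hr0, zero_smul]
  obtain ⟨t, a, b, hb, hvab⟩ := hγ.ray v hvnot
  have hna : a + b * (1 / 2) = 0 := by
    have := congrArg (nr x) hvab
    rw [hv, map_add, map_smul, map_smul, hnx.2] at this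
    have h2 : nr x (γ t) = 1 / 2 := hall t
    rw [h2] at this
    simpa using this.symm
  obtain ⟨φ, hφ, hφv⟩ := exists_normal_kill E hx hcon (hγ.mem t) (by
    have h2 : nr x (γ t) = 1 / 2 := hall t
    rw [h2]; norm_num)
  have h3 := congrArg φ hvab
  rw [hφv, map_add, map_smul, map_smul, hφ.2] at h3
  simp only [smul_eq_mul, mul_one] at h3
  have h4 : φ x ≤ 1 := by
    have := nrm_le hφ x
    rwa [hx1] at this
  nlinarith

end Vale.Agent.Lib.P084.D3
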