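/-
Step 5.  Construction of `L_x` for `x` in the generic set.
`a₁ a₂` from `spanning` with `nr x, nr a₁, nr a₂` a basis of the dual, `M : Y → X`, `φ_i ∘ M = ψ_i`; `key_flat`, `key_flat_self` give
`M (f x' - f x) = x' - x + o(‖x' - x‖)`, `M (f x) = x` by `key_zero`; `M` is injective: isometric on the tangent plane `ker (nr (f x))`
(`Sm.norm_expansion` at `f x`, curve `(f x + t v) / ‖f x + t v‖`, `f` onto) and `nr x (M y) = nr (f x) y`; `M` is onto as tangent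
directions of the sphere at `x` are limits.  `L = M⁻¹`. `diff` follows from `M` invertible.  `normal` for other `a`:
`ψ_a ∘ L - φ_a` is `o` on tangent directions by `key_flat`, and vanishes at `x` by `key_zero`.
-/
import Vale.Agent.Lib.P084.D3.Spanning

namespace Vale.Agent.Lib.P084.D3

open Vale.Agent.Lib.P084.UC

section Curve

variable {E : Type*} [NormedAddCommGroup E] [NormedSpace ℝ E] [FiniteDimensional ℝ E]

/-- A curve on the sphere tangent to `v` at the smooth point `c`. -/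
theorem exists_tangent_curve {c v : E} (hc : ‖c‖ = 1) (hs : Sm c) (hv : nr c v = 0) {ε : ℝ}
    (hε : 0 < ε) :
    ∃ δ > 0, ∀ t : ℝ, 0 < t → t < δ → ∃ c' : E, ‖c'‖ = 1 ∧ ‖c' - c - t • v‖ ≤ ε * t := by
  have hK : 0 < ‖v‖ + 1 := by positivity
  obtain ⟨δ₀, hδ₀, hexp⟩ := Sm.norm_expansion hc hs (ε := ε / (‖v‖ + 1)) (div_pos hε hK)
  refine ⟨min (δ₀ / (‖v‖ + 1)) (1 / (‖v‖ + 1)), lt_min (div_pos hδ₀ hK) (div_pos one_pos hK), ?_⟩
  intro t ht htδ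
  have ht1 : t * (‖v‖ + 1) < δ₀ := by
    have := (lt_min_iff.1 htδ).1
    rwa [lt_div_iff₀ hK] at this
  have ht2 : t * (‖v‖ + 1) < 1 := by
    have := (lt_min_iff.1 htδ).2
    rwa [lt_div_iff₀ hK] at this
  have hd : ‖t • v‖ = t * ‖v‖ := by rw [norm_smul, Real.norm_of_nonneg ht.le]
  have hvn := norm_nonneg v
  have hdlt : ‖t • v‖ < δ₀ := by rw [hd]; nlinarith
  have hexp' := hexp (t • v) hdlt
  have hzero : nr c (t • v) = 0 := by rw [map_smul, hv, smul_zero]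
  rw [hzero, sub_zero] at hexp'
  have hn1 : |‖c + t • v‖ - 1| ≤ ε * t := by
    refine hexp'.trans ?_
    rw [hd]
    have e1 : ε / (‖v‖ + 1) * (t * ‖v‖) = ε * t * (‖v‖ / (‖v‖ + 1)) := by
      field_simp
    rw [e1]
    have e2 : ‖v‖ / (‖v‖ + 1) ≤ 1 := by
      rw [div_le_one hK]; linarith
    have e3 : 0 ≤ ε * t := by positivity
    nlinarith
  have hnpos : 0 < ‖c + t • v‖ := by
    have h1 : ‖c‖ ≤ ‖c + t • v‖ + ‖t • v‖ := by
      have : c = (c + t • v) - t • v := by abel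
      calc ‖c‖ = ‖(c + t • v) - t • v‖ := by rw [← this]
        _ ≤ _ := norm_sub_le _ _
    rw [hc, hd] at h1
    nlinarith
  refine ⟨‖c + t • v‖⁻¹ • (c + t • v), ?_, ?_⟩
  · rw [norm_smul, norm_inv, norm_norm, inv_mul_cancel₀ hnpos.ne']
  · have e : ‖c + t • v‖⁻¹ • (c + t • v) - c - t • v = (‖c + t • v‖⁻¹ - 1) • (c + t • v) := by
      rw [sub_smul, one_smul]; abel
    rw [e, norm_smul, Real.norm_eq_abs]
    have e2 : |‖c + t • v‖⁻¹ - 1| * ‖c + t • v‖ = |‖c + t • v‖ - 1| := by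
      rw [← abs_of_pos hnpos, ← abs_mul, abs_of_pos hnpos, sub_mul, inv_mul_cancel₀ hnpos.ne',
        one_mul, abs_sub_comm]
    rw [e2]
    exact hn1

end Curve

variable {X Y : Type*} [NormedAddCommGroup X] [NormedSpace ℝ X] [FiniteDimensional ℝ X]
  [NormedAddCommGroup Y] [NormedSpace ℝ Y] [FiniteDimensional ℝ Y]

/-- A continuous linear map which is flat along the sphere at the smooth point `x` vanishes on the
tangent plane at `x`. -/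
theorem tangent_zero {W : Type*} [NormedAddCommGroup W] [NormedSpace ℝ W] {x v : X}
    (hx : ‖x‖ = 1) (hs : Sm x) (hv : nr x v = 0) (Θ : X →L[ℝ] W)
    (hΘ : ∀ ε > 0, ∃ δ > 0, ∀ x' : X, ‖x'‖ = 1 → ‖x' - x‖ < δ → ‖Θ (x' - x)‖ ≤ ε * ‖x' - x‖) :
    Θ v = 0 := by
  rw [← norm_le_zero_iff]
  refine le_of_forall_pos_le_add (fun η hη => ?_)
  rw [zero_add]
  have hA : 0 < ‖Θ‖ + 1 := by positivity
  have hK : 0 < ‖v‖ + 1 := by positivity
  have hε₁ : 0 < min 1 (η / (2 * (‖Θ‖ + 1))) := lt_min one_pos (by positivity)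
  have hε₁1 : min 1 (η / (2 * (‖Θ‖ + 1))) ≤ 1 := min_le_left _ _
  have hε₁2 : min 1 (η / (2 * (‖Θ‖ + 1))) ≤ η / (2 * (‖Θ‖ + 1)) := min_le_right _ _
  set ε₁ := min 1 (η / (2 * (‖Θ‖ + 1))) with hε₁def
  obtain ⟨δ₁, hδ₁, hc⟩ := exists_tangent_curve hx hs hv hε₁
  obtain ⟨δ₂, hδ₂, hf⟩ := hΘ (η / (2 * (‖v‖ + 1))) (by positivity)
  have hm : 0 < min δ₁ (δ₂ / (‖v‖ + 1)) := lt_min hδ₁ (div_pos hδ₂ hK)
  have ht : 0 < min δ₁ (δ₂ / (‖v‖ + 1)) / 2 := by positivity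
  have ht1 : min δ₁ (δ₂ / (‖v‖ + 1)) / 2 < δ₁ := by
    have := min_le_left δ₁ (δ₂ / (‖v‖ + 1))
    linarith
  have ht2 : min δ₁ (δ₂ / (‖v‖ + 1)) / 2 * (‖v‖ + 1) < δ₂ := by
    have h1 : min δ₁ (δ₂ / (‖v‖ + 1)) / 2 < δ₂ / (‖v‖ + 1) := by
      have := min_le_right δ₁ (δ₂ / (‖v‖ + 1))
      linarith
    rwa [lt_div_iff₀ hK] at h1
  set t := min δ₁ (δ₂ / (‖v‖ + 1)) / 2 with htdef
  obtain ⟨c', hc'1, hc'2⟩ := hc t ht ht1
  have hr : ‖c' - x‖ ≤ t * (‖v‖ + 1) := by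
    have e : c' - x = (c' - x - t • v) + t • v := by abel
    have h1 : ‖t • v‖ = t * ‖v‖ := by rw [norm_smul, Real.norm_of_nonneg ht.le]
    calc ‖c' - x‖ = ‖(c' - x - t • v) + t • v‖ := by rw [← e]
      _ ≤ ‖c' - x - t • v‖ + ‖t • v‖ := norm_add_le _ _
      _ ≤ ε₁ * t + t * ‖v‖ := by rw [h1]; linarith
      _ ≤ t * (‖v‖ + 1) := by nlinarith
  have h1 := hf c' hc'1 (lt_of_le_of_lt hr ht2)
  have h1' : ‖Θ (c' - x)‖ ≤ η / 2 * t := by
    refine h1.trans ?_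
    have : η / (2 * (‖v‖ + 1)) * (t * (‖v‖ + 1)) = η / 2 * t := by
      field_simp
    rw [← this]
    gcongr
  have h2 : ‖Θ (c' - x - t • v)‖ ≤ η / 2 * t := by
    have h21 := Θ.le_opNorm (c' - x - t • v)
    have h22 : ‖Θ‖ * ‖c' - x - t • v‖ ≤ ‖Θ‖ * (ε₁ * t) := by gcongr
    have h23 : ‖Θ‖ * ε₁ ≤ η / 2 := by
      have h24 : ‖Θ‖ * ε₁ ≤ (‖Θ‖ + 1) * (η / (2 * (‖Θ‖ + 1))) := by
        gcongr
        linarith
      have h25 : (‖Θ‖ + 1) * (η / (2 * (‖Θ‖ + 1))) = η / 2 := by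
        field_simp
      linarith
    nlinarith
  have h3 : t • Θ v = Θ (c' - x) - Θ (c' - x - t • v) := by
    simp only [map_sub, map_smul]; abel
  have h4 : t * ‖Θ v‖ ≤ η * t := by
    have h5 : ‖t • Θ v‖ = t * ‖Θ v‖ := by rw [norm_smul, Real.norm_of_nonneg ht.le]
    rw [← h5, h3]
    calc ‖Θ (c' - x) - Θ (c' - x - t • v)‖ ≤ ‖Θ (c' - x)‖ + ‖Θ (c' - x - t • v)‖ := norm_sub_le _ _
      _ ≤ η * t := by linarith
  nlinarith

/-- The linear model from three functionals. -/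
theorem exists_lin_of_functionals {f : X → Y} (hf : IsSphereIso f) {x : X} (hx : ‖x‖ = 1)
    (hs : Sm x) (hs' : Sm (f x))
    (φ : Fin 3 → X →L[ℝ] ℝ) (ψ : Fin 3 → Y →L[ℝ] ℝ) (h0' : ψ 0 = nr (f x))
    (hΦ : Function.Bijective (LinearMap.pi (fun i => ((φ i : X →L[ℝ] ℝ) : X →ₗ[ℝ] ℝ))))
    (hval : ∀ i, ψ i (f x) = φ i x)
    (hflat : ∀ i, ∀ ε > 0, ∃ δ > 0, ∀ x' : X, ‖x'‖ = 1 → ‖x' - x‖ < δ →
      |ψ i (f x' - f x) - φ i (x' - x)| ≤ ε * ‖x' - x‖) :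
    ∃ L : X ≃L[ℝ] Y, L x = f x ∧ (∀ i, (ψ i).comp (L : X →L[ℝ] Y) = φ i) ∧
      ∀ ε > 0, ∃ δ > 0, ∀ x' : X, ‖x'‖ = 1 → ‖x' - x‖ < δ →
        ‖f x' - f x - L (x' - x)‖ ≤ ε * ‖x' - x‖ := by
  classical
  -- the coordinate equivalence
  let eC : X ≃L[ℝ] (Fin 3 → ℝ) :=
    (LinearEquiv.ofBijective (LinearMap.pi (fun i => ((φ i : X →L[ℝ] ℝ) : X →ₗ[ℝ] ℝ))) hΦ).toContinuousLinearEquiv
  have heC : ∀ z i, eC z i = φ i z := fun z i => rfl
  let Ψ : Y →L[ℝ] (Fin 3 → ℝ) := ContinuousLinearMap.pi ψ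
  have hΨ : ∀ y i, Ψ y i = ψ i y := fun y i => rfl
  let M : Y →L[ℝ] X := (eC.symm : (Fin 3 → ℝ) →L[ℝ] X).comp Ψ
  have hMe : ∀ y, eC (M y) = Ψ y := fun y => eC.apply_symm_apply _
  have hM : ∀ i y, φ i (M y) = ψ i y := by
    intro i y
    rw [← heC, hMe, hΨ]
  have hMfx : M (f x) = x := by
    apply eC.injective
    rw [hMe]
    funext i
    rw [hΨ, heC, hval]
  -- flatness of `M`
  have hflatM : ∀ ε > 0, ∃ δ > 0, ∀ x' : X, ‖x'‖ = 1 → ‖x' - x‖ < δ →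
      ‖M (f x' - f x) - (x' - x)‖ ≤ ε * ‖x' - x‖ := by
    intro ε hε
    have hC : 0 < ‖(eC.symm : (Fin 3 → ℝ) →L[ℝ] X)‖ + 1 := by positivity
    have hε' : 0 < ε / (‖(eC.symm : (Fin 3 → ℝ) →L[ℝ] X)‖ + 1) := div_pos hε hC
    choose d hd hd' using fun i => hflat i _ hε'
    refine ⟨Finset.univ.inf' Finset.univ_nonempty d, ?_, ?_⟩
    · show 0 < _
      rw [Finset.lt_inf'_iff]
      intro i _
      exact hd i
    · intro x' hx' hlt
      have hcoord : ‖Ψ (f x' - f x) - eC (x' - x)‖ ≤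
          ε / (‖(eC.symm : (Fin 3 → ℝ) →L[ℝ] X)‖ + 1) * ‖x' - x‖ := by
        rw [pi_norm_le_iff_of_nonneg (by positivity)]
        intro i
        have hi : ‖x' - x‖ < d i :=
          lt_of_lt_of_le hlt (Finset.inf'_le _ (Finset.mem_univ i))
        have := hd' i x' hx' hi
        simpa [hΨ, heC, Real.norm_eq_abs] using this
      have hMeq : M (f x' - f x) - (x' - x) =
          (eC.symm : (Fin 3 → ℝ) →L[ℝ] X) (Ψ (f x' - f x) - eC (x' - x)) := by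
        have e1 : M (f x' - f x) = (eC.symm : (Fin 3 → ℝ) →L[ℝ] X) (Ψ (f x' - f x)) := rfl
        rw [e1, map_sub (eC.symm : (Fin 3 → ℝ) →L[ℝ] X)]
        congr 1
        exact (eC.symm_apply_apply _).symm
      rw [hMeq]
      calc ‖(eC.symm : (Fin 3 → ℝ) →L[ℝ] X) (Ψ (f x' - f x) - eC (x' - x))‖
          ≤ ‖(eC.symm : (Fin 3 → ℝ) →L[ℝ] X)‖ * ‖Ψ (f x' - f x) - eC (x' - x)‖ :=
            ContinuousLinearMap.le_opNorm _ _
        _ ≤ (‖(eC.symm : (Fin 3 → ℝ) →L[ℝ] X)‖ + 1) *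
            (ε / (‖(eC.symm : (Fin 3 → ℝ) →L[ℝ] X)‖ + 1) * ‖x' - x‖) := by
            gcongr
            linarith
        _ = ε * ‖x' - x‖ := by
            field_simp
  -- injective
  have hinj : Function.Injective M := by
    rw [injective_iff_map_eq_zero]
    intro y hy
    by_contra hy0
    have hη : 0 < ‖y‖ := norm_pos_iff.2 hy0
    have hψy : nr (f x) y = 0 := by
      rw [← h0', ← hM, hy, map_zero]
    have hfx : ‖f x‖ = 1 := hf.norm_eq x hx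
    have hA : 0 < 1 + 2 * ‖M‖ := by positivity
    have hε₀ : 0 < ‖y‖ / (2 * (1 + 2 * ‖M‖)) := by positivity
    have hε₀1 : ‖y‖ / (2 * (1 + 2 * ‖M‖)) ≤ ‖y‖ / 2 := by
      apply div_le_div_of_nonneg_left hη.le (by positivity)
      nlinarith [norm_nonneg M]
    have hε₀2 : ‖y‖ / (2 * (1 + 2 * ‖M‖)) * (1 + 2 * ‖M‖) = ‖y‖ / 2 := by
      field_simp
    set ε₀ := ‖y‖ / (2 * (1 + 2 * ‖M‖)) with hε₀def
    obtain ⟨δ₁, hδ₁, hc⟩ := exists_tangent_curve hfx hs' hψy hε₀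
    obtain ⟨δ₂, hδ₂, hfl⟩ := hflatM (1 / 2) (by norm_num)
    have hm : 0 < min δ₁ (δ₂ / (2 * ‖y‖)) := lt_min hδ₁ (by positivity)
    have ht : 0 < min δ₁ (δ₂ / (2 * ‖y‖)) / 2 := by positivity
    have ht1 : min δ₁ (δ₂ / (2 * ‖y‖)) / 2 < δ₁ := by
      have := min_le_left δ₁ (δ₂ / (2 * ‖y‖))
      linarith
    have ht2 : min δ₁ (δ₂ / (2 * ‖y‖)) / 2 * (2 * ‖y‖) < δ₂ := by
      have h1 : min δ₁ (δ₂ / (2 * ‖y‖)) / 2 < δ₂ / (2 * ‖y‖) := by
        have := min_le_right δ₁ (δ₂ / (2 * ‖y‖))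
        linarith
      rwa [lt_div_iff₀ (by positivity)] at h1
    set t := min δ₁ (δ₂ / (2 * ‖y‖)) / 2 with htdef
    obtain ⟨w, hw1, hw2⟩ := hc t ht ht1
    obtain ⟨x', hx', hfx'⟩ := hf.surj w hw1
    have hr : ‖x' - x‖ = ‖w - f x‖ := by
      rw [← hfx']
      exact (hf.iso x' x hx' hx).symm
    have hty : ‖t • y‖ = t * ‖y‖ := by rw [norm_smul, Real.norm_of_nonneg ht.le]
    have hrup : ‖w - f x‖ ≤ t * (2 * ‖y‖) := by
      have e : w - f x = (w - f x - t • y) + t • y := by abel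
      calc ‖w - f x‖ = ‖(w - f x - t • y) + t • y‖ := by rw [← e]
        _ ≤ ‖w - f x - t • y‖ + ‖t • y‖ := norm_add_le _ _
        _ ≤ ε₀ * t + t * ‖y‖ := by rw [hty]; linarith
        _ ≤ t * (2 * ‖y‖) := by nlinarith
    have hrlo : t * ‖y‖ - ε₀ * t ≤ ‖w - f x‖ := by
      have e : t • y = (w - f x) - (w - f x - t • y) := by abel
      have : ‖t • y‖ ≤ ‖w - f x‖ + ‖w - f x - t • y‖ := by
        calc ‖t • y‖ = ‖(w - f x) - (w - f x - t • y)‖ := by rw [← e]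
          _ ≤ _ := norm_sub_le _ _
      rw [hty] at this
      linarith
    have h1 := hfl x' hx' (by rw [hr]; exact lt_of_le_of_lt hrup ht2)
    rw [hfx'] at h1
    have h2 : ‖M (w - f x)‖ ≤ ‖M‖ * (ε₀ * t) := by
      have e : M (w - f x) = M (w - f x - t • y) := by
        rw [map_sub (M) (w - f x) (t • y), map_smul, hy, smul_zero, sub_zero]
      rw [e]
      calc ‖M (w - f x - t • y)‖ ≤ ‖M‖ * ‖w - f x - t • y‖ := M.le_opNorm _
        _ ≤ ‖M‖ * (ε₀ * t) := by gcongr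
    have h3 : ‖x' - x‖ ≤ ‖M (w - f x)‖ + 1 / 2 * ‖x' - x‖ := by
      have e : x' - x = M (w - f x) - (M (w - f x) - (x' - x)) := by abel
      calc ‖x' - x‖ = ‖M (w - f x) - (M (w - f x) - (x' - x))‖ := by rw [← e]
        _ ≤ ‖M (w - f x)‖ + ‖M (w - f x) - (x' - x)‖ := norm_sub_le _ _
        _ ≤ _ := by linarith
    rw [hr] at h3
    have h4 : t * ‖y‖ - ε₀ * t ≤ 2 * (‖M‖ * (ε₀ * t)) := by linarith
    have h5 : t * ‖y‖ ≤ t * (‖y‖ / 2) := by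
      have : ε₀ * t + 2 * (‖M‖ * (ε₀ * t)) = t * (ε₀ * (1 + 2 * ‖M‖)) := by ring
      rw [hε₀2] at this
      linarith
    nlinarith
  -- onto
  have hsurj : Function.Surjective M := by
    by_contra hns
    have hlt : LinearMap.range (M : Y →ₗ[ℝ] X) < ⊤ := by
      rw [lt_top_iff_ne_top]
      intro h
      exact hns (LinearMap.range_eq_top.1 h)
    obtain ⟨θ, hθ0, hθ⟩ := Submodule.exists_le_ker_of_lt_top _ hlt
    apply hθ0
    let θc : X →L[ℝ] ℝ := LinearMap.toContinuousLinearMap θ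
    have hθM : ∀ y, θc (M y) = 0 := by
      intro y
      have : (M : Y →ₗ[ℝ] X) y ∈ LinearMap.range (M : Y →ₗ[ℝ] X) := ⟨y, rfl⟩
      exact hθ this
    have htan : ∀ v, nr x v = 0 → θc v = 0 := by
      intro v hv
      apply tangent_zero hx hs hv θc
      intro ε hε
      obtain ⟨δ, hδ, hfl⟩ := hflatM (ε / (‖θc‖ + 1)) (by positivity)
      refine ⟨δ, hδ, fun x' hx' hlt => ?_⟩
      have e : θc (x' - x) = - θc (M (f x' - f x) - (x' - x)) := by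
        rw [map_sub θc (M (f x' - f x)) (x' - x), hθM]; ring
      rw [e, norm_neg]
      calc ‖θc (M (f x' - f x) - (x' - x))‖ ≤ ‖θc‖ * ‖M (f x' - f x) - (x' - x)‖ := θc.le_opNorm _
        _ ≤ (‖θc‖ + 1) * (ε / (‖θc‖ + 1) * ‖x' - x‖) := by
            gcongr
            · linarith
            · exact hfl x' hx' hlt
        _ = ε * ‖x' - x‖ := by field_simp
    have hθx : θc x = 0 := by
      rw [← hMfx]; exact hθM _
    have hnx : nr x x = 1 := (nr_mem hx).2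
    ext z
    have hz : z = (nr x z) • x + (z - (nr x z) • x) := by abel
    have hz2 : nr x (z - (nr x z) • x) = 0 := by
      simp [hnx]
    have : θc z = 0 := by
      rw [hz, map_add, map_smul, hθx, htan _ hz2]
      simp
    exact this
  -- the inverse
  let eM : Y ≃L[ℝ] X :=
    (LinearEquiv.ofBijective (M : Y →ₗ[ℝ] X) ⟨hinj, hsurj⟩).toContinuousLinearEquiv
  have heM : ∀ y, eM y = M y := fun y => rfl
  refine ⟨eM.symm, ?_, ?_, ?_⟩
  · rw [ContinuousLinearEquiv.symm_apply_eq, heM, hMfx]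
  · intro i
    ext z
    have h1 : M (eM.symm z) = z := by
      rw [← heM, ContinuousLinearEquiv.apply_symm_apply]
    simp only [ContinuousLinearMap.comp_apply]
    show ψ i (eM.symm z) = φ i z
    rw [← hM, h1]
  · intro ε hε
    have hC : 0 < ‖(eM.symm : X →L[ℝ] Y)‖ + 1 := by positivity
    obtain ⟨δ, hδ, hfl⟩ := hflatM (ε / (‖(eM.symm : X →L[ℝ] Y)‖ + 1)) (div_pos hε hC)
    refine ⟨δ, hδ, fun x' hx' hlt => ?_⟩
    have e : f x' - f x - eM.symm (x' - x) = (eM.symm : X →L[ℝ] Y) (M (f x' - f x) - (x' - x)) := by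
      show _ = eM.symm (M (f x' - f x) - (x' - x))
      rw [map_sub eM.symm (M (f x' - f x)) (x' - x), ← heM, ContinuousLinearEquiv.symm_apply_apply]
    rw [e]
    calc ‖(eM.symm : X →L[ℝ] Y) (M (f x' - f x) - (x' - x))‖
        ≤ ‖(eM.symm : X →L[ℝ] Y)‖ * ‖M (f x' - f x) - (x' - x)‖ := ContinuousLinearMap.le_opNorm _ _
      _ ≤ (‖(eM.symm : X →L[ℝ] Y)‖ + 1) * (ε / (‖(eM.symm : X →L[ℝ] Y)‖ + 1) * ‖x' - x‖) := by
          gcongr
          · linarith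
          · exact hfl x' hx' hlt
      _ = ε * ‖x' - x‖ := by field_simp

variable {f : X → Y} {G : Set X}

theorem exists_isLin (E : Env f G) {x : X} (hx : x ∈ G) : ∃ L : X ≃L[ℝ] Y, IsLin f G x L := by
  classical
  obtain ⟨hx1, hsx, hsfx⟩ := E.gen.reg x hx
  have hC := E.ctx
  have hdim := E.dim
  have hnx : nr x x = 1 := (nr_mem hx1).2
  -- a first tangent vector
  obtain ⟨v₁, hv₁, hv₁0⟩ : ∃ v : X, nr x v = 0 ∧ v ≠ 0 := by
    have hk : LinearMap.ker ((nr x : X →L[ℝ] ℝ) : X →ₗ[ℝ] ℝ) ≠ ⊥ :=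
      LinearMap.ker_ne_bot_of_finrank_lt (by rw [hdim]; simp)
    obtain ⟨v, hv, hv0⟩ := (Submodule.ne_bot_iff _).1 hk
    exact ⟨v, hv, hv0⟩
  obtain ⟨a₁, ha₁G, ha₁E, -, hp⟩ := spanning E hx hv₁ hv₁0
  -- a second one, in the kernel of both
  obtain ⟨v₂, hv₂, hv₂', hv₂0⟩ : ∃ v : X, nr x v = 0 ∧ nr a₁ v = 0 ∧ v ≠ 0 := by
    have hk : LinearMap.ker (((nr x : X →L[ℝ] ℝ) : X →ₗ[ℝ] ℝ).prod ((nr a₁ : X →L[ℝ] ℝ) : X →ₗ[ℝ] ℝ)) ≠ ⊥ :=
      LinearMap.ker_ne_bot_of_finrank_lt (by rw [hdim]; simp)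
    obtain ⟨v, hv, hv0⟩ := (Submodule.ne_bot_iff _).1 hk
    have hv' := Prod.ext_iff.1 (LinearMap.mem_ker.1 hv)
    exact ⟨v, hv'.1, hv'.2, hv0⟩
  obtain ⟨a₂, ha₂G, ha₂E, -, hq⟩ := spanning E hx hv₂ hv₂0
  obtain ⟨ha₁1, hsa₁, hsfa₁⟩ := E.gen.reg a₁ ha₁G
  obtain ⟨ha₂1, hsa₂, hsfa₂⟩ := E.gen.reg a₂ ha₂G
  have hDa₁ := E.gen.notD a₁ ha₁G
  have hDa₂ := E.gen.notD a₂ ha₂G
  have hxa₁ : x ∈ Eo a₁ := Eo.comm hx1 ha₁E
  have hxa₂ : x ∈ Eo a₂ := Eo.comm hx1 ha₂E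
  -- the three functionals
  let φ : Fin 3 → X →L[ℝ] ℝ := ![nr x, nr a₁, nr a₂]
  let ψ : Fin 3 → Y →L[ℝ] ℝ := ![nr (f x), nr (f a₁), nr (f a₂)]
  have hΦs : Function.Surjective (LinearMap.pi (fun i => ((φ i : X →L[ℝ] ℝ) : X →ₗ[ℝ] ℝ))) := by
    intro u
    refine ⟨u 0 • x + ((u 1 - u 0 * nr a₁ x) / nr a₁ v₁) • v₁ +
      ((u 2 - u 0 * nr a₂ x - ((u 1 - u 0 * nr a₁ x) / nr a₁ v₁) * nr a₂ v₁) / nr a₂ v₂) • v₂, ?_⟩
    funext i
    fin_cases i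
    · show nr x _ = u 0
      simp only [map_add, map_smul, hnx, hv₁, hv₂, smul_eq_mul]
      ring
    · show nr a₁ _ = u 1
      simp only [map_add, map_smul, hv₂', smul_eq_mul]
      field_simp
      ring
    · show nr a₂ _ = u 2
      simp only [map_add, map_smul, smul_eq_mul]
      field_simp
      ring
  have hfr : Module.finrank ℝ X = Module.finrank ℝ (Fin 3 → ℝ) := by
    rw [hdim]; simp
  have hΦ : Function.Bijective (LinearMap.pi (fun i => ((φ i : X →L[ℝ] ℝ) : X →ₗ[ℝ] ℝ))) :=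
    ⟨(LinearMap.injective_iff_surjective_of_finrank_eq_finrank hfr).2 hΦs, hΦs⟩
  have hfx1 : ‖f x‖ = 1 := hC.iso.norm_eq x hx1
  have hval : ∀ i, ψ i (f x) = φ i x := by
    intro i
    fin_cases i
    · show nr (f x) (f x) = nr x x
      rw [hnx]; exact (nr_mem hfx1).2
    · exact key_zero hC hdim ha₁1 hsa₁ hsfa₁ hDa₁ hxa₁
    · exact key_zero hC hdim ha₂1 hsa₂ hsfa₂ hDa₂ hxa₂
  have hflat : ∀ i, ∀ ε > 0, ∃ δ > 0, ∀ x' : X, ‖x'‖ = 1 → ‖x' - x‖ < δ →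
      |ψ i (f x' - f x) - φ i (x' - x)| ≤ ε * ‖x' - x‖ := by
    intro i ε hε
    fin_cases i
    · exact key_flat_self hC hx1 hsx hsfx hε
    · exact key_flat hC ha₁1 hsa₁ hsfa₁ hxa₁ hε
    · exact key_flat hC ha₂1 hsa₂ hsfa₂ hxa₂ hε
  obtain ⟨L, hLx, hLφ, hLd⟩ :=
    exists_lin_of_functionals hC.iso hx1 hsx hsfx φ ψ rfl hΦ hval hflat
  refine ⟨L, hLx, ?_, hLφ 0, hLd⟩
  -- the other normals
  intro a haG haE _
  obtain ⟨ha1, hsa, hsfa⟩ := E.gen.reg a haG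
  have hDa := E.gen.notD a haG
  have hxa : x ∈ Eo a := Eo.comm hx1 haE
  have hfa1 : ‖f a‖ = 1 := hC.iso.norm_eq a ha1
  let Θ : X →L[ℝ] ℝ := (nr (f a)).comp (L : X →L[ℝ] Y) - nr a
  have hΘx : Θ x = 0 := by
    show nr (f a) (L x) - nr a x = 0
    rw [hLx, key_zero hC hdim ha1 hsa hsfa hDa hxa, sub_self]
  have hΘv : ∀ v, nr x v = 0 → Θ v = 0 := by
    intro v hv
    apply tangent_zero hx1 hsx hv Θ
    intro ε hε
    obtain ⟨δ₁, hδ₁, h1⟩ := hLd (ε / 2) (by positivity)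
    obtain ⟨δ₂, hδ₂, h2⟩ := key_flat hC ha1 hsa hsfa hxa (ε := ε / 2) (by positivity)
    refine ⟨min δ₁ δ₂, lt_min hδ₁ hδ₂, fun x' hx' hlt => ?_⟩
    have e : Θ (x' - x) = - nr (f a) (f x' - f x - L (x' - x))
        + (nr (f a) (f x' - f x) - nr a (x' - x)) := by
      show nr (f a) (L (x' - x)) - nr a (x' - x) = _
      rw [map_sub (nr (f a)) (f x' - f x) (L (x' - x))]
      ring
    rw [e, Real.norm_eq_abs]
    have h3 := h1 x' hx' (lt_of_lt_of_le hlt (min_le_left _ _))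
    have h4 := h2 x' hx' (lt_of_lt_of_le hlt (min_le_right _ _))
    have h5 := nrm_abs_le (nr_mem hfa1) (f x' - f x - L (x' - x))
    calc |(- nr (f a) (f x' - f x - L (x' - x))) + (nr (f a) (f x' - f x) - nr a (x' - x))|
        ≤ |nr (f a) (f x' - f x - L (x' - x))| + |nr (f a) (f x' - f x) - nr a (x' - x)| := by
          refine (abs_add_le _ _).trans ?_
          rw [abs_neg]
      _ ≤ ε * ‖x' - x‖ := by linarith
  have hΘ0 : Θ = 0 := by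
    ext z
    have hz : z = (nr x z) • x + (z - (nr x z) • x) := by abel
    have hz2 : nr x (z - (nr x z) • x) = 0 := by
      simp [hnx]
    rw [hz, map_add, map_smul, hΘx, hΘv _ hz2]
    simp
  exact sub_eq_zero.1 hΘ0

end Vale.Agent.Lib.P084.D3
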