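/-
Two consequences of `IsLin`: `L` is determined by `f` near `x`, and `f = L` on the face of `x`.
Only uses `diff`, `val`, `Ctx.aff`, `Sm.norm_expansion`.
-/
import Vale.Agent.Lib.P084.D3.Calc

namespace Vale.Agent.Lib.P084.D3

variable {X Y : Type*} [NormedAddCommGroup X] [NormedSpace ℝ X] [FiniteDimensional ℝ X]
  [NormedAddCommGroup Y] [NormedSpace ℝ Y] [FiniteDimensional ℝ Y]

variable {f : X → Y} {G : Set X}

omit [FiniteDimensional ℝ X] [FiniteDimensional ℝ Y] in
/-- A vector whose image under a fixed linear map is small relative to its size for every constant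
is killed, once it is the limit of a family of small-image vectors. -/
private lemma apply_eq_zero_of_small {A : X →L[ℝ] Y} {u : ℝ → X} {w : X} {l : Filter ℝ} [l.NeBot]
    (hu : Filter.Tendsto u l (nhds w))
    (h : ∀ ε > 0, ∀ᶠ t in l, ‖A (u t)‖ ≤ ε * ‖u t‖) : A w = 0 := by
  have hA : Filter.Tendsto (fun t => ‖A (u t)‖) l (nhds ‖A w‖) :=
    ((A.continuous.tendsto w).comp hu).norm
  have hU : Filter.Tendsto (fun t => ‖u t‖) l (nhds ‖w‖) := hu.norm
  have hle : ∀ ε > 0, ‖A w‖ ≤ ε * ‖w‖ := fun ε hε =>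
    le_of_tendsto_of_tendsto hA (hU.const_mul ε) (h ε hε)
  have h0 : ‖A w‖ ≤ 0 := by
    by_contra hne
    rw [not_le] at hne
    have hw : 0 ≤ ‖w‖ := norm_nonneg _
    have := hle (‖A w‖ / (2 * (‖w‖ + 1))) (by positivity)
    have h3 : ‖A w‖ / (2 * (‖w‖ + 1)) * ‖w‖ ≤ ‖A w‖ / 2 := by
      rw [div_mul_eq_mul_div, div_le_div_iff₀ (by positivity) (by norm_num)]
      nlinarith [mul_nonneg hne.le hw]
    linarith
  exact norm_le_zero_iff.mp h0

/-- `L` is determined by `f` near `x`.  For `v ∈ ker (nr x)`: `x_t = (x + t v) / ‖x + t v‖` is on the sphere, `x_t - x = t v + o(t)`,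
so `L v = T v` from `diff`; and `L x = f x = T x`. -/
theorem IsLin.eq_of_eq_near (E : Env f G) {x : X} (hx : x ∈ G) {L : X ≃L[ℝ] Y} (hL : IsLin f G x L)
    {T : X →L[ℝ] Y} {ε : ℝ} (hε : 0 < ε) (hT : ∀ z : X, ‖z‖ = 1 → ‖z - x‖ < ε → f z = T z) :
    (L : X →L[ℝ] Y) = T := by
  obtain ⟨hx1, hxs, -⟩ := E.gen.reg x hx
  have hφx : nr x x = 1 := (nr_mem hx1).2
  set A : X →L[ℝ] Y := (L : X →L[ℝ] Y) - T with hA
  have hAx : A x = 0 := by
    have h1 : f x = T x := hT x hx1 (by simpa using hε)
    simp [hA, hL.val, h1]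
  -- the kernel directions
  have hker : ∀ w : X, nr x w = 0 → A w = 0 := by
    intro w hw
    -- the family `u t = (x_t - x) / t`
    let N : ℝ → ℝ := fun t => ‖x + t • w‖
    let y : ℝ → X := fun t => (N t)⁻¹ • (x + t • w)
    let u : ℝ → X := fun t => t⁻¹ • (y t - x)
    let l : Filter ℝ := nhdsWithin 0 (Set.Ioi 0)
    -- `N t = 1 + o(t)`
    have hNexp : ∀ η > 0, ∀ᶠ t in l, |N t - 1| ≤ η * t := by
      intro η hη
      obtain ⟨δ, hδ, hd⟩ := Sm.norm_expansion hx1 hxs (ε := η / (‖w‖ + 1)) (by positivity)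
      have hpos : (0 : ℝ) < δ / (‖w‖ + 1) := by positivity
      filter_upwards [Ioo_mem_nhdsGT hpos] with t ht
      have ht0 : 0 < t := ht.1
      have hnorm : ‖t • w‖ = t * ‖w‖ := by
        rw [norm_smul, Real.norm_eq_abs, abs_of_pos ht0]
      have hsmall : ‖t • w‖ < δ := by
        rw [hnorm]
        have h1 : t * (‖w‖ + 1) < δ := by
          have := ht.2
          rwa [lt_div_iff₀ (by positivity)] at this
        nlinarith [norm_nonneg w]
      have h2 := hd (t • w) hsmall
      have h3 : nr x (t • w) = 0 := by simp [hw]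
      rw [h3, sub_zero, hnorm] at h2
      refine h2.trans ?_
      have h4 : η / (‖w‖ + 1) * (t * ‖w‖) ≤ η * t := by
        rw [div_mul_eq_mul_div, div_le_iff₀ (by positivity)]
        nlinarith [mul_pos hη ht0, norm_nonneg w]
      exact h4
    have hNlim : Filter.Tendsto N l (nhds 1) := by
      have hc : Continuous N := by
        show Continuous fun t : ℝ => ‖x + t • w‖
        fun_prop
      have h1 : N 0 = 1 := by simp [N, hx1]
      have := hc.tendsto 0
      rw [h1] at this
      exact this.mono_left nhdsWithin_le_nhds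
    -- `(N t - 1) / t → 0`
    have hNquot : Filter.Tendsto (fun t => t⁻¹ * (N t - 1)) l (nhds 0) := by
      rw [Metric.tendsto_nhds]
      intro η hη
      filter_upwards [hNexp (η / 2) (by positivity), self_mem_nhdsWithin] with t ht htpos
      have ht0 : 0 < t := htpos
      rw [Real.dist_eq, sub_zero, abs_mul, abs_of_pos (inv_pos.mpr ht0)]
      have : t⁻¹ * |N t - 1| ≤ t⁻¹ * (η / 2 * t) :=
        mul_le_mul_of_nonneg_left ht (inv_pos.mpr ht0).le
      have h2 : t⁻¹ * (η / 2 * t) = η / 2 := by field_simp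
      linarith
    -- rewrite `u`
    have hNne : ∀ᶠ t in l, N t ≠ 0 := by
      have := hNlim.eventually (lt_mem_nhds (show (0 : ℝ) < 1 by norm_num))
      filter_upwards [this] with t ht using ht.ne'
    have huform : ∀ᶠ t in l,
        u t = (N t)⁻¹ • w - ((N t)⁻¹ * (t⁻¹ * (N t - 1))) • x := by
      filter_upwards [hNne, self_mem_nhdsWithin] with t ht htpos
      have ht0 : t ≠ 0 := (show (0 : ℝ) < t from htpos).ne'
      have e1 : y t - x = ((N t)⁻¹ * t) • w + ((N t)⁻¹ - 1) • x := by
        simp only [y, smul_add, smul_smul, sub_smul, one_smul]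
        abel
      have e2 : (N t)⁻¹ - 1 = - ((N t)⁻¹ * (N t - 1)) := by
        field_simp
        ring
      simp only [u]
      rw [e1, smul_add, smul_smul, smul_smul, e2]
      have e3 : t⁻¹ * ((N t)⁻¹ * t) = (N t)⁻¹ := by field_simp
      have e4 : t⁻¹ * -((N t)⁻¹ * (N t - 1)) = -((N t)⁻¹ * (t⁻¹ * (N t - 1))) := by ring
      rw [e3, e4, neg_smul]
      abel
    have hulim : Filter.Tendsto u l (nhds w) := by
      have hinv : Filter.Tendsto (fun t => (N t)⁻¹) l (nhds 1) := by
        have := hNlim.inv₀ (one_ne_zero)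
        simpa using this
      have h1 : Filter.Tendsto (fun t => (N t)⁻¹ • w - ((N t)⁻¹ * (t⁻¹ * (N t - 1))) • x) l
          (nhds ((1 : ℝ) • w - ((1 : ℝ) * 0) • x)) :=
        (hinv.smul_const w).sub ((hinv.mul hNquot).smul_const x)
      have h2 : (1 : ℝ) • w - ((1 : ℝ) * 0) • x = w := by simp
      rw [h2] at h1
      exact h1.congr' (huform.mono fun t ht => ht.symm)
    -- the smallness estimate
    refine apply_eq_zero_of_small hulim (fun η hη => ?_)
    obtain ⟨δ, hδ, hdiff⟩ := hL.diff η hη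
    -- `y t → x`
    have hylim : Filter.Tendsto y l (nhds x) := by
      have hinv : Filter.Tendsto (fun t => (N t)⁻¹) l (nhds 1) := by
        have := hNlim.inv₀ (one_ne_zero)
        simpa using this
      have h0 : Filter.Tendsto (fun t : ℝ => x + t • w) l (nhds (x + (0 : ℝ) • w)) := by
        have hc : Continuous fun t : ℝ => x + t • w := by fun_prop
        exact (hc.tendsto 0).mono_left nhdsWithin_le_nhds
      have h5 := hinv.smul h0
      have h6 : (1 : ℝ) • (x + (0 : ℝ) • w) = x := by simp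
      rw [h6] at h5
      exact h5
    have hclose : ∀ {r : ℝ}, 0 < r → ∀ᶠ t in l, ‖y t - x‖ < r := by
      intro r hr
      have := (Metric.tendsto_nhds.mp hylim) r hr
      filter_upwards [this] with t ht
      simpa [dist_eq_norm] using ht
    filter_upwards [hNne, hclose hδ, hclose hε, self_mem_nhdsWithin] with t hN0 h1 h2 htpos
    have ht0 : 0 < t := htpos
    have hyn : ‖y t‖ = 1 := by
      simp only [y]
      rw [norm_smul, Real.norm_eq_abs, abs_of_nonneg (inv_nonneg.mpr (norm_nonneg _))]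
      exact inv_mul_cancel₀ hN0
    have h3 := hdiff (y t) hyn h1
    have hfy : f (y t) = T (y t) := hT _ hyn h2
    have hfx : f x = T x := hT x hx1 (by simpa using hε)
    have hAy : A (y t - x) = L (y t - x) - (f (y t) - f x) := by
      rw [hfy, hfx, ← map_sub]
      simp [hA]
    have hbound : ‖A (y t - x)‖ ≤ η * ‖y t - x‖ := by
      rw [hAy, norm_sub_rev]
      exact h3
    simp only [u]
    rw [map_smul, norm_smul, norm_smul]
    calc ‖t⁻¹‖ * ‖A (y t - x)‖ ≤ ‖t⁻¹‖ * (η * ‖y t - x‖) :=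
          mul_le_mul_of_nonneg_left hbound (norm_nonneg _)
      _ = η * (‖t⁻¹‖ * ‖y t - x‖) := by ring
  -- conclude
  have hAall : ∀ v : X, A v = 0 := by
    intro v
    have hk : nr x (v - (nr x v) • x) = 0 := by
      simp [hφx]
    have h1 := hker _ hk
    have h2 : v = (v - (nr x v) • x) + (nr x v) • x := by abel
    rw [h2, map_add, map_smul, hAx, h1]
    simp
  have hA0 : A = 0 := by
    ext v
    simpa using hAall v
  exact sub_eq_zero.mp hA0

/-- `f = L` on the face of `x`: the segment from `x` to `z` is in the sphere, `f` is affine on it,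
`diff` identifies the slope. -/
theorem IsLin.eq_on_face (E : Env f G) {x : X} (hx : x ∈ G) {L : X ≃L[ℝ] Y} (hL : IsLin f G x L)
    {z : X} (hz : ‖z‖ = 1) (hzF : nr x z = 1) : f z = L z := by
  obtain ⟨hx1, -, -⟩ := E.gen.reg x hx
  have hφ := nr_mem hx1
  have hφx : nr x x = 1 := hφ.2
  -- the segment stays on the sphere
  have hseg : ∀ t ∈ Set.Icc (0 : ℝ) 1, ‖x + t • (z - x)‖ = 1 := by
    intro t ht
    apply le_antisymm
    · have h1 : x + t • (z - x) = (1 - t) • x + t • z := by
        simp only [smul_sub, sub_smul, one_smul]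
        abel
      rw [h1]
      calc ‖(1 - t) • x + t • z‖ ≤ ‖(1 - t) • x‖ + ‖t • z‖ := norm_add_le _ _
        _ = (1 - t) + t := by
            rw [norm_smul, norm_smul, hx1, hz, Real.norm_eq_abs, Real.norm_eq_abs,
              abs_of_nonneg (by linarith [ht.2]), abs_of_nonneg ht.1, mul_one, mul_one]
        _ = 1 := by ring
    · have h2 := nrm_le hφ (x + t • (z - x))
      have h3 : nr x (x + t • (z - x)) = 1 := by
        simp [hφx, hzF]
      linarith
  have haff := E.ctx.aff x z hseg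
  -- the slope is identified
  have hkey : ∀ η > 0, ‖f z - f x - L (z - x)‖ ≤ η * ‖z - x‖ := by
    intro η hη
    obtain ⟨δ, hδ, hdiff⟩ := hL.diff η hη
    set t : ℝ := min 1 (δ / (2 * (‖z - x‖ + 1))) with ht
    have ht0 : 0 < t := lt_min one_pos (by positivity)
    have ht1 : t ≤ 1 := min_le_left _ _
    have hclose : ‖(x + t • (z - x)) - x‖ < δ := by
      rw [add_sub_cancel_left, norm_smul, Real.norm_eq_abs, abs_of_pos ht0]
      have h1 : t ≤ δ / (2 * (‖z - x‖ + 1)) := min_le_right _ _
      have h2 : t * (2 * (‖z - x‖ + 1)) ≤ δ := by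
        rwa [le_div_iff₀ (by positivity)] at h1
      nlinarith [norm_nonneg (z - x)]
    have h3 := hdiff _ (hseg t ⟨ht0.le, ht1⟩) hclose
    rw [haff t ⟨ht0.le, ht1⟩, add_sub_cancel_left, add_sub_cancel_left, map_smul, ← smul_sub,
      norm_smul, norm_smul, Real.norm_eq_abs, abs_of_pos ht0] at h3
    have h4 : t * ‖f z - f x - L (z - x)‖ ≤ t * (η * ‖z - x‖) := by
      calc t * ‖f z - f x - L (z - x)‖ ≤ η * (t * ‖z - x‖) := h3
        _ = t * (η * ‖z - x‖) := by ring
    exact le_of_mul_le_mul_left h4 ht0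
  have h0 : ‖f z - f x - L (z - x)‖ ≤ 0 := by
    by_contra hne
    rw [not_le] at hne
    have hn : 0 ≤ ‖z - x‖ := norm_nonneg _
    have h5 := hkey (‖f z - f x - L (z - x)‖ / (2 * (‖z - x‖ + 1))) (by positivity)
    have h6 : ‖f z - f x - L (z - x)‖ / (2 * (‖z - x‖ + 1)) * ‖z - x‖
        ≤ ‖f z - f x - L (z - x)‖ / 2 := by
      rw [div_mul_eq_mul_div, div_le_div_iff₀ (by positivity) (by norm_num)]
      nlinarith [mul_nonneg hne.le hn]
    linarith
  have h7 : f z - f x - L (z - x) = 0 := norm_le_zero_iff.mp h0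
  rw [map_sub, hL.val] at h7
  have h8 : f z - L z = 0 := by
    rw [← h7]; abel
  exact sub_eq_zero.mp h8

end Vale.Agent.Lib.P084.D3
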