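/-
Step 6, the main claim: `f = L_x` on all of `Eo x`.
`D c = f c - L c`, `H = L⁻¹ ∘ D`, `D (x - c) = - D c`; `D c = 0` when `nr x c ∈ {0,1}` (`eq_on_face`).
For `nr x c ∈ (0,1)`: `P c = {(φ,ψ) ∈ Nrm c × Nrm (f c) : ψ ∘ L = φ}` is nonempty (limits along `IsGen.fib`,
`IsLin.normal`), closed; `ψ (D c) = 0`.  So normals in `A t = P(γ t) × P(x - γ t)` kill `H (γ t)`; they are independent
since `x ∉ DSet`.  `wedge_line` for `h = γ` and `h = L⁻¹ ∘ f ∘ γ`: increments of `H ∘ γ` are close to the line of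
`H (γ s)`, so `unit_deriv_zero`: the direction is constant on a component `J` of `{H ∘ γ ≠ 0}`; `J = ℝ` is impossible
as `H (γ (s + π)) = - H (γ s)`; `γ (J)` lies on a line (again `wedge_line`), `f` is affine on the segment,
`D` vanishes at the two distinct ends of `J`: contradiction.
-/
import Vale.Agent.Lib.P084.D3.Lin
import Vale.Agent.Lib.P084.D3.LinBasic

namespace Vale.Agent.Lib.P084.D3

open Filter Topology Set

variable {X Y : Type*} [NormedAddCommGroup X] [NormedSpace ℝ X] [FiniteDimensional ℝ X]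
  [NormedAddCommGroup Y] [NormedSpace ℝ Y] [FiniteDimensional ℝ Y]

variable {f : X → Y} {G : Set X}

/-- The normals at `c` compatible with `L`. -/
def PN (f : X → Y) (L : X ≃L[ℝ] Y) (c : X) : Set (X →L[ℝ] ℝ) :=
  {φ | φ ∈ Nrm c ∧ φ.comp (L.symm : Y →L[ℝ] X) ∈ Nrm (f c)}

/-- `H c = L⁻¹ (f c) - c`. -/
noncomputable def Hd (f : X → Y) (L : X ≃L[ℝ] Y) (c : X) : X := L.symm (f c) - c

omit [FiniteDimensional ℝ X] [FiniteDimensional ℝ Y] in
theorem PN.kill {L : X ≃L[ℝ] Y} {c : X} {φ : X →L[ℝ] ℝ} (h : φ ∈ PN f L c) :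
    φ (Hd f L c) = 0 := by
  have h1 := h.1.2
  have h2 := h.2.2
  simp only [ContinuousLinearMap.comp_apply, ContinuousLinearEquiv.coe_coe] at h2
  simp only [Hd, map_sub, h1, h2, sub_self]

omit [FiniteDimensional ℝ X] [FiniteDimensional ℝ Y] in
theorem Hd_flip (hC : Ctx f) {x c : X} {L : X ≃L[ℝ] Y} (hx : ‖x‖ = 1) (hval : L x = f x)
    (hc : c ∈ Eo x) : Hd f L (x - c) = - Hd f L c := by
  have h1 := hC.sub hx hc
  unfold Hd
  rw [h1, ← hval, map_sub, L.symm_apply_apply]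
  abel

omit [FiniteDimensional ℝ X] [FiniteDimensional ℝ Y] in
theorem PN.of_tendsto (hC : Ctx f) {L : X ≃L[ℝ] Y} {c_n : ℕ → X} {c : X} {φ_n : ℕ → X →L[ℝ] ℝ}
    {φ : X →L[ℝ] ℝ} (hcn : ∀ n, ‖c_n n‖ = 1) (hc : ‖c‖ = 1)
    (hlim : Tendsto c_n atTop (𝓝 c)) (hφ : Tendsto φ_n atTop (𝓝 φ))
    (h : ∀ n, φ_n n ∈ PN f L (c_n n)) : φ ∈ PN f L c := by
  refine ⟨Nrm.of_tendsto hlim hφ (fun n => (h n).1), ?_⟩
  have hf : Tendsto (fun n => f (c_n n)) atTop (𝓝 (f c)) := by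
    rw [tendsto_iff_norm_sub_tendsto_zero] at hlim ⊢
    refine hlim.congr (fun n => ?_)
    rw [hC.iso.iso _ _ (hcn n) hc]
  have hcomp : Tendsto (fun n => (φ_n n).comp (L.symm : Y →L[ℝ] X)) atTop
      (𝓝 (φ.comp (L.symm : Y →L[ℝ] X))) := by
    have hcont : Continuous (fun ψ : X →L[ℝ] ℝ => ψ.comp (L.symm : Y →L[ℝ] X)) :=
      continuous_id.clm_comp continuous_const
    exact (hcont.tendsto φ).comp hφ
  exact Nrm.of_tendsto hf hcomp (fun n => (h n).2)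

omit [FiniteDimensional ℝ Y] in
theorem PN.nonempty (E : Env f G) {x : X} (hx : x ∈ G) {L : X ≃L[ℝ] Y} (hL : IsLin f G x L)
    {c : X} (hc : c ∈ Eo x) (hpos : 0 < nr x c) : (PN f L c).Nonempty := by
  have hn : ∀ n : ℕ, ∃ c' ∈ G, c' ∈ Eo x ∧ 0 < nr x c' ∧ ‖c' - c‖ < 1 / ((n : ℝ) + 1) :=
    fun n => E.gen.fib x hx c hc hpos _ (by positivity)
  choose c' hG hE hp hd using hn
  have hlim : Tendsto c' atTop (𝓝 c) := by
    rw [tendsto_iff_norm_sub_tendsto_zero]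
    refine squeeze_zero (fun n => norm_nonneg _) (fun n => (hd n).le) ?_
    exact tendsto_one_div_add_atTop_nhds_zero_nat
  have hmem : ∀ n, nr (c' n) ∈ PN f L (c' n) := by
    intro n
    refine ⟨nr_mem (hE n).1, ?_⟩
    have h1 := hL.normal (c' n) (hG n) (hE n) (hp n)
    have h2 : (nr (c' n)).comp (L.symm : Y →L[ℝ] X) = nr (f (c' n)) := by
      rw [← h1]
      ext y
      simp
    rw [h2]
    exact nr_mem (E.ctx.iso.norm_eq _ (hE n).1)
  have hcpt : IsCompact (Metric.closedBall (0 : X →L[ℝ] ℝ) 1) := isCompact_closedBall _ _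
  obtain ⟨φ, -, σ, hσ, hlimσ⟩ := hcpt.tendsto_subseq (x := fun n => nr (c' n))
    (fun n => by simpa using (hmem n).1.1)
  exact ⟨φ, PN.of_tendsto E.ctx (fun n => (hE (σ n)).1) hc.1 (hlim.comp hσ.tendsto_atTop) hlimσ
    (fun n => hmem (σ n))⟩

/-- Two functionals with a nonzero determinant have a one-dimensional common kernel. -/
theorem ker_line_claim (hdim : Module.finrank ℝ X = 3) {α β : X →L[ℝ] ℝ} {w₁ w₂ e : X}
    (hdet : α w₁ * β w₂ - α w₂ * β w₁ ≠ 0) (he : e ≠ 0) (hαe : α e = 0) (hβe : β e = 0)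
    {v : X} (hαv : α v = 0) (hβv : β v = 0) : ∃ r : ℝ, v = r • e := by
  let T : X →ₗ[ℝ] ℝ × ℝ := LinearMap.prod (α : X →ₗ[ℝ] ℝ) (β : X →ₗ[ℝ] ℝ)
  have hsurj : Function.Surjective T := by
    rintro ⟨p, q⟩
    set d := α w₁ * β w₂ - α w₂ * β w₁ with hd
    refine ⟨((p * β w₂ - q * α w₂) / d) • w₁ + ((q * α w₁ - p * β w₁) / d) • w₂, ?_⟩
    have e1 : α (((p * β w₂ - q * α w₂) / d) • w₁ + ((q * α w₁ - p * β w₁) / d) • w₂) = p := by
      simp only [map_add, map_smul, smul_eq_mul]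
      field_simp
      rw [hd]; ring
    have e2 : β (((p * β w₂ - q * α w₂) / d) • w₁ + ((q * α w₁ - p * β w₁) / d) • w₂) = q := by
      simp only [map_add, map_smul, smul_eq_mul]
      field_simp
      rw [hd]; ring
    exact Prod.ext e1 e2
  have hr : Module.finrank ℝ (LinearMap.range T) = 2 := by
    rw [LinearMap.range_eq_top.2 hsurj, finrank_top]
    simp
  have hk : Module.finrank ℝ (LinearMap.ker T) = 1 := by
    have := LinearMap.finrank_range_add_finrank_ker T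
    omega
  have hek : e ∈ LinearMap.ker T := by
    simp [T, LinearMap.mem_ker, hαe, hβe]
  have hvk : v ∈ LinearMap.ker T := by
    simp [T, LinearMap.mem_ker, hαv, hβv]
  have hne : (⟨e, hek⟩ : LinearMap.ker T) ≠ 0 := by
    intro h
    exact he (congrArg Subtype.val h)
  obtain ⟨r, hr'⟩ := (finrank_eq_one_iff_of_nonzero' _ hne).1 hk ⟨v, hvk⟩
  exact ⟨r, (congrArg Subtype.val hr').symm⟩

/-- The basic inequality of a norming functional. -/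
theorem Nrm.sub_le {W : Type*} [NormedAddCommGroup W] [NormedSpace ℝ W] {u v : W}
    {φ : W →L[ℝ] ℝ} (h : φ ∈ Nrm u) (hv : ‖v‖ = 1) : φ (v - u) ≤ 0 := by
  have := nrm_le h v
  rw [map_sub, h.2]
  linarith

/-- The set of pairs of compatible normals at parameter `t`. -/
def AA (f : X → Y) (L : X ≃L[ℝ] Y) (x : X) (γ : ℝ → X) (t : ℝ) :
    Set ((X →L[ℝ] ℝ) × (X →L[ℝ] ℝ)) :=
  PN f L (γ t) ×ˢ PN f L (x - γ t)

section Loop

variable {x : X} {L : X ≃L[ℝ] Y} {γ : ℝ → X}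

omit [FiniteDimensional ℝ Y] in
theorem AA_nonempty (E : Env f G) (hx : x ∈ G) (hL : IsLin f G x L) (hl : IsLoop x γ) {t : ℝ}
    (h0 : 0 < nr x (γ t)) (h1 : nr x (γ t) < 1) : (AA f L x γ t).Nonempty := by
  have hx1 : ‖x‖ = 1 := (E.gen.reg x hx).1
  have hm : nr x ∈ Nrm x := nr_mem hx1
  obtain ⟨φ, hφ⟩ := PN.nonempty E hx hL (hl.mem t) h0
  obtain ⟨ψ, hψ⟩ := PN.nonempty E hx hL (Eo.symm (hl.mem t))
    (by rw [map_sub, hm.2]; linarith)
  exact ⟨(φ, ψ), hφ, hψ⟩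

omit [FiniteDimensional ℝ X] [FiniteDimensional ℝ Y] in
theorem AA_closed (hC : Ctx f) (hl : IsLoop x γ) {s : ℝ} (t_n : ℕ → ℝ)
    (p_n : ℕ → (X →L[ℝ] ℝ) × (X →L[ℝ] ℝ)) (p : (X →L[ℝ] ℝ) × (X →L[ℝ] ℝ))
    (ht : Tendsto t_n atTop (𝓝 s)) (hm : ∀ n, p_n n ∈ AA f L x γ (t_n n))
    (hp : Tendsto p_n atTop (𝓝 p)) : p ∈ AA f L x γ s := by
  obtain ⟨C, hC'⟩ := hl.lip
  have hγ : Tendsto (fun n => γ (t_n n)) atTop (𝓝 (γ s)) :=
    (hC'.continuous.tendsto s).comp ht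
  have h1 : Tendsto (fun n => (p_n n).1) atTop (𝓝 p.1) :=
    (continuous_fst.tendsto p).comp hp
  have h2 : Tendsto (fun n => (p_n n).2) atTop (𝓝 p.2) :=
    (continuous_snd.tendsto p).comp hp
  refine ⟨PN.of_tendsto hC (fun n => (hl.mem _).1) (hl.mem s).1 hγ h1 (fun n => (hm n).1), ?_⟩
  exact PN.of_tendsto hC (fun n => (Eo.symm (hl.mem _)).1) (Eo.symm (hl.mem s)).1
    (tendsto_const_nhds.sub hγ) h2 (fun n => (hm n).2)

omit [FiniteDimensional ℝ X] [FiniteDimensional ℝ Y] in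
/-- Normal pairs squeeze the increments of `γ`. -/
theorem AA_ineq_gamma (hl : IsLoop x γ) {s t : ℝ} {p p' : (X →L[ℝ] ℝ) × (X →L[ℝ] ℝ)}
    (hp : p ∈ AA f L x γ s) (hp' : p' ∈ AA f L x γ t) :
    p.1 (γ t - γ s) ≤ 0 ∧ 0 ≤ p'.1 (γ t - γ s) ∧ 0 ≤ p.2 (γ t - γ s) ∧ p'.2 (γ t - γ s) ≤ 0 := by
  have h1 := Nrm.sub_le hp.1.1 (hl.mem t).1
  have h2 := Nrm.sub_le hp'.1.1 (hl.mem s).1
  have h3 := Nrm.sub_le hp.2.1 (Eo.symm (hl.mem t)).1
  have h4 := Nrm.sub_le hp'.2.1 (Eo.symm (hl.mem s)).1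
  simp only [map_sub] at h1 h2 h3 h4 ⊢
  refine ⟨by linarith, by linarith, by linarith, by linarith⟩

omit [FiniteDimensional ℝ X] [FiniteDimensional ℝ Y] in
/-- Normal pairs squeeze the increments of `L⁻¹ ∘ f ∘ γ`. -/
theorem AA_ineq_h (hC : Ctx f) (hx1 : ‖x‖ = 1) (hl : IsLoop x γ) {s t : ℝ}
    {p p' : (X →L[ℝ] ℝ) × (X →L[ℝ] ℝ)}
    (hp : p ∈ AA f L x γ s) (hp' : p' ∈ AA f L x γ t) :
    p.1 (L.symm (f (γ t)) - L.symm (f (γ s))) ≤ 0 ∧
      0 ≤ p'.1 (L.symm (f (γ t)) - L.symm (f (γ s))) ∧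
      0 ≤ p.2 (L.symm (f (γ t)) - L.symm (f (γ s))) ∧
      p'.2 (L.symm (f (γ t)) - L.symm (f (γ s))) ≤ 0 := by
  have hmt := hl.mem t
  have hms := hl.mem s
  have h1 := Nrm.sub_le hp.1.2 (hC.iso.norm_eq _ hmt.1)
  have h2 := Nrm.sub_le hp'.1.2 (hC.iso.norm_eq _ hms.1)
  have h3 := Nrm.sub_le hp.2.2 (hC.iso.norm_eq _ (Eo.symm hmt).1)
  have h4 := Nrm.sub_le hp'.2.2 (hC.iso.norm_eq _ (Eo.symm hms).1)
  rw [hC.sub hx1 hmt, hC.sub hx1 hms] at h3 h4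
  simp only [ContinuousLinearMap.comp_apply, ContinuousLinearEquiv.coe_coe, map_sub] at h1 h2 h3 h4 ⊢
  refine ⟨by linarith, by linarith, by linarith, by linarith⟩

omit [FiniteDimensional ℝ X] [FiniteDimensional ℝ Y] in
/-- `L⁻¹ ∘ f ∘ γ` is Lipschitz. -/
theorem exists_lip_h (hC : Ctx f) (hl : IsLoop x γ) :
    ∃ K : NNReal, LipschitzWith K (fun t => L.symm (f (γ t))) := by
  obtain ⟨C, hC'⟩ := hl.lip
  refine ⟨‖(L.symm : Y →L[ℝ] X)‖₊ * C, LipschitzWith.of_dist_le_mul (fun t s => ?_)⟩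
  rw [dist_eq_norm, ← map_sub]
  have h1 : ‖L.symm (f (γ t) - f (γ s))‖ ≤ ‖(L.symm : Y →L[ℝ] X)‖ * ‖f (γ t) - f (γ s)‖ :=
    (L.symm : Y →L[ℝ] X).le_opNorm _
  have h2 : ‖f (γ t) - f (γ s)‖ = ‖γ t - γ s‖ := hC.iso.iso _ _ (hl.mem t).1 (hl.mem s).1
  have h3 : ‖γ t - γ s‖ ≤ C * dist t s := by
    have := hC'.dist_le_mul t s
    rwa [dist_eq_norm] at this
  rw [h2] at h1
  calc ‖L.symm (f (γ t) - f (γ s))‖ ≤ ‖(L.symm : Y →L[ℝ] X)‖ * ‖γ t - γ s‖ := h1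
    _ ≤ ‖(L.symm : Y →L[ℝ] X)‖ * (C * dist t s) := by gcongr
    _ = _ := by push_cast; simp [mul_assoc]

/-- `H c = 0` on the two faces. -/
theorem Hd_eq_zero_of_boundary (E : Env f G) (hx : x ∈ G) (hL : IsLin f G x L) {c : X}
    (hc : c ∈ Eo x) (h : nr x c = 1 ∨ nr x c = 0) : Hd f L c = 0 := by
  have hx1 : ‖x‖ = 1 := (E.gen.reg x hx).1
  have hm : nr x ∈ Nrm x := nr_mem hx1
  have key : ∀ c' : X, c' ∈ Eo x → nr x c' = 1 → Hd f L c' = 0 := by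
    intro c' hc' h1
    have := hL.eq_on_face E hx hc'.1 h1
    unfold Hd
    rw [this, L.symm_apply_apply, sub_self]
  rcases h with h | h
  · exact key c hc h
  · have h2 := key (x - c) (Eo.symm hc) (by rw [map_sub, hm.2, h, sub_zero])
    rw [Hd_flip E.ctx hx1 hL.val hc] at h2
    exact neg_eq_zero.1 h2

/-- Where `H ≠ 0` the height is strictly between `0` and `1`. -/
theorem height_of_Hd_ne (E : Env f G) (hx : x ∈ G) (hL : IsLin f G x L) {c : X}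
    (hc : c ∈ Eo x) (h : Hd f L c ≠ 0) : 0 < nr x c ∧ nr x c < 1 := by
  have hx1 : ‖x‖ = 1 := (E.gen.reg x hx).1
  have hm : nr x ∈ Nrm x := nr_mem hx1
  have h1 : nr x c ≤ 1 := by
    have := nrm_le hm c
    rwa [hc.1] at this
  have h0 : 0 ≤ nr x c := by
    have := nrm_le hm (x - c)
    rw [hc.2, map_sub, hm.2] at this
    linarith
  refine ⟨lt_of_le_of_ne h0 (fun h' => h (Hd_eq_zero_of_boundary E hx hL hc (Or.inr h'.symm))),
    lt_of_le_of_ne h1 (fun h' => h (Hd_eq_zero_of_boundary E hx hL hc (Or.inl h')))⟩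

omit [FiniteDimensional ℝ Y] in
/-- The determinant of a pair of normals. -/
theorem AA_ker (E : Env f G) (hx : x ∈ G) (hL : IsLin f G x L) (hl : IsLoop x γ) {s : ℝ}
    (hs : Hd f L (γ s) ≠ 0) {p : (X →L[ℝ] ℝ) × (X →L[ℝ] ℝ)} (hp : p ∈ AA f L x γ s) {v : X}
    (h1 : p.1 v = 0) (h2 : p.2 v = 0) : ∃ r : ℝ, v = r • Hd f L (γ s) := by
  have hx1 : ‖x‖ = 1 := (E.gen.reg x hx).1
  have hD := E.gen.notD x hx
  have hms := hl.mem s
  have hm1 : p.1 ∈ Nrm (γ s) := hp.1.1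
  have hm2 : p.2 ∈ Nrm (x - γ s) := hp.2.1
  have a1 : 0 < p.1 x := pos_at hx1 hD hms hm1
  have a2 : 0 < p.2 x := pos_at hx1 hD (Eo.symm hms) hm2
  have b1 : p.1 x ≤ 1 := by
    have := nrm_le hm1 x
    rwa [hx1] at this
  have b2 : p.2 x ≤ 1 := by
    have := nrm_le hm2 x
    rwa [hx1] at this
  have e1 : p.1 (γ s) = 1 := hm1.2
  have e2 : p.2 (x - γ s) = 1 := hm2.2
  have e3 : p.1 (x - γ s) = p.1 x - 1 := by rw [map_sub, e1]
  have e4 : p.2 (γ s) = p.2 x - 1 := by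
    rw [map_sub] at e2
    linarith
  have hdet : p.1 (γ s) * p.2 (x - γ s) - p.1 (x - γ s) * p.2 (γ s) ≠ 0 := by
    rw [e1, e2, e3, e4]
    have h3 : 0 ≤ 1 - p.1 x := by linarith
    have h4 : 0 ≤ 1 - p.2 x := by linarith
    have h5 : 1 - p.1 x < 1 := by linarith
    have h6 : 1 - p.2 x < 1 := by linarith
    have : (1 - p.1 x) * (1 - p.2 x) < 1 := by nlinarith
    have h7 : 1 * 1 - (p.1 x - 1) * (p.2 x - 1) = 1 - (1 - p.1 x) * (1 - p.2 x) := by ring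
    rw [h7]
    linarith
  have k1 : p.1 (Hd f L (γ s)) = 0 := PN.kill hp.1
  have k2 : p.2 (Hd f L (γ s)) = 0 := by
    have := PN.kill hp.2
    rw [Hd_flip E.ctx hx1 hL.val hms, map_neg] at this
    exact neg_eq_zero.1 this
  exact ker_line_claim E.dim hdet hs k1 k2 h1 h2

/-- Both curves have increments close to the line of `H (γ s)`. -/
theorem lines (E : Env f G) (hx : x ∈ G) (hL : IsLin f G x L) (hl : IsLoop x γ) {s : ℝ}
    (hs : Hd f L (γ s) ≠ 0) :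
    (∀ ε > 0, ∃ δ > 0, ∀ t, |t - s| < δ → ∃ r : ℝ, ‖γ t - γ s - r • Hd f L (γ s)‖ ≤ ε * |t - s|) ∧
    (∀ ε > 0, ∃ δ > 0, ∀ t, |t - s| < δ → ∃ r : ℝ,
      ‖L.symm (f (γ t)) - L.symm (f (γ s)) - r • Hd f L (γ s)‖ ≤ ε * |t - s|) := by
  have hx1 : ‖x‖ = 1 := (E.gen.reg x hx).1
  obtain ⟨C, hC'⟩ := hl.lip
  obtain ⟨K, hK⟩ := exists_lip_h (L := L) E.ctx hl
  have hb := height_of_Hd_ne E hx hL (hl.mem s) hs
  have hcn : Continuous (fun t => nr x (γ t)) := (nr x).continuous.comp hC'.continuous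
  have hne : ∀ᶠ t in 𝓝 s, (AA f L x γ t).Nonempty := by
    have h1 : ∀ᶠ t in 𝓝 s, 0 < nr x (γ t) := hcn.continuousAt.eventually (lt_mem_nhds hb.1)
    have h2 : ∀ᶠ t in 𝓝 s, nr x (γ t) < 1 := hcn.continuousAt.eventually (gt_mem_nhds hb.2)
    filter_upwards [h1, h2] with t h1 h2
    exact AA_nonempty E hx hL hl h1 h2
  have hbd : ∀ t, ∀ p ∈ AA f L x γ t, ‖p.1‖ ≤ 1 ∧ ‖p.2‖ ≤ 1 := fun t p hp => ⟨hp.1.1.1, hp.2.1.1⟩
  have hker : ∀ p ∈ AA f L x γ s, ∀ v : X, p.1 v = 0 → p.2 v = 0 →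
      ∃ r : ℝ, v = r • Hd f L (γ s) :=
    fun p hp v h1 h2 => AA_ker E hx hL hl hs hp h1 h2
  refine ⟨wedge_line hC' (AA f L x γ) hne hbd (AA_closed E.ctx hl) ?_ hker,
    wedge_line hK (AA f L x γ) hne hbd (AA_closed E.ctx hl) ?_ hker⟩
  · exact Eventually.of_forall (fun t p hp p' hp' => AA_ineq_gamma hl hp hp')
  · exact Eventually.of_forall (fun t p hp p' hp' => AA_ineq_h E.ctx hx1 hl hp hp')

omit [FiniteDimensional ℝ X] [FiniteDimensional ℝ Y] in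
theorem continuous_Hd (hC : Ctx f) (hl : IsLoop x γ) :
    Continuous (fun t => Hd f L (γ t)) := by
  obtain ⟨C, hC'⟩ := hl.lip
  obtain ⟨K, hK⟩ := exists_lip_h (L := L) hC hl
  exact hK.continuous.sub hC'.continuous

/-- The direction of `H ∘ γ` has derivative zero. -/
theorem unit_deriv (E : Env f G) (hx : x ∈ G) (hL : IsLin f G x L) (hl : IsLoop x γ) {s : ℝ}
    (hs : Hd f L (γ s) ≠ 0) :
    HasDerivAt (fun t => ‖Hd f L (γ t)‖⁻¹ • Hd f L (γ t)) 0 s := by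
  refine unit_deriv_zero (G := fun t => Hd f L (γ t))
    (continuous_Hd E.ctx hl).continuousAt hs ?_
  obtain ⟨h1, h2⟩ := lines E hx hL hl hs
  intro ε hε
  obtain ⟨δ₁, hδ₁, h1'⟩ := h1 (ε / 2) (by positivity)
  obtain ⟨δ₂, hδ₂, h2'⟩ := h2 (ε / 2) (by positivity)
  refine ⟨min δ₁ δ₂, lt_min hδ₁ hδ₂, fun t ht => ?_⟩
  obtain ⟨r₁, hr₁⟩ := h1' t (lt_of_lt_of_le ht (min_le_left _ _))
  obtain ⟨r₂, hr₂⟩ := h2' t (lt_of_lt_of_le ht (min_le_right _ _))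
  refine ⟨r₂ - r₁, ?_⟩
  have : Hd f L (γ t) - Hd f L (γ s) - (r₂ - r₁) • Hd f L (γ s)
      = (L.symm (f (γ t)) - L.symm (f (γ s)) - r₂ • Hd f L (γ s))
        - (γ t - γ s - r₁ • Hd f L (γ s)) := by
    unfold Hd
    rw [sub_smul]
    abel
  rw [this]
  calc _ ≤ ‖L.symm (f (γ t)) - L.symm (f (γ s)) - r₂ • Hd f L (γ s)‖
        + ‖γ t - γ s - r₁ • Hd f L (γ s)‖ := norm_sub_le _ _
    _ ≤ ε / 2 * |t - s| + ε / 2 * |t - s| := add_le_add hr₂ hr₁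
    _ = ε * |t - s| := by ring

end Loop

omit [FiniteDimensional ℝ X] in
/-- Component of the nonvanishing set of a curve with `g (t + π) = - g t` whose direction has
derivative zero. -/
theorem exists_component {g : ℝ → X} (hg : Continuous g)
    (hshift : ∀ t, g (t + Real.pi) = - g t)
    (hU : ∀ s, g s ≠ 0 → HasDerivAt (fun t => ‖g t‖⁻¹ • g t) 0 s) {s : ℝ} (hs : g s ≠ 0) :
    ∃ a b : ℝ, a < s ∧ s < b ∧ b ≤ a + Real.pi ∧ g a = 0 ∧ g b = 0 ∧ (∀ t ∈ Ioo a b, g t ≠ 0) ∧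
      ∀ t ∈ Ioo a b, ‖g t‖⁻¹ • g t = ‖g s‖⁻¹ • g s := by
  have hπ := Real.pi_pos
  have hconst : ∀ a' b' : ℝ, (∀ t ∈ Icc a' b', g t ≠ 0) → a' ≤ b' →
      ‖g b'‖⁻¹ • g b' = ‖g a'‖⁻¹ • g a' := by
    intro a' b' hne hab'
    have hcont : ContinuousOn (fun t => ‖g t‖⁻¹ • g t) (Icc a' b') := by
      intro t ht
      exact (hU t (hne t ht)).continuousAt.continuousWithinAt
    exact constant_of_has_deriv_right_zero hcont
      (fun t ht => (hU t (hne t (Ico_subset_Icc_self ht))).hasDerivWithinAt) b'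
      (right_mem_Icc.2 hab')
  have hU0 : ∀ t, ‖g t‖⁻¹ • g t = 0 → g t = 0 := by
    intro t h
    rcases smul_eq_zero.1 h with h | h
    · exact norm_eq_zero.1 (inv_eq_zero.1 h)
    · exact h
  have hUshift : ∀ t, ‖g (t + Real.pi)‖⁻¹ • g (t + Real.pi) = - (‖g t‖⁻¹ • g t) := by
    intro t
    rw [hshift, norm_neg, smul_neg]
  have hUflip : ∀ v : X, v = - v → v = 0 := by
    intro v hv
    have : (2 : ℝ) • v = 0 := by
      rw [two_smul]
      nth_rewrite 1 [hv]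
      simp
    simpa using this
  have hz : ∀ s', g s' ≠ 0 → ∃ t ∈ Icc s' (s' + Real.pi), g t = 0 := by
    intro s' hs'
    by_contra hcon
    push Not at hcon
    have h1 := hconst s' (s' + Real.pi) hcon (by linarith)
    rw [hUshift] at h1
    have h2 : ‖g s'‖⁻¹ • g s' = - (‖g s'‖⁻¹ • g s') := h1.symm
    exact hs' (hU0 s' (hUflip _ h2))
  have hsm : g (s - Real.pi) ≠ 0 := by
    intro h
    have := hshift (s - Real.pi)
    rw [sub_add_cancel, h, neg_zero] at this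
    exact hs this
  have hzset : IsClosed {t | g t = 0} := isClosed_eq hg continuous_const
  -- the right end
  obtain ⟨b, hbl⟩ : ∃ b, IsLeast (Icc s (s + Real.pi) ∩ {t | g t = 0}) b := by
    refine (isCompact_Icc.inter_right hzset).exists_isLeast ?_
    obtain ⟨t, ht, h0⟩ := hz s hs
    exact ⟨t, ht, h0⟩
  -- the left end
  obtain ⟨a, hag⟩ : ∃ a, IsGreatest (Icc (s - Real.pi) s ∩ {t | g t = 0}) a := by
    refine (isCompact_Icc.inter_right hzset).exists_isGreatest ?_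
    obtain ⟨t, ht, h0⟩ := hz (s - Real.pi) hsm
    refine ⟨t, ⟨ht.1, ?_⟩, h0⟩
    have := ht.2
    linarith
  have hb0 : g b = 0 := hbl.1.2
  have ha0 : g a = 0 := hag.1.2
  have hsb : s < b := lt_of_le_of_ne hbl.1.1.1 (fun h => hs (h ▸ hb0))
  have has : a < s := lt_of_le_of_ne hag.1.1.2 (fun h => hs (h ▸ ha0))
  have hne : ∀ t ∈ Ioo a b, g t ≠ 0 := by
    intro t ht h0
    rcases le_total t s with hts | hst
    · have : t ≤ a := hag.2 ⟨⟨by have := hag.1.1.1; linarith [ht.1], hts⟩, h0⟩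
      linarith [ht.1]
    · have : b ≤ t := hbl.2 ⟨⟨hst, by have := hbl.1.1.2; linarith [ht.2]⟩, h0⟩
      linarith [ht.2]
  have hUc : ∀ t ∈ Ioo a b, ‖g t‖⁻¹ • g t = ‖g s‖⁻¹ • g s := by
    intro t ht
    rcases le_total t s with hts | hst
    · exact (hconst t s (fun u hu => hne u ⟨lt_of_lt_of_le ht.1 hu.1,
        lt_of_le_of_lt hu.2 hsb⟩) hts).symm
    · exact hconst s t (fun u hu => hne u ⟨lt_of_lt_of_le has hu.1,
        lt_of_le_of_lt hu.2 ht.2⟩) hst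
  refine ⟨a, b, has, hsb, ?_, ha0, hb0, hne, hUc⟩
  by_contra hcon
  push Not at hcon
  have hmem1 : a + (b - a - Real.pi) / 2 ∈ Ioo a b := ⟨by linarith, by linarith⟩
  have hmem2 : a + (b - a - Real.pi) / 2 + Real.pi ∈ Ioo a b := ⟨by linarith, by linarith⟩
  have h1 := hUc _ hmem1
  have h2 := hUc _ hmem2
  rw [hUshift, h1] at h2
  have h3 : ‖g s‖⁻¹ • g s = - (‖g s‖⁻¹ • g s) := h2.symm
  exact hs (hU0 s (hUflip _ h3))

/-- A function with derivative zero on an open interval is constant on the closed one. -/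
theorem const_on_Icc {u : ℝ → ℝ} (hu : Continuous u) {a b s : ℝ} (hab : a < b) (hs : s ∈ Ioo a b)
    (h : ∀ t ∈ Ioo a b, HasDerivAt u 0 t) : ∀ t ∈ Icc a b, u t = u s := by
  have h1 : ∀ t ∈ Ioo a b, u t = u s := by
    intro t ht
    refine isOpen_Ioo.is_const_of_deriv_eq_zero isPreconnected_Ioo
      (fun y hy => (h y hy).differentiableAt.differentiableWithinAt)
      (fun y hy => (h y hy).deriv) ht hs
  have hcl : IsClosed {t | u t = u s} := isClosed_eq hu continuous_const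
  have h2 : closure (Ioo a b) ⊆ {t | u t = u s} := closure_minimal h1 hcl
  rw [closure_Ioo hab.ne] at h2
  exact fun t ht => h2 ht

/-- A bound gives derivative zero. -/
theorem hasDerivAt_zero_of_bound {u : ℝ → ℝ} {t : ℝ}
    (h : ∀ ε > 0, ∃ δ > 0, ∀ t', |t' - t| < δ → |u t' - u t| ≤ ε * |t' - t|) :
    HasDerivAt u 0 t := by
  rw [hasDerivAt_iff_isLittleO]
  rw [Asymptotics.isLittleO_iff]
  intro ε hε
  obtain ⟨δ, hδ, hb⟩ := h ε hε
  filter_upwards [Metric.ball_mem_nhds t hδ] with t' ht'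
  have h1 : |t' - t| < δ := by
    simpa [Real.dist_eq] using ht'
  have := hb t' h1
  simpa using this

omit [FiniteDimensional ℝ X] [FiniteDimensional ℝ Y] in
/-- A collinear arc of the sphere with `H = 0` at two distinct points has `H = 0`. -/
theorem bump_zero (hC : Ctx f) {L : X ≃L[ℝ] Y} {γ : ℝ → X} (hγ : Continuous γ) {a b s : ℝ}
    (hab : a < b) {e : X} {ℓ : X →L[ℝ] ℝ} (hℓ : ℓ e = 1)
    (hline : ∀ t ∈ Icc a b, ∃ r : ℝ, γ t - γ s = r • e)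
    (hunit : ∀ t ∈ Icc a b, ‖γ t‖ = 1) (hne : γ a ≠ γ b)
    (hga : Hd f L (γ a) = 0) (hgb : Hd f L (γ b) = 0) (hs : s ∈ Icc a b) :
    Hd f L (γ s) = 0 := by
  set ρ : ℝ → ℝ := fun t => ℓ (γ t) with hρ
  have hρc : Continuous ρ := ℓ.continuous.comp hγ
  have hform : ∀ t ∈ Icc a b, γ t = γ s + (ρ t - ρ s) • e := by
    intro t ht
    obtain ⟨r, hr⟩ := hline t ht
    have h1 : ρ t - ρ s = r := by
      have := congrArg ℓ hr
      simpa only [map_sub, map_smul, hℓ, smul_eq_mul, mul_one] using this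
    rw [h1, ← hr]
    abel
  have hamem := left_mem_Icc.2 hab.le
  have hbmem := right_mem_Icc.2 hab.le
  obtain ⟨t₁, ht₁, hmin⟩ := isCompact_Icc.exists_isMinOn (nonempty_Icc.2 hab.le) hρc.continuousOn
  obtain ⟨t₂, ht₂, hmax⟩ := isCompact_Icc.exists_isMaxOn (nonempty_Icc.2 hab.le) hρc.continuousOn
  have hm : ∀ t ∈ Icc a b, ρ t₁ ≤ ρ t := fun t ht => hmin ht
  have hM : ∀ t ∈ Icc a b, ρ t ≤ ρ t₂ := fun t ht => hmax ht
  have hρab : ρ a ≠ ρ b := by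
    intro h
    apply hne
    rw [hform a hamem, hform b hbmem, h]
  have hlt : ρ t₁ < ρ t₂ := by
    have h1 := hm a hamem
    have h2 := hm b hbmem
    have h3 := hM a hamem
    have h4 := hM b hbmem
    rcases lt_or_eq_of_le (h1.trans h3) with h | h
    · exact h
    · exfalso
      apply hρab
      linarith
  have hd : ρ t₂ - ρ t₁ ≠ 0 := sub_ne_zero.2 hlt.ne'
  have hγ2 : ∀ t ∈ Icc a b, γ t = γ t₁ + ((ρ t - ρ t₁) / (ρ t₂ - ρ t₁)) • (γ t₂ - γ t₁) := by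
    intro t ht
    have h1 : γ t₂ - γ t₁ = (ρ t₂ - ρ t₁) • e := by
      rw [hform t₂ ht₂, hform t₁ ht₁]
      module
    rw [h1, smul_smul, div_mul_cancel₀ _ hd]
    nth_rewrite 1 [hform t ht]
    rw [hform t₁ ht₁]
    module
  have hseg : ∀ τ ∈ Icc (0 : ℝ) 1, ‖γ t₁ + τ • (γ t₂ - γ t₁)‖ = 1 := by
    intro τ hτ
    have hval : ρ t₁ + τ * (ρ t₂ - ρ t₁) ∈ Icc (ρ t₁) (ρ t₂) := by
      constructor
      · nlinarith [hτ.1]
      · nlinarith [hτ.2]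
    obtain ⟨t, ht, hρt⟩ := isPreconnected_Icc.intermediate_value ht₁ ht₂ hρc.continuousOn hval
    have h1 : (ρ t - ρ t₁) / (ρ t₂ - ρ t₁) = τ := by
      rw [hρt]
      field_simp
      ring
    have h2 := hγ2 t ht
    rw [h1] at h2
    rw [← h2]
    exact hunit t ht
  have haff := hC.aff _ _ hseg
  have hexp : ∀ t ∈ Icc a b, Hd f L (γ t) = Hd f L (γ t₁) +
      ((ρ t - ρ t₁) / (ρ t₂ - ρ t₁)) • (Hd f L (γ t₂) - Hd f L (γ t₁)) := by
    intro t ht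
    have hτ : (ρ t - ρ t₁) / (ρ t₂ - ρ t₁) ∈ Icc (0 : ℝ) 1 := by
      have hpos : 0 < ρ t₂ - ρ t₁ := by linarith
      constructor
      · exact div_nonneg (by linarith [hm t ht]) hpos.le
      · rw [div_le_one hpos]
        linarith [hM t ht]
    have h1 := hγ2 t ht
    have h2 := haff _ hτ
    rw [← h1] at h2
    unfold Hd
    rw [h2]
    simp only [map_add, map_smul, map_sub]
    rw [h1]
    module
  have h1 := hexp a hamem
  have h2 := hexp b hbmem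
  rw [hga] at h1
  rw [hgb] at h2
  have hτne : (ρ a - ρ t₁) / (ρ t₂ - ρ t₁) ≠ (ρ b - ρ t₁) / (ρ t₂ - ρ t₁) := by
    intro h
    rw [div_left_inj' hd] at h
    apply hρab
    linarith
  have h3 : ((ρ a - ρ t₁) / (ρ t₂ - ρ t₁) - (ρ b - ρ t₁) / (ρ t₂ - ρ t₁)) •
      (Hd f L (γ t₂) - Hd f L (γ t₁)) = 0 := by
    rw [sub_smul]
    have h4 : ((ρ a - ρ t₁) / (ρ t₂ - ρ t₁)) • (Hd f L (γ t₂) - Hd f L (γ t₁))
        = - Hd f L (γ t₁) := by
      rw [eq_neg_iff_add_eq_zero, add_comm]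
      exact h1.symm
    have h5 : ((ρ b - ρ t₁) / (ρ t₂ - ρ t₁)) • (Hd f L (γ t₂) - Hd f L (γ t₁))
        = - Hd f L (γ t₁) := by
      rw [eq_neg_iff_add_eq_zero, add_comm]
      exact h2.symm
    rw [h4, h5, sub_self]
  have h6 : Hd f L (γ t₂) - Hd f L (γ t₁) = 0 := by
    rcases smul_eq_zero.1 h3 with h | h
    · exact absurd (sub_eq_zero.1 h) hτne
    · exact h
  rw [h6, smul_zero, add_zero] at h1
  rw [hexp s hs, h6, smul_zero, add_zero]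
  exact h1.symm

section Final

variable {x : X} {L : X ≃L[ℝ] Y} {γ : ℝ → X}

/-- The main point: `H ∘ γ` has no bump. -/
theorem loop_no_bump (E : Env f G) (hx : x ∈ G) (hL : IsLin f G x L) (hl : IsLoop x γ) {s : ℝ}
    (hs : Hd f L (γ s) ≠ 0) : False := by
  have hx1 : ‖x‖ = 1 := (E.gen.reg x hx).1
  have hπ := Real.pi_pos
  have hshift : ∀ t, Hd f L (γ (t + Real.pi)) = - Hd f L (γ t) := by
    intro t
    rw [hl.shift]
    exact Hd_flip E.ctx hx1 hL.val (hl.mem t)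
  obtain ⟨a, b, has, hsb, hab, ha0, hb0, hne, hU⟩ := exists_component
    (g := fun t => Hd f L (γ t)) (continuous_Hd E.ctx hl) hshift
    (fun s' hs' => unit_deriv E hx hL hl hs') hs
  have hsmem : s ∈ Ioo a b := ⟨has, hsb⟩
  have hab' : a < b := has.trans hsb
  obtain ⟨C, hC'⟩ := hl.lip
  have hγc : Continuous γ := hC'.continuous
  -- `γ a ≠ γ b`
  have hγne : γ a ≠ γ b := hl.inj a b hab' (by linarith)
  -- a pair of normals at `s`
  have hb := height_of_Hd_ne E hx hL (hl.mem s) hs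
  obtain ⟨p, hp⟩ := AA_nonempty E hx hL hl hb.1 hb.2
  -- all `H (γ t)` are multiples of `H (γ s)`
  have hmul : ∀ t ∈ Ioo a b, ∃ c : ℝ, Hd f L (γ t) = c • Hd f L (γ s) := by
    intro t ht
    have h1 : ‖Hd f L (γ t)‖⁻¹ • Hd f L (γ t) = ‖Hd f L (γ s)‖⁻¹ • Hd f L (γ s) := hU t ht
    have h2 : ‖Hd f L (γ t)‖ ≠ 0 := norm_ne_zero_iff.2 (hne t ht)
    refine ⟨‖Hd f L (γ t)‖ * ‖Hd f L (γ s)‖⁻¹, ?_⟩
    rw [mul_smul, ← h1, smul_smul, mul_inv_cancel₀ h2, one_smul]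
  have k1 : p.1 (Hd f L (γ s)) = 0 := PN.kill hp.1
  have k2 : p.2 (Hd f L (γ s)) = 0 := by
    have := PN.kill hp.2
    rw [Hd_flip E.ctx hx1 hL.val (hl.mem s), map_neg] at this
    exact neg_eq_zero.1 this
  -- `φ ∘ γ` is constant on the component for `φ` killing `H (γ s)`
  have hφc : ∀ φ : X →L[ℝ] ℝ, ‖φ‖ ≤ 1 → φ (Hd f L (γ s)) = 0 →
      ∀ t ∈ Icc a b, φ (γ t) = φ (γ s) := by
    intro φ hφ hφ0
    refine const_on_Icc (u := fun t => φ (γ t)) (φ.continuous.comp hγc) hab' hsmem ?_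
    intro t ht
    refine hasDerivAt_zero_of_bound ?_
    intro ε hε
    obtain ⟨δ, hδ, hb'⟩ := (lines E hx hL hl (hne t ht)).1 ε hε
    refine ⟨δ, hδ, fun t' ht' => ?_⟩
    obtain ⟨r, hr⟩ := hb' t' ht'
    obtain ⟨c, hc⟩ := hmul t ht
    have h1 : φ (γ t' - γ t - r • Hd f L (γ t)) = φ (γ t') - φ (γ t) := by
      rw [hc]
      simp [hφ0]
    have h2 : |φ (γ t' - γ t - r • Hd f L (γ t))| ≤ ‖γ t' - γ t - r • Hd f L (γ t)‖ := by
      have h3 := φ.le_opNorm (γ t' - γ t - r • Hd f L (γ t))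
      rw [Real.norm_eq_abs] at h3
      refine h3.trans ?_
      calc _ ≤ 1 * ‖γ t' - γ t - r • Hd f L (γ t)‖ := by gcongr
        _ = _ := one_mul _
    rw [h1] at h2
    exact h2.trans hr
  -- `γ` lies on a line
  have hline : ∀ t ∈ Icc a b, ∃ r : ℝ, γ t - γ s = r • Hd f L (γ s) := by
    intro t ht
    have h1 := hφc p.1 hp.1.1.1 k1 t ht
    have h2 := hφc p.2 hp.2.1.1 k2 t ht
    exact AA_ker E hx hL hl hs hp (by rw [map_sub, h1, sub_self]) (by rw [map_sub, h2, sub_self])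
  -- a functional with value one
  obtain ⟨ℓ, hℓ⟩ : ∃ ℓ : X →L[ℝ] ℝ, ℓ (Hd f L (γ s)) = 1 := by
    have hn : ‖Hd f L (γ s)‖ ≠ 0 := norm_ne_zero_iff.2 hs
    obtain ⟨g', -, hg'⟩ := exists_dual_vector ℝ (Hd f L (γ s)) hn
    refine ⟨‖Hd f L (γ s)‖⁻¹ • g', ?_⟩
    simp [hg', hn]
  exact hs (bump_zero E.ctx hγc hab' hℓ hline (fun t _ => (hl.mem t).1) hγne ha0 hb0
    ⟨has.le, hsb.le⟩)

end Final

theorem IsLin.eq_on_Eo (E : Env f G) {x : X} (hx : x ∈ G) {L : X ≃L[ℝ] Y} (hL : IsLin f G x L)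
    {c : X} (hc : c ∈ Eo x) : f c = L c := by
  have hx1 : ‖x‖ = 1 := (E.gen.reg x hx).1
  obtain ⟨γ, hl⟩ := exists_loop E.dim hx1 (E.gen.notD x hx)
  obtain ⟨t, rfl⟩ := hl.surj c hc
  by_contra hne
  refine loop_no_bump E hx hL hl (s := t) ?_
  intro h0
  apply hne
  have h1 : L.symm (f (γ t)) = γ t := sub_eq_zero.1 h0
  have h2 := congrArg L h1
  rwa [L.apply_symm_apply] at h2

end Vale.Agent.Lib.P084.D3
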