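/-
Step 7: adjacent generic points have the same `L`.  `‖2c - x‖ = 1` and `‖2x - c‖ = 1` cannot both hold (chord of
length 3).  If `‖2c - x‖ > 1`: on the arc of the loop of `x` from `c` to `x - c` the distance to `c` goes from `0` to
`‖2c - x‖`, IVT gives `u ∈ Eo x ∩ Eo c` independent of `x,c` (`IsLoop.indep`).  `eq_on_Eo` at both points.
-/
import Vale.Agent.Lib.P084.D3.Claim

namespace Vale.Agent.Lib.P084.D3

variable {X Y : Type*} [NormedAddCommGroup X] [NormedSpace ℝ X] [FiniteDimensional ℝ X]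
  [NormedAddCommGroup Y] [NormedSpace ℝ Y] [FiniteDimensional ℝ Y]

variable {f : X → Y} {G : Set X}

/-- The case `‖x - 2 c‖ > 1`. -/
theorem IsLin.eq_of_adj_aux (E : Env f G) {x c : X} (hx : x ∈ G) (hc : c ∈ G) (hadj : c ∈ Eo x)
    {L L' : X ≃L[ℝ] Y} (hL : IsLin f G x L) (hL' : IsLin f G c L')
    (h : 1 < ‖x - (2 : ℝ) • c‖) : L = L' := by
  obtain ⟨hx1, -, -⟩ := E.gen.reg x hx
  obtain ⟨hc1, -, -⟩ := E.gen.reg c hc
  obtain ⟨γ, hγ⟩ := exists_loop E.dim hx1 (E.gen.notD x hx)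
  obtain ⟨s, hs⟩ := hγ.surj c hadj
  have hcont : Continuous γ := by
    obtain ⟨C, hC⟩ := hγ.lip
    exact hC.continuous
  have hg : Continuous (fun t => ‖γ t - c‖) := (hcont.sub continuous_const).norm
  have hpi := Real.pi_pos
  have g0 : ‖γ s - c‖ = 0 := by rw [hs]; simp
  have g1 : 1 < ‖γ (s + Real.pi) - c‖ := by
    rw [hγ.shift, hs]
    have : x - c - c = x - (2 : ℝ) • c := by rw [two_smul]; abel
    rw [this]; exact h
  obtain ⟨t, ht, hgt⟩ : ∃ t ∈ Set.Icc s (s + Real.pi), ‖γ t - c‖ = 1 := by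
    have := intermediate_value_Icc (a := s) (b := s + Real.pi) (f := fun t => ‖γ t - c‖)
      (by linarith) hg.continuousOn
    exact this ⟨by rw [g0]; norm_num, g1.le⟩
  have hts : s < t := by
    rcases lt_or_eq_of_le ht.1 with h1 | h1
    · exact h1
    · rw [← h1, g0] at hgt; norm_num at hgt
  have hts2 : t < s + Real.pi := by
    rcases lt_or_eq_of_le ht.2 with h1 | h1
    · exact h1
    · rw [h1] at hgt; linarith
  have hind := hγ.indep s t hts hts2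
  have huE : γ t ∈ Eo x := hγ.mem t
  have huE' : γ t ∈ Eo c := ⟨huE.1, by rw [norm_sub_rev]; exact hgt⟩
  have hxE' : x ∈ Eo c := Eo.comm hx1 hadj
  have e1 : L x = L' x := by rw [hL.val, IsLin.eq_on_Eo E hc hL' hxE']
  have e2 : L c = L' c := by rw [hL'.val, ← IsLin.eq_on_Eo E hx hL hadj]
  have e3 : L (γ t) = L' (γ t) := by
    rw [← IsLin.eq_on_Eo E hx hL huE, ← IsLin.eq_on_Eo E hc hL' huE']
  have hspan : Submodule.span ℝ (Set.range ![x, γ s, γ t]) = ⊤ :=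
    hind.span_eq_top_of_card_eq_finrank (by simp [E.dim])
  have hlin : ((L : X ≃L[ℝ] Y) : X →ₗ[ℝ] Y) = ((L' : X ≃L[ℝ] Y) : X →ₗ[ℝ] Y) := by
    refine LinearMap.ext_on_range hspan ?_
    intro i
    fin_cases i
    · simpa using e1
    · simpa [hs] using e2
    · simpa using e3
  ext y
  exact congrArg (fun A : X →ₗ[ℝ] Y => A y) hlin

theorem IsLin.eq_of_adj (E : Env f G) {x c : X} (hx : x ∈ G) (hc : c ∈ G) (hadj : c ∈ Eo x)
    {L L' : X ≃L[ℝ] Y} (hL : IsLin f G x L) (hL' : IsLin f G c L') : L = L' := by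
  obtain ⟨hx1, -, -⟩ := E.gen.reg x hx
  obtain ⟨hc1, -, -⟩ := E.gen.reg c hc
  by_cases h : 1 < ‖x - (2 : ℝ) • c‖
  · exact IsLin.eq_of_adj_aux E hx hc hadj hL hL' h
  by_cases h' : 1 < ‖c - (2 : ℝ) • x‖
  · exact (IsLin.eq_of_adj_aux E hc hx (Eo.comm hx1 hadj) hL' hL h').symm
  exfalso
  have h := not_lt.mp h
  have h' := not_lt.mp h'
  have h3 : (x - (2 : ℝ) • c) - (c - (2 : ℝ) • x) = (3 : ℝ) • (x - c) := by module
  have h4 : ‖(3 : ℝ) • (x - c)‖ = 3 := by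
    rw [norm_smul, hadj.2]; norm_num
  have h5 := norm_sub_le (x - (2 : ℝ) • c) (c - (2 : ℝ) • x)
  rw [h3, h4] at h5
  linarith

end Vale.Agent.Lib.P084.D3
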