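/-
Step 10.  `absorb`: the level set `Z = Eo c ∩ FInt x` has two points (two parallel segments in `FInt x`, `FInt.convex`, `FInt.near_plane`).  If `nr c z > 0`
for some `z ∈ Z`: `fib` gives `z' ∈ G ∩ Eo c ∩ FInt x`, `eq_of_adj`, and `L_z' = L_x` because `f` equals both on the face which spans
(`eq_on_face`).  Otherwise `Z ⊆ ker (nr c)`, two points, so `c` is flat by `dic`, `L_c = L_x` on `ker (nr c)` because
`z = c - (c - z)`, `f (c - z) = L_c (c - z)`.  Take `w ∈ G ∩ FInt x` near `z`, `nr c w > 0`: `w ∈ BPlus c` by `upper_near`;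
same dichotomy for `(w, c)`: `L_w = L_c`, done, or `L_c = L_x` on `ker (nr x)`, and the two planes span.
-/
import Vale.Agent.Lib.P084.D3.S1
import Vale.Agent.Lib.P084.D3.Band

namespace Vale.Agent.Lib.P084.D3

set_option linter.unusedSectionVars false

variable {X Y : Type*} [NormedAddCommGroup X] [NormedSpace ℝ X] [FiniteDimensional ℝ X]
  [NormedAddCommGroup Y] [NormedSpace ℝ Y] [FiniteDimensional ℝ Y]

variable {f : X → Y} {G : Set X}

/-- Continuous linear equivalences agreeing on `FInt x` are equal. -/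
theorem eq_of_eq_on_FInt {x : X} (hx : ‖x‖ = 1) {z0 : X} (hz0 : z0 ∈ FInt x) {L L' : X ≃L[ℝ] Y}
    (h : ∀ w ∈ FInt x, L w = L' w) : L = L' := by
  obtain ⟨ε, hε, hnear⟩ := FInt.near_plane hx hz0
  have hz : nr x z0 = 1 := hz0.2.1
  ext y
  have hv : nr x (y - (nr x y) • z0) = 0 := by
    simp [hz]
  set v := y - (nr x y) • z0 with hvdef
  have hv1 : 0 < ‖v‖ + 1 := by positivity
  set t : ℝ := ε / (2 * (‖v‖ + 1)) with ht
  have ht0 : 0 < t := by positivity
  have htv : t * ‖v‖ < ε := by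
    have : t * ‖v‖ ≤ t * (‖v‖ + 1) := by nlinarith
    have h2 : t * (‖v‖ + 1) = ε / 2 := by rw [ht]; field_simp
    linarith
  have hmem : z0 + t • v ∈ FInt x := by
    apply hnear
    · simp [hz, hv]
    · rw [add_sub_cancel_left, norm_smul, Real.norm_eq_abs, abs_of_pos ht0]
      exact htv
  have e1 := h _ hmem
  have e0 := h _ hz0
  rw [map_add, map_add, map_smul, map_smul, e0] at e1
  have e2 : L v = L' v := by
    have := add_left_cancel e1
    exact smul_right_injective Y ht0.ne' this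
  have hy : y = v + (nr x y) • z0 := by rw [hvdef]; abel
  rw [hy, map_add, map_add, map_smul, map_smul, e2, e0]

/-- The `L` at a generic point of `FInt x` is the `L` of `x`. -/
theorem IsLin.eq_of_FInt (E : Env f G) {x z' : X} (hx : x ∈ G) (hz' : z' ∈ G) (hzF : z' ∈ FInt x)
    {L L' : X ≃L[ℝ] Y} (hL : IsLin f G x L) (hL' : IsLin f G z' L') : L = L' := by
  obtain ⟨hx1, -, -⟩ := E.gen.reg x hx
  obtain ⟨hz1, hzs, -⟩ := E.gen.reg z' hz'
  have hnr : nr x = nr z' := hzs (nr x) ⟨(nr_mem hx1).1, hzF.2.1⟩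
  refine eq_of_eq_on_FInt hx1 hzF (fun w hw => ?_)
  rw [← IsLin.eq_on_face E hx hL hw.1 hw.2.1,
    ← IsLin.eq_on_face E hz' hL' hw.1 (by rw [← hnr]; exact hw.2.1)]

/-- `FInt x` is open in the sphere. -/
theorem FInt.near_sphere {x z : X} (hz : z ∈ FInt x) :
    ∃ ε > 0, ∀ w : X, ‖w‖ = 1 → ‖w - z‖ < ε → w ∈ FInt x := by
  obtain ⟨h1, h2, ε, hε, hn⟩ := hz
  refine ⟨ε, hε, fun w hw hwz => ⟨hw, hn w hw hwz, ε - ‖w - z‖, by linarith, fun w' hw' hww => ?_⟩⟩
  refine hn w' hw' ?_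
  have := norm_sub_le_norm_sub_add_norm_sub w' w z
  linarith

/-- A vector in the kernel of `nr x` off the line of `d`. -/
theorem exists_off_line (hdim : Module.finrank ℝ X = 3) {x z1 d : X} (hz : nr x z1 = 1) :
    ∃ w : X, nr x w = 0 ∧ w ≠ 0 ∧ ∀ r : ℝ, w ≠ r • d := by
  classical
  obtain ⟨y, hy⟩ : ∃ y : X, y ∉ Submodule.span ℝ ({z1, d} : Set X) := by
    by_contra hcon
    have htop : Submodule.span ℝ ({z1, d} : Set X) = ⊤ :=
      eq_top_iff.mpr (fun y _ => by
        by_contra hy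
        exact hcon ⟨y, hy⟩)
    have h1 := finrank_span_finset_le_card (R := ℝ) ({z1, d} : Finset X)
    have h2 : ((({z1, d} : Finset X) : Set X)) = ({z1, d} : Set X) := by simp
    rw [h2] at h1
    unfold Set.finrank at h1
    rw [htop, finrank_top, hdim] at h1
    have h3 : ({z1, d} : Finset X).card ≤ 2 := Finset.card_le_two
    have h4 : (3 : ℝ) ≤ (({z1, d} : Finset X).card : ℝ) := by exact_mod_cast h1
    have h5 : ((({z1, d} : Finset X).card : ℕ) : ℝ) ≤ 2 := by exact_mod_cast h3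
    linarith
  have hmem : ∀ r : ℝ, y - (nr x y) • z1 ≠ r • d := by
    intro r hr
    apply hy
    have : y = (nr x y) • z1 + r • d := by
      rw [← hr]; abel
    rw [this]
    exact Submodule.add_mem _
      (Submodule.smul_mem _ _ (Submodule.subset_span (by simp)))
      (Submodule.smul_mem _ _ (Submodule.subset_span (by simp)))
  refine ⟨y - (nr x y) • z1, by simp [hz], ?_, hmem⟩
  intro h0
  exact hmem 0 (by rw [h0]; simp)

/-- IVT on a segment of `FInt x`. -/
theorem exists_on_segment {x c p z2 : X} (hx : ‖x‖ = 1) (hp : p ∈ FInt x) (hz2 : z2 ∈ FInt x)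
    (h1 : ‖c - p‖ < 1) (h2 : 1 < ‖c - z2‖) :
    ∃ s : ℝ, 0 ≤ s ∧ s < 1 ∧ (1 - s) • p + s • z2 ∈ FInt x ∧ ‖c - ((1 - s) • p + s • z2)‖ = 1 := by
  have hg : Continuous (fun s : ℝ => ‖c - ((1 - s) • p + s • z2)‖) := by fun_prop
  obtain ⟨s, hs, hgs⟩ : ∃ s ∈ Set.Icc (0 : ℝ) 1, ‖c - ((1 - s) • p + s • z2)‖ = 1 := by
    have := intermediate_value_Icc (a := (0 : ℝ)) (b := 1)
      (f := fun s : ℝ => ‖c - ((1 - s) • p + s • z2)‖) zero_le_one hg.continuousOn
    apply this
    constructor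
    · simpa using h1.le
    · simpa using h2.le
  refine ⟨s, hs.1, ?_, ?_, hgs⟩
  · rcases lt_or_eq_of_le hs.2 with h | h
    · exact h
    · rw [h] at hgs
      simp at hgs
      linarith
  · exact FInt.convex hx hp hz2 (by linarith [hs.2]) hs.1 (by ring)

/-- Two distinct points at distance one from `c` in `FInt x`. -/
theorem two_points (hdim : Module.finrank ℝ X = 3) {x c : X} (hx : ‖x‖ = 1) (hB : c ∈ BPlus x) :
    ∃ za zb : X, za ∈ FInt x ∧ zb ∈ FInt x ∧ ‖c - za‖ = 1 ∧ ‖c - zb‖ = 1 ∧ za ≠ zb := by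
  obtain ⟨-, z1, hz1, z2, hz2, h1, h2⟩ := hB
  obtain ⟨w, hw0, hwne, hwoff⟩ := exists_off_line (x := x) (z1 := z1) (d := z2 - z1) hdim hz1.2.1
  obtain ⟨ε, hε, hnear⟩ := FInt.near_plane hx hz1
  have hwpos : 0 < ‖w‖ := norm_pos_iff.mpr hwne
  set η : ℝ := min ε (1 - ‖c - z1‖) / (2 * ‖w‖) with hη
  have hmin : 0 < min ε (1 - ‖c - z1‖) := lt_min hε (by linarith)
  have hη0 : 0 < η := by positivity
  have hηw : η * ‖w‖ = min ε (1 - ‖c - z1‖) / 2 := by rw [hη]; field_simp
  have hηε : η * ‖w‖ < ε := by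
    rw [hηw]; linarith [min_le_left ε (1 - ‖c - z1‖)]
  have hηc : η * ‖w‖ < 1 - ‖c - z1‖ := by
    rw [hηw]; linarith [min_le_right ε (1 - ‖c - z1‖)]
  have hp : z1 + η • w ∈ FInt x := by
    apply hnear
    · simp [hz1.2.1, hw0]
    · rw [add_sub_cancel_left, norm_smul, Real.norm_eq_abs, abs_of_pos hη0]; exact hηε
  have hp' : z1 - η • w ∈ FInt x := by
    apply hnear
    · simp [hz1.2.1, hw0]
    · rw [sub_sub_cancel_left, norm_neg, norm_smul, Real.norm_eq_abs, abs_of_pos hη0]; exact hηε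
  have hcp : ‖c - (z1 + η • w)‖ < 1 := by
    have e : c - (z1 + η • w) = (c - z1) - η • w := by abel
    rw [e]
    have := norm_sub_le (c - z1) (η • w)
    rw [norm_smul, Real.norm_eq_abs, abs_of_pos hη0] at this
    linarith
  have hcp' : ‖c - (z1 - η • w)‖ < 1 := by
    have e : c - (z1 - η • w) = (c - z1) + η • w := by abel
    rw [e]
    have := norm_add_le (c - z1) (η • w)
    rw [norm_smul, Real.norm_eq_abs, abs_of_pos hη0] at this
    linarith
  obtain ⟨s, hs0, hs1, hsF, hsn⟩ := exists_on_segment hx hp hz2 hcp h2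
  obtain ⟨t, ht0, ht1, htF, htn⟩ := exists_on_segment hx hp' hz2 hcp' h2
  refine ⟨_, _, hsF, htF, hsn, htn, ?_⟩
  intro heq
  have hkey : (η * (2 - s - t)) • w = (t - s) • (z2 - z1) := by
    have e : (η * (2 - s - t)) • w - (t - s) • (z2 - z1)
        = ((1 - s) • (z1 + η • w) + s • z2) - ((1 - t) • (z1 - η • w) + t • z2) := by
      module
    rw [← sub_eq_zero, e, heq, sub_self]
  have hne : η * (2 - s - t) ≠ 0 := by
    apply mul_ne_zero hη0.ne'
    linarith
  apply hwoff ((η * (2 - s - t))⁻¹ * (t - s))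
  rw [mul_smul, ← hkey, smul_smul, inv_mul_cancel₀ hne, one_smul]

/-- First dichotomy of step 10. -/
theorem absorb_aux (E : Env f G) {x c : X} (hx : x ∈ G) (hc : c ∈ G) (hB : c ∈ BPlus x)
    {L L' : X ≃L[ℝ] Y} (hL : IsLin f G x L) (hL' : IsLin f G c L') :
    L = L' ∨ (IsFlat c ∧ ∃ za zb : X, za ∈ FInt x ∧ zb ∈ FInt x ∧ za ∈ Eo c ∧ zb ∈ Eo c ∧
      nr c za = 0 ∧ nr c zb = 0 ∧ za ≠ zb ∧ L za = L' za ∧ L zb = L' zb) := by
  obtain ⟨hx1, -, -⟩ := E.gen.reg x hx
  obtain ⟨hc1, hcs, -⟩ := E.gen.reg c hc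
  obtain ⟨za, zb, hza, hzb, hna, hnb, hab⟩ := two_points E.dim hx1 hB
  have hzaE : za ∈ Eo c := ⟨hza.1, hna⟩
  have hzbE : zb ∈ Eo c := ⟨hzb.1, hnb⟩
  -- the case of a positive point
  have hpos : ∀ z, z ∈ FInt x → z ∈ Eo c → 0 < nr c z → L = L' := by
    intro z hzF hzE hzpos
    obtain ⟨ε, hε, hnear⟩ := FInt.near_sphere hzF
    obtain ⟨z', hz'G, hz'E, -, hz'n⟩ := E.gen.fib c hc z hzE hzpos ε hε
    have hz'F : z' ∈ FInt x := hnear z' hz'E.1 hz'n
    obtain ⟨Lz, hLz⟩ := exists_isLin E hz'G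
    have e1 := IsLin.eq_of_adj E hc hz'G hz'E hL' hLz
    have e2 := IsLin.eq_of_FInt E hx hz'G hz'F hL hLz
    rw [e1, e2]
  by_cases hposa : 0 < nr c za
  · exact Or.inl (hpos za hza hzaE hposa)
  by_cases hposb : 0 < nr c zb
  · exact Or.inl (hpos zb hzb hzbE hposb)
  right
  have hna0 : nr c za = 0 :=
    le_antisymm (not_lt.mp hposa) (nonneg_at (Eo.comm hc1 hzaE) (nr_mem hc1))
  have hnb0 : nr c zb = 0 :=
    le_antisymm (not_lt.mp hposb) (nonneg_at (Eo.comm hc1 hzbE) (nr_mem hc1))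
  have hflat : IsFlat c := by
    rcases E.gen.dic c hc with h | h
    · exact h
    · exact absurd (h za hzaE zb hzbE hna0 hnb0) hab
  have hval : ∀ z, z ∈ FInt x → z ∈ Eo c → nr c z = 0 → L z = L' z := by
    intro z hzF hzE hz0
    have e1 : f z = L z := IsLin.eq_on_face E hx hL hzF.1 hzF.2.1
    have hcz : nr c (c - z) = 1 := by
      rw [map_sub, hz0, (nr_mem hc1).2, sub_zero]
    have e2 : f (c - z) = L' (c - z) := IsLin.eq_on_face E hc hL' hzE.2 hcz
    have e3 : f (c - z) = f c - f z := E.ctx.sub hc1 hzE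
    have e4 : L' c = f c := hL'.val
    rw [← e1]
    rw [e3, map_sub, e4] at e2
    have : f z = L' z := by
      have h5 := sub_right_injective e2
      exact h5
    exact this
  exact ⟨hflat, za, zb, hza, hzb, hzaE, hzbE, hna0, hnb0, hab, hval za hza hzaE hna0,
    hval zb hzb hzbE hnb0⟩

/-- From two points of `Z` in the kernel of `nr c`: `L = L'` on that kernel. -/
theorem eq_on_ker (hdim : Module.finrank ℝ X = 3) {x c za zb : X} (hx : ‖x‖ = 1) (hc1 : ‖c‖ = 1)
    (hza : za ∈ FInt x) (hzb : zb ∈ FInt x) (ha0 : nr c za = 0) (hb0 : nr c zb = 0)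
    (hab : za ≠ zb) {L L' : X ≃L[ℝ] Y} (ea : L za = L' za) (eb : L zb = L' zb) {v : X}
    (hv : nr c v = 0) : L v = L' v := by
  have hcc : nr c c = 1 := (nr_mem hc1).2
  have hind : LinearIndependent ℝ ![za, zb, c] := by
    rw [Fintype.linearIndependent_iff]
    intro g hg
    rw [Fin.sum_univ_three] at hg
    simp only [Matrix.cons_val_zero, Matrix.cons_val_one, Matrix.cons_val] at hg
    have h1 := congrArg (nr c) hg
    simp only [map_add, map_smul, smul_eq_mul, map_zero, ha0, hb0, hcc] at h1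
    have g2 : g 2 = 0 := by linarith
    have h2 := congrArg (nr x) hg
    simp only [map_add, map_smul, smul_eq_mul, map_zero, hza.2.1, hzb.2.1, g2] at h2
    have g10 : g 1 = - g 0 := by linarith
    have h3 : g 0 • (za - zb) = 0 := by
      rw [g2, g10] at hg
      have e : g 0 • (za - zb) = g 0 • za + (- g 0) • zb + (0 : ℝ) • c := by module
      rw [e]; exact hg
    have g0 : g 0 = 0 := by
      rcases smul_eq_zero.mp h3 with h | h
      · exact h
      · exact absurd (sub_eq_zero.mp h) hab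
    intro i
    fin_cases i
    · exact g0
    · simpa [g0] using g10
    · exact g2
  have hspan : Submodule.span ℝ (Set.range ![za, zb, c]) = ⊤ :=
    hind.span_eq_top_of_card_eq_finrank (by simp [hdim])
  have hmem : v ∈ Submodule.span ℝ (Set.range ![za, zb, c]) := by rw [hspan]; trivial
  obtain ⟨g, hg⟩ := (Submodule.mem_span_range_iff_exists_fun ℝ).mp hmem
  rw [Fin.sum_univ_three] at hg
  simp only [Matrix.cons_val_zero, Matrix.cons_val_one, Matrix.cons_val] at hg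
  have h1 := congrArg (nr c) hg
  simp only [map_add, map_smul, smul_eq_mul, ha0, hb0, hcc, hv] at h1
  have g2 : g 2 = 0 := by linarith
  rw [← hg, g2]
  simp only [map_add, map_smul, ea, eb, zero_smul, map_zero]

theorem absorb (E : Env f G) {x c : X} (hx : x ∈ G) (hfl : IsFlat x) (hc : c ∈ G) (hB : c ∈ BPlus x)
    {L L' : X ≃L[ℝ] Y} (hL : IsLin f G x L) (hL' : IsLin f G c L') : L = L' := by
  obtain ⟨hx1, -, -⟩ := E.gen.reg x hx
  obtain ⟨hc1, hcs, -⟩ := E.gen.reg c hc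
  rcases absorb_aux E hx hc hB hL hL' with h | ⟨hflat, za, zb, hza, hzb, hzaE, hzbE, ha0, hb0, hab,
    ea, eb⟩
  · exact h
  have hker1 : ∀ v, nr c v = 0 → L v = L' v := fun v hv =>
    eq_on_ker E.dim hx1 hc1 hza hzb ha0 hb0 hab ea eb hv
  have hcc : nr c c = 1 := (nr_mem hc1).2
  -- the vector `v0`
  have hxz : nr x za = 1 := hza.2.1
  set v0 : X := c - (nr x c) • za with hv0
  have hv0x : nr x v0 = 0 := by simp [hv0, hxz]
  have hv0c : nr c v0 = 1 := by simp [hv0, ha0, hcc]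
  -- upper neighbourhood
  obtain ⟨ε, hε, hup⟩ := upper_near hc1 hcs hflat hzaE ha0
  obtain ⟨ε2, hε2, hnear⟩ := FInt.near_plane hx1 hza
  have hv0pos : 0 < ‖v0‖ := by
    apply norm_pos_iff.mpr
    intro h0
    rw [h0, map_zero] at hv0c
    norm_num at hv0c
  set t : ℝ := min ε ε2 / (4 * ‖v0‖) with ht
  have hmin : 0 < min ε ε2 := lt_min hε hε2
  have ht0 : 0 < t := by positivity
  have htv : t * ‖v0‖ = min ε ε2 / 4 := by rw [ht]; field_simp
  have hp : za + t • v0 ∈ FInt x := by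
    apply hnear
    · simp [hxz, hv0x]
    · rw [add_sub_cancel_left, norm_smul, Real.norm_eq_abs, abs_of_pos ht0, htv]
      linarith [min_le_right ε ε2]
  obtain ⟨ε3, hε3, hnear3⟩ := FInt.near_sphere hp
  have hδ : 0 < min (min (ε / 2) ε3) t := lt_min (lt_min (by linarith) hε3) ht0
  obtain ⟨w, hwG, hwn⟩ := E.gen.dense _ hp.1 _ hδ
  have hw1 : ‖w‖ = 1 := (E.gen.reg w hwG).1
  have hwF : w ∈ FInt x := hnear3 w hw1 (lt_of_lt_of_le hwn ((min_le_left _ _).trans (min_le_right _ _)))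
  have hwc : 0 < nr c w := by
    have h1 : |nr c (w - (za + t • v0))| ≤ ‖w - (za + t • v0)‖ := nrm_abs_le (nr_mem hc1) _
    have h2 : nr c (za + t • v0) = t := by simp [ha0, hv0c]
    have h3 : nr c (w - (za + t • v0)) = nr c w - t := by rw [map_sub, h2]
    rw [h3] at h1
    have h4 := (abs_le.mp h1).1
    have h5 : ‖w - (za + t • v0)‖ < t := lt_of_lt_of_le hwn (min_le_right _ _)
    linarith
  have hwa : ‖w - za‖ < ε := by
    have e : w - za = (w - (za + t • v0)) + t • v0 := by abel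
    rw [e]
    have h1 := norm_add_le (w - (za + t • v0)) (t • v0)
    rw [norm_smul, Real.norm_eq_abs, abs_of_pos ht0, htv] at h1
    have h2 : ‖w - (za + t • v0)‖ < ε / 2 :=
      lt_of_lt_of_le hwn ((min_le_left _ _).trans (min_le_left _ _))
    have h3 : min ε ε2 / 4 ≤ ε / 4 := by linarith [min_le_left ε ε2]
    linarith
  have hwB : w ∈ BPlus c := hup w hw1 hwa hwc
  obtain ⟨Lw, hLw⟩ := exists_isLin E hwG
  have e1 : L = Lw := IsLin.eq_of_FInt E hx hwG hwF hL hLw
  have hwx : nr x = nr w := (E.gen.reg w hwG).2.1 (nr x) ⟨(nr_mem hx1).1, hwF.2.1⟩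
  rcases absorb_aux E hc hwG hwB hL' hLw with h | ⟨-, za', zb', hza', hzb', -, -, ha0', hb0', hab',
    ea', eb'⟩
  · rw [e1, h]
  have hker2 : ∀ v, nr x v = 0 → L v = L' v := by
    intro v hv
    rw [hwx] at hv
    have := eq_on_ker E.dim hc1 hw1 hza' hzb' ha0' hb0' hab' ea' eb' hv
    rw [e1, this]
  ext y
  have hy : y = (y - (nr c y) • v0) + (nr c y) • v0 := by abel
  rw [hy, map_add, map_add]
  have h1 : L (y - (nr c y) • v0) = L' (y - (nr c y) • v0) := hker1 _ (by simp [hv0c])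
  have h2 : L ((nr c y) • v0) = L' ((nr c y) • v0) := hker2 _ (by simp [hv0x])
  rw [h1, h2]

end Vale.Agent.Lib.P084.D3
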