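/-
Step 8: the crossings.  `q = α x + β y₁`, `y₁ = γ t₁` (`IsLoop.ray`, `q` is no multiple of `x`).  `‖x - q‖ < 1` gives
`α ≥ 0` (convexity of `s ↦ ‖q + s x‖`), `nr x y₁ ≥ 0`, `α < 1` as `nr x q ≠ 1`, `β ≤ 1`, `α + β ≥ 1`;
`q - y₁ = (α+β-1) x + (1-β) (x - y₁)`, so `‖q - y₁‖ ≤ α < 1`; with `φ ∈ Nrm y₁`: `φ (q - y₂) = (α-1) φ x + β + 1 ≥ α + β ≥ 1`,
equality would force `q ∈` face of `x`.  So `‖q - γ t₁‖ < 1 < ‖q - γ (t₁ + π)‖`; take first zeros on both arcs.
-/
import Vale.Agent.Lib.P084.D3.Loop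

namespace Vale.Agent.Lib.P084.D3

variable {X : Type*} [NormedAddCommGroup X] [NormedSpace ℝ X]

/-- Algebra of step 8: position of `q` relative to `x` and `y₁`. -/
theorem crossing_alg {x y₁ : X} (hx : ‖x‖ = 1) (hs : Sm x) (hy : y₁ ∈ Eo x) {q : X}
    (hq : ‖q‖ = 1) (hxq : ‖x - q‖ < 1) (hqF : nr x q ≠ 1) {α β : ℝ} (hβ : 0 < β)
    (he : q = α • x + β • y₁) : ‖q - y₁‖ < 1 ∧ 1 < ‖q - (x - y₁)‖ := by
  have hξ := nr_mem hx
  set ξ := nr x with hξd
  have hξx : ξ x = 1 := hξ.2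
  have hy1 : ‖y₁‖ = 1 := hy.1
  have hy2 : ‖x - y₁‖ = 1 := hy.2
  -- ξ y₁ ≥ 0
  have hξy : 0 ≤ ξ y₁ := by
    have := nrm_le hξ (x - y₁)
    rw [map_sub, hξx, hy2] at this
    linarith
  have hξy1 : ξ y₁ ≤ 1 := by
    have := nrm_le hξ y₁
    rwa [hy1] at this
  -- ξ q > 0, ξ q < 1
  have hξq0 : 0 < ξ q := by
    have := nrm_le hξ (x - q)
    rw [map_sub, hξx] at this
    linarith
  have hξq1 : ξ q < 1 := by
    have := nrm_le hξ q
    rw [hq] at this
    exact lt_of_le_of_ne this hqF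
  have hξqe : ξ q = α + β * ξ y₁ := by
    rw [he, map_add, map_smul, map_smul, hξx]
    simp
  -- α ≥ 0
  have hα0 : 0 ≤ α := by
    by_contra hneg
    push Not at hneg
    -- β > 1
    have hβ1 : 1 < β := by
      have e1 : (1 + (-α)) • q = (-α) • (q - x) + (q + (-α) • x) := by module
      have h1 : (1 + (-α)) * 1 ≤ (-α) * ‖x - q‖ + ‖q + (-α) • x‖ := by
        have := norm_add_le ((-α) • (q - x)) (q + (-α) • x)
        rw [← e1, norm_smul, norm_smul, hq, norm_sub_rev q x, Real.norm_of_nonneg (by linarith),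
          Real.norm_of_nonneg (by linarith)] at this
        exact this
      have e2 : q + (-α) • x = β • y₁ := by rw [he]; module
      rw [e2, norm_smul, hy1, Real.norm_of_nonneg hβ.le] at h1
      have h2 : (-α) * ‖x - q‖ < (-α) * 1 := mul_lt_mul_of_pos_left hxq (by linarith)
      linarith
    -- write y₁ in terms of q and x
    set l := 1 / β with hl
    set m := -α / β with hm
    have hl0 : 0 < l := by positivity
    have hl1 : l < 1 := by
      rw [hl, div_lt_one hβ]; exact hβ1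
    have hm0 : 0 < m := by
      rw [hm]; exact div_pos (by linarith) hβ
    have hy_eq : y₁ = l • q + m • x := by
      rw [he, hl, hm]
      have hβne : β ≠ 0 := hβ.ne'
      simp only [smul_add, smul_smul]
      rw [show 1 / β * β = 1 by field_simp, one_smul]
      rw [show 1 / β * α = -(-α / β) by ring, neg_smul]
      abel
    have hξy' : ξ y₁ = l * ξ q + m := by
      rw [hy_eq, map_add, map_smul, map_smul, hξx]
      simp
    have hm1 : m < 1 := by
      have : 0 < l * ξ q := mul_pos hl0 hξq0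
      linarith
    have hlm : 1 ≤ l + m := by
      have := norm_add_le (l • q) (m • x)
      rw [← hy_eq, hy1, norm_smul, norm_smul, hq, hx, Real.norm_of_nonneg hl0.le,
        Real.norm_of_nonneg hm0.le] at this
      linarith
    have e3 : x - y₁ = (1 - m) • (x - q) + (l + m - 1) • (-q) := by
      rw [hy_eq]; module
    have h3 : ‖x - y₁‖ ≤ (1 - m) * ‖x - q‖ + (l + m - 1) * 1 := by
      rw [e3]
      refine (norm_add_le _ _).trans ?_
      rw [norm_smul, norm_smul, norm_neg, hq, Real.norm_of_nonneg (by linarith),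
        Real.norm_of_nonneg (by linarith)]
    rw [hy2] at h3
    have h4 : (1 - m) * ‖x - q‖ < (1 - m) * 1 := mul_lt_mul_of_pos_left hxq (by linarith)
    linarith
  have hα1 : α < 1 := by
    have : 0 ≤ β * ξ y₁ := mul_nonneg hβ.le hξy
    linarith
  -- functional at y₁
  have hθ := nr_mem hy1
  set θ := nr y₁ with hθd
  have hθy : θ y₁ = 1 := hθ.2
  have hθx0 : 0 ≤ θ x := nonneg_at hy hθ
  have hθx1 : θ x ≤ 1 := by
    have := nrm_le hθ x
    rwa [hx] at this
  have hθq : θ q = α * θ x + β := by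
    rw [he, map_add, map_smul, map_smul, hθy]
    simp
  have hβ1 : β ≤ 1 := by
    have := nrm_le hθ q
    rw [hq, hθq] at this
    have : 0 ≤ α * θ x := mul_nonneg hα0 hθx0
    linarith
  have hαβ : 1 ≤ α + β := by
    have := norm_add_le (α • x) (β • y₁)
    rw [← he, hq, norm_smul, norm_smul, hx, hy1, Real.norm_of_nonneg hα0,
      Real.norm_of_nonneg hβ.le] at this
    linarith
  constructor
  · have e : q - y₁ = (α + β - 1) • x + (1 - β) • (x - y₁) := by
      rw [he]; module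
    have h1 : ‖q - y₁‖ ≤ (α + β - 1) * 1 + (1 - β) * 1 := by
      rw [e]
      refine (norm_add_le _ _).trans ?_
      rw [norm_smul, norm_smul, hx, hy2, Real.norm_of_nonneg (by linarith),
        Real.norm_of_nonneg (by linarith)]
    linarith
  · by_contra hle
    push Not at hle
    have h1 := nrm_le hθ (q - (x - y₁))
    have h2 : θ (q - (x - y₁)) = (α - 1) * θ x + β + 1 := by
      rw [map_sub, map_sub, hθq, hθy]; ring
    rw [h2] at h1
    have h3 : (α - 1) * θ x + β ≤ 0 := by linarith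
    have h4 : (α - 1) * 1 ≤ (α - 1) * θ x :=
      mul_le_mul_of_nonpos_left hθx1 (by linarith)
    have h5 : α + β = 1 := by linarith
    have h6 : θ x = 1 := by
      have : (α - 1) * (θ x - 1) = 0 := by nlinarith
      rcases mul_eq_zero.mp this with h | h
      · linarith
      · linarith
    have hθN : θ ∈ Nrm x := ⟨hθ.1, h6⟩
    have h7 : θ = ξ := hs θ hθN
    have h8 : ξ q = 1 := by
      rw [← h7, hθq, h6]; linarith
    exact hqF h8

variable [FiniteDimensional ℝ X]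

theorem exists_crossings {x : X} (hx : ‖x‖ = 1) (hs : Sm x) {γ : ℝ → X} (hl : IsLoop x γ) {q : X}
    (hq : ‖q‖ = 1) (hxq : ‖x - q‖ < 1) (hqF : nr x q ≠ 1) :
    ∃ t₁ a b : ℝ, t₁ < a ∧ a < t₁ + Real.pi ∧ t₁ - Real.pi < b ∧ b < t₁ ∧
      ‖q - γ a‖ = 1 ∧ ‖q - γ b‖ = 1 ∧
      (∀ t ∈ Set.Ico t₁ a, ‖q - γ t‖ < 1) ∧ (∀ t ∈ Set.Ioc b t₁, ‖q - γ t‖ < 1) := by
  -- `q` is no multiple of `x`
  have hnm : ∀ r : ℝ, q ≠ r • x := by
    intro r hr
    have hr1 : |r| = 1 := by
      have := hq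
      rw [hr, norm_smul, hx, mul_one, Real.norm_eq_abs] at this
      exact this
    rcases (abs_eq (by norm_num : (0 : ℝ) ≤ 1)).mp hr1 with h | h
    · apply hqF
      rw [hr, h, one_smul]
      exact (nr_mem hx).2
    · have : ‖x - q‖ = 2 := by
        rw [hr, h]
        have e : x - (-1 : ℝ) • x = (2 : ℝ) • x := by module
        rw [e, norm_smul, hx]; norm_num
      linarith
  obtain ⟨t₁, α, β, hβ, he⟩ := hl.ray q hnm
  obtain ⟨h1, h2⟩ := crossing_alg hx hs (hl.mem t₁) hq hxq hqF hβ he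
  obtain ⟨C, hC⟩ := hl.lip
  have hcont : Continuous γ := hC.continuous
  have hg : Continuous (fun t => ‖q - γ t‖) := (continuous_const.sub hcont).norm
  have hp : γ (t₁ + Real.pi) = x - γ t₁ := hl.shift t₁
  have hm : γ (t₁ - Real.pi) = x - γ t₁ := by
    have := hl.shift (t₁ - Real.pi)
    rw [sub_add_cancel] at this
    rw [this]; abel
  have hpi := Real.pi_pos
  -- first zero to the right
  have hR : ∃ a, t₁ < a ∧ a < t₁ + Real.pi ∧ ‖q - γ a‖ = 1 ∧ ∀ t ∈ Set.Ico t₁ a, ‖q - γ t‖ < 1 := by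
    set A : Set ℝ := Set.Icc t₁ (t₁ + Real.pi) ∩ {t | 1 ≤ ‖q - γ t‖} with hA
    have hAc : IsCompact A :=
      isCompact_Icc.inter_right (isClosed_le continuous_const hg)
    have hAne : A.Nonempty := ⟨t₁ + Real.pi, ⟨by linarith, le_rfl⟩, by
      show 1 ≤ ‖q - γ (t₁ + Real.pi)‖
      rw [hp]; exact h2.le⟩
    have ha := hAc.sInf_mem hAne
    set a := sInf A with hadef
    have hbelow : ∀ t ∈ Set.Ico t₁ a, ‖q - γ t‖ < 1 := by
      intro t ht
      by_contra hc
      push Not at hc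
      have hmem : t ∈ A := ⟨⟨ht.1, by linarith [ha.1.2, ht.2]⟩, hc⟩
      have := csInf_le hAc.bddBelow hmem
      linarith [ht.2]
    have ha1 : t₁ < a := by
      refine lt_of_le_of_ne ha.1.1 ?_
      intro h
      have h3 : 1 ≤ ‖q - γ a‖ := ha.2
      rw [← h] at h3
      linarith
    have ha2 : ‖q - γ a‖ = 1 := by
      refine le_antisymm ?_ ha.2
      have hmem : a ∈ closure (Set.Ico t₁ a) := by
        rw [closure_Ico ha1.ne]
        exact ⟨ha1.le, le_rfl⟩
      have hcl : IsClosed {t | ‖q - γ t‖ ≤ 1} := isClosed_le hg continuous_const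
      have hsub : Set.Ico t₁ a ⊆ {t | ‖q - γ t‖ ≤ 1} := fun t ht => (hbelow t ht).le
      exact (closure_minimal hsub hcl) hmem
    have ha3 : a < t₁ + Real.pi := by
      refine lt_of_le_of_ne ha.1.2 ?_
      intro h
      rw [h, hp] at ha2
      linarith
    exact ⟨a, ha1, ha3, ha2, hbelow⟩
  -- first zero to the left
  have hL : ∃ b, t₁ - Real.pi < b ∧ b < t₁ ∧ ‖q - γ b‖ = 1 ∧ ∀ t ∈ Set.Ioc b t₁, ‖q - γ t‖ < 1 := by
    set A : Set ℝ := Set.Icc (t₁ - Real.pi) t₁ ∩ {t | 1 ≤ ‖q - γ t‖} with hA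
    have hAc : IsCompact A :=
      isCompact_Icc.inter_right (isClosed_le continuous_const hg)
    have hAne : A.Nonempty := ⟨t₁ - Real.pi, ⟨le_rfl, by linarith⟩, by
      show 1 ≤ ‖q - γ (t₁ - Real.pi)‖
      rw [hm]; exact h2.le⟩
    have hb := hAc.sSup_mem hAne
    set b := sSup A with hbdef
    have habove : ∀ t ∈ Set.Ioc b t₁, ‖q - γ t‖ < 1 := by
      intro t ht
      by_contra hc
      push Not at hc
      have hmem : t ∈ A := ⟨⟨by linarith [hb.1.1, ht.1], ht.2⟩, hc⟩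
      have := le_csSup hAc.bddAbove hmem
      linarith [ht.1]
    have hb1 : b < t₁ := by
      refine lt_of_le_of_ne hb.1.2 ?_
      intro h
      have h3 : 1 ≤ ‖q - γ b‖ := hb.2
      rw [h] at h3
      linarith
    have hb2 : ‖q - γ b‖ = 1 := by
      refine le_antisymm ?_ hb.2
      have hmem : b ∈ closure (Set.Ioc b t₁) := by
        rw [closure_Ioc hb1.ne]
        exact ⟨le_rfl, hb1.le⟩
      have hcl : IsClosed {t | ‖q - γ t‖ ≤ 1} := isClosed_le hg continuous_const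
      have hsub : Set.Ioc b t₁ ⊆ {t | ‖q - γ t‖ ≤ 1} := fun t ht => (habove t ht).le
      exact (closure_minimal hsub hcl) hmem
    have hb3 : t₁ - Real.pi < b := by
      refine lt_of_le_of_ne hb.1.1 ?_
      intro h
      rw [← h, hm] at hb2
      linarith
    exact ⟨b, hb3, hb1, hb2, habove⟩
  obtain ⟨a, ha1, ha2, ha3, ha4⟩ := hR
  obtain ⟨b, hb1, hb2, hb3, hb4⟩ := hL
  exact ⟨t₁, a, b, ha1, ha2, hb1, hb2, ha3, hb3, ha4, hb4⟩

end Vale.Agent.Lib.P084.D3
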