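import Mathlib

open Set Metric Module
open scoped ENNReal NNReal

namespace Vale.Agent.Lib.P084.D3

variable {X : Type*} [NormedAddCommGroup X] [NormedSpace ℝ X]

/-- Unit directions of a segment of length `d` contained in the unit sphere. -/
def FlatDir (d : ℝ) : Set X := {v | ‖v‖ = 1 ∧ ∃ p : X, ∀ t ∈ Icc (0:ℝ) d, ‖p + t • v‖ = 1}

theorem isClosed_flatDir [FiniteDimensional ℝ X] (d : ℝ) : IsClosed (FlatDir d : Set X) := by
  by_cases hd : 0 ≤ d
  · let C : Set (X × X) := (closedBall 0 1 ×ˢ closedBall 0 1) ∩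
      ({q | ‖q.1‖ = 1} ∩ ⋂ t ∈ Icc (0:ℝ) d, {q | ‖q.2 + t • q.1‖ = 1})
    have hC : IsCompact C := by
      refine ((isCompact_closedBall 0 1).prod (isCompact_closedBall 0 1)).inter_right ?_
      refine IsClosed.inter (isClosed_eq (by fun_prop) (by fun_prop)) ?_
      exact isClosed_biInter fun t _ => isClosed_eq (by fun_prop) (by fun_prop)
    have hEq : (FlatDir d : Set X) = Prod.fst '' C := by
      ext v
      constructor
      · rintro ⟨hv, p, hp⟩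
        have hp0 : ‖p‖ = 1 := by simpa using hp 0 ⟨le_rfl, hd⟩
        refine ⟨(v, p), ⟨⟨?_, ?_⟩, hv, ?_⟩, rfl⟩
        · simp [hv]
        · simp [hp0]
        · simp only [mem_iInter]
          exact fun t ht => hp t ht
      · rintro ⟨⟨w, p⟩, ⟨_, hw, hp⟩, rfl⟩
        simp only [mem_iInter] at hp
        exact ⟨hw, p, fun t ht => hp t ht⟩
    rw [hEq]
    exact (hC.image continuous_fst).isClosed
  · have hEq : (FlatDir d : Set X) = sphere 0 1 := by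
      ext v
      rw [mem_sphere_zero_iff_norm]
      constructor
      · exact fun h => h.1
      · intro h
        refine ⟨h, 0, fun t ht => ?_⟩
        exact absurd (ht.1.trans ht.2) hd
    rw [hEq]
    exact isClosed_sphere

lemma le_norm_of_opNorm_le {φ : X →L[ℝ] ℝ} (hφ : ‖φ‖ ≤ 1) (x : X) : φ x ≤ ‖x‖ := by
  have h := φ.le_opNorm x
  have h2 : ‖φ‖ * ‖x‖ ≤ 1 * ‖x‖ := mul_le_mul_of_nonneg_right hφ (norm_nonneg _)
  rw [Real.norm_eq_abs] at h
  linarith [le_abs_self (φ x)]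

lemma abs_le_norm_of_opNorm_le {φ : X →L[ℝ] ℝ} (hφ : ‖φ‖ ≤ 1) (x : X) : |φ x| ≤ ‖x‖ := by
  have h := φ.le_opNorm x
  have h2 : ‖φ‖ * ‖x‖ ≤ 1 * ‖x‖ := mul_le_mul_of_nonneg_right hφ (norm_nonneg _)
  rw [Real.norm_eq_abs] at h
  linarith

/-- A norming functional of a point of a chord kills the direction of the chord. -/
lemma dual_flat {φ : X →L[ℝ] ℝ} (hφ : ‖φ‖ ≤ 1) {q u : X} {η : ℝ} (hη : 0 < η) (hq : φ q = 1)
    (h₁ : ‖q + η • u‖ = 1) (h₂ : ‖q - η • u‖ = 1) : φ u = 0 := by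
  have a1 := le_norm_of_opNorm_le hφ (q + η • u)
  have a2 := le_norm_of_opNorm_le hφ (q - η • u)
  rw [h₁, map_add, map_smul, hq, smul_eq_mul] at a1
  rw [h₂, map_sub, map_smul, hq, smul_eq_mul] at a2
  have b1 : η * φ u ≤ 0 := by linarith
  have b2 : 0 ≤ η * φ u := by linarith
  have : η * φ u = 0 := le_antisymm b1 b2
  rcases mul_eq_zero.mp this with h | h
  · exact absurd h hη.ne'
  · exact h

/-- In a plane `H`, the kernel of a functional with `φ n = 1` is a line. -/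
lemma exists_m {H : Submodule ℝ X} (hH : finrank ℝ H = 2) (φ : X →L[ℝ] ℝ) {n : X} (hn : n ∈ H)
    (hφ : φ n = 1) :
    ∃ m ∈ H, ‖m‖ = 1 ∧ φ m = 0 ∧ ∀ h ∈ H, ∃ b : ℝ, h = φ h • n + b • m := by
  let f : H →ₗ[ℝ] ℝ := (φ : X →ₗ[ℝ] ℝ).comp H.subtype
  have hf : f ≠ 0 := by
    intro h0
    have : f ⟨n, hn⟩ = 0 := by rw [h0]; rfl
    have h1 : f ⟨n, hn⟩ = 1 := hφ
    rw [h1] at this
    exact one_ne_zero this
  have hfin : FiniteDimensional ℝ H := FiniteDimensional.of_finrank_pos (by omega)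
  have hk := Module.Dual.finrank_ker_add_one_of_ne_zero (f := f) hf
  have hk1 : finrank ℝ (LinearMap.ker f) = 1 := by omega
  obtain ⟨m₀, hm₀, hspan⟩ := finrank_eq_one_iff'.mp hk1
  have hm₀' : ((m₀ : H) : X) ≠ 0 := by
    intro h
    apply hm₀
    ext
    exact h
  have hnm : ‖((m₀ : H) : X)‖ ≠ 0 := norm_ne_zero_iff.mpr hm₀'
  have hfm : φ ((m₀ : H) : X) = 0 := LinearMap.mem_ker.mp m₀.2
  refine ⟨‖((m₀ : H) : X)‖⁻¹ • ((m₀ : H) : X), H.smul_mem _ (m₀ : H).2, ?_, ?_, ?_⟩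
  · rw [norm_smul, norm_inv, norm_norm, inv_mul_cancel₀ hnm]
  · rw [map_smul, hfm, smul_zero]
  · intro h hh
    have hmem : (⟨h - φ h • n, H.sub_mem hh (H.smul_mem _ hn)⟩ : H) ∈ LinearMap.ker f := by
      rw [LinearMap.mem_ker]
      change φ (h - φ h • n) = 0
      rw [map_sub, map_smul, hφ, smul_eq_mul, mul_one, sub_self]
    obtain ⟨c, hc⟩ := hspan ⟨_, hmem⟩
    refine ⟨c * ‖((m₀ : H) : X)‖, ?_⟩
    have hc' : c • ((m₀ : H) : X) = h - φ h • n := by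
      have := congrArg (fun y : LinearMap.ker f => ((y : H) : X)) hc
      simpa using this
    have h3 : (c * ‖((m₀ : H) : X)‖) • (‖((m₀ : H) : X)‖⁻¹ • ((m₀ : H) : X)) = c • ((m₀ : H) : X) := by
      rw [smul_smul, mul_assoc, mul_inv_cancel₀ hnm, mul_one]
    rw [h3, hc']
    abel


/-- The Lipschitz estimate: the direction of a chord is a Lipschitz function of a midpoint, on a
level of `ξ`, provided the two chords do not lie in a common plane of a norming functional. -/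
lemma flat_lip {ξ : X →L[ℝ] ℝ} (hξ : ‖ξ‖ ≤ 1)
    (hker : finrank ℝ (LinearMap.ker (ξ : X →ₗ[ℝ] ℝ)) = 2)
    {u u' z z' : X} {c η : ℝ} (hu : ξ u = 1) (hu' : ξ u' = 1) (hun : ‖u‖ ≤ 2) (hun' : ‖u'‖ ≤ 2)
    (hz : ξ z = c) (hz' : ξ z' = c) (hη : 0 < η) (hη' : η ≤ 1 / 16)
    (hf : ∀ s : ℝ, |s| ≤ η → ‖z + s • u‖ = 1) (hf' : ∀ s : ℝ, |s| ≤ η → ‖z' + s • u'‖ = 1)
    (hNF : ∀ φ : X →L[ℝ] ℝ, ‖φ‖ ≤ 1 → φ z = 1 → φ u = 0 → φ z' = 1 → φ u' = 0 → u' = u) :
    ‖u' - u‖ ≤ (64 / η) * ‖z' - z‖ := by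
  have hC : 0 ≤ (64 / η) := by positivity
  by_cases hEq : u' = u
  · rw [hEq, sub_self, norm_zero]; positivity
  by_cases hbig : η / 16 < ‖z' - z‖
  · have h1 : ‖u' - u‖ ≤ 4 := by
      calc ‖u' - u‖ ≤ ‖u'‖ + ‖u‖ := norm_sub_le _ _
        _ ≤ 4 := by linarith
    have h2 : (64 / η) * (η / 16) = 4 := by field_simp; norm_num
    have h3 : (64 / η) * (η / 16) ≤ (64 / η) * ‖z' - z‖ := mul_le_mul_of_nonneg_left hbig.le hC
    linarith
  push Not at hbig
  have hη0 : |(0:ℝ)| ≤ η := by simpa using hη.le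
  have hz1 : ‖z‖ = 1 := by simpa using hf 0 hη0
  have hz1' : ‖z'‖ = 1 := by simpa using hf' 0 hη0
  obtain ⟨φ, hφ, hφz0⟩ := exists_dual_vector'' ℝ z
  have hφz : φ z = 1 := by simpa [hz1] using hφz0
  have hηabs : |η| ≤ η := by rw [abs_of_pos hη]
  have hηabs' : |-η| ≤ η := by rw [abs_neg, abs_of_pos hη]
  have hsub : ∀ (y w : X) (t : ℝ), y - t • w = y + (-t) • w := fun y w t => by
    rw [neg_smul, sub_eq_add_neg]
  have hφu : φ u = 0 := dual_flat hφ hη hφz (hf η hηabs) (by rw [hsub]; exact hf (-η) hηabs')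
  -- the numbers `a = φ u'`, `a' = φ (z' - z)`
  have hφe : |φ (z' - z)| ≤ ‖z' - z‖ := abs_le_norm_of_opNorm_le hφ _
  have hφw : φ (u' - u) = φ u' := by rw [map_sub, hφu, sub_zero]
  have hφz' : φ z' = 1 + φ (z' - z) := by rw [map_sub, hφz]; ring
  have h1 := le_norm_of_opNorm_le hφ (z' + η • u')
  have h2 := le_norm_of_opNorm_le hφ (z' + (-η) • u')
  rw [hf' η hηabs, map_add, map_smul, smul_eq_mul, hφz'] at h1
  rw [hf' (-η) hηabs', map_add, map_smul, smul_eq_mul, hφz'] at h2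
  have hηa : η * |φ u'| ≤ ‖z' - z‖ := by
    have h3 : |η * φ u'| ≤ -φ (z' - z) := by
      rw [abs_le]; constructor <;> linarith
    rw [abs_mul, abs_of_pos hη] at h3
    have h4 := neg_abs_le (φ (z' - z))
    linarith
  -- the plane
  have hcabs : |c| ≤ 1 := by
    rw [← hz, ← hz1]; exact abs_le_norm_of_opNorm_le hξ z
  have hn_ker : z - c • u ∈ LinearMap.ker (ξ : X →ₗ[ℝ] ℝ) := by
    rw [LinearMap.mem_ker]
    change ξ (z - c • u) = 0
    rw [map_sub, map_smul, hz, hu, smul_eq_mul, mul_one, sub_self]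
  have hφn : φ (z - c • u) = 1 := by
    rw [map_sub, map_smul, hφz, hφu, smul_eq_mul, mul_zero, sub_zero]
  have hnn : ‖z - c • u‖ ≤ 3 := by
    calc ‖z - c • u‖ ≤ ‖z‖ + ‖c • u‖ := norm_sub_le _ _
      _ = 1 + |c| * ‖u‖ := by rw [hz1, norm_smul, Real.norm_eq_abs]
      _ ≤ 1 + 1 * 2 := by
          have := mul_le_mul hcabs hun (norm_nonneg _) zero_le_one
          linarith
      _ = 3 := by norm_num
  obtain ⟨m, hmH, hm1, hφm, hspan⟩ := exists_m hker φ hn_ker hφn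
  have he_ker : z' - z ∈ LinearMap.ker (ξ : X →ₗ[ℝ] ℝ) := by
    rw [LinearMap.mem_ker]
    change ξ (z' - z) = 0
    rw [map_sub, hz, hz', sub_self]
  have hw_ker : u' - u ∈ LinearMap.ker (ξ : X →ₗ[ℝ] ℝ) := by
    rw [LinearMap.mem_ker]
    change ξ (u' - u) = 0
    rw [map_sub, hu, hu', sub_self]
  obtain ⟨b', hb'⟩ := hspan _ he_ker
  obtain ⟨b, hb⟩ := hspan _ hw_ker
  rw [hφw] at hb
  have hb'4 : |b'| ≤ 4 * ‖z' - z‖ := by
    have h3 : b' • m = (z' - z) - φ (z' - z) • (z - c • u) := by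
      rw [eq_sub_iff_add_eq, add_comm, ← hb']
    have h4 : |b'| = ‖b' • m‖ := by rw [norm_smul, hm1, mul_one, Real.norm_eq_abs]
    rw [h4, h3]
    calc ‖(z' - z) - φ (z' - z) • (z - c • u)‖ ≤ ‖z' - z‖ + ‖φ (z' - z) • (z - c • u)‖ :=
          norm_sub_le _ _
      _ = ‖z' - z‖ + |φ (z' - z)| * ‖z - c • u‖ := by rw [norm_smul, Real.norm_eq_abs]
      _ ≤ ‖z' - z‖ + ‖z' - z‖ * 3 := by
          have := mul_le_mul hφe hnn (norm_nonneg _) (norm_nonneg _)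
          linarith
      _ = 4 * ‖z' - z‖ := by ring
  -- the main claim
  have hbb : |b| ≤ (2 / η) * |b'| := by
    by_contra hlt
    push Not at hlt
    have hbpos : 0 < |b| := lt_of_le_of_lt (by positivity) hlt
    have hb0 : b ≠ 0 := abs_pos.mp hbpos
    obtain ⟨s, hs⟩ : ∃ s : ℝ, s = -b' / b := ⟨_, rfl⟩
    have hsb : s * b = -b' := by rw [hs]; field_simp
    have hsabs : |s| < η / 2 := by
      have h3 : |s| * |b| = |b'| := by rw [← abs_mul, hsb, abs_neg]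
      have h4 : (2 / η) * |b'| = (2 / η) * (|s| * |b|) := by rw [h3]
      rw [h4] at hlt
      by_contra hge
      push Not at hge
      have h5 : 1 ≤ (2 / η) * |s| := by
        rw [div_mul_eq_mul_div, le_div_iff₀ hη]; linarith
      have h6 : 1 * |b| ≤ (2 / η) * |s| * |b| := mul_le_mul_of_nonneg_right h5 hbpos.le
      have h7 : (2 / η) * (|s| * |b|) = (2 / η) * |s| * |b| := by ring
      linarith
    obtain ⟨κ, hκdef⟩ : ∃ κ : ℝ, κ = φ (z' - z) + s * φ u' := ⟨_, rfl⟩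
    have hκ : |κ| ≤ 3 / 32 * η := by
      have h3 : |s * φ u'| ≤ (1 / 2) * ‖z' - z‖ := by
        rw [abs_mul]
        have h4 : |s| * |φ u'| ≤ (η / 2) * |φ u'| :=
          mul_le_mul_of_nonneg_right hsabs.le (abs_nonneg _)
        have h5 : (η / 2) * |φ u'| = (1 / 2) * (η * |φ u'|) := by ring
        linarith
      rw [hκdef]
      calc |φ (z' - z) + s * φ u'| ≤ |φ (z' - z)| + |s * φ u'| := abs_add_le _ _
        _ ≤ ‖z' - z‖ + (1 / 2) * ‖z' - z‖ := add_le_add hφe h3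
        _ ≤ 3 / 32 * η := by linarith
    have hκs : |κ| ≤ 3 / 512 := by linarith
    have hκl := (abs_le.mp hκs).1
    have hκu := (abs_le.mp hκs).2
    have hαpos : 0 < 1 + κ := by linarith
    -- the vector identity
    have hz'eq : z' = z + (φ (z' - z) • (z - c • u) + (-(s * b)) • m) := by
      have h3 : -(s * b) = b' := by rw [hsb, neg_neg]
      rw [h3, ← hb']
      abel
    have hu'eq : u' = u + (φ u' • (z - c • u) + b • m) := by
      rw [← hb]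
      abel
    have hq : z' + s • u' = (1 + κ) • z + (s - c * κ) • u := by
      have h3 : z' + s • u' = (z + (φ (z' - z) • (z - c • u) + (-(s * b)) • m)) +
          s • (u + (φ u' • (z - c • u) + b • m)) := by
        rw [← hz'eq, ← hu'eq]
      rw [h3, hκdef]
      module
    have hsη : |s| ≤ η := by linarith
    have hq1 : ‖z' + s • u'‖ = 1 := hf' s hsη
    obtain ⟨t, ht⟩ : ∃ t : ℝ, t = (s - c * κ) / (1 + κ) := ⟨_, rfl⟩
    have htmul : (1 + κ) * t = s - c * κ := by rw [ht]; field_simp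
    have htabs : |t| ≤ η := by
      rw [ht, abs_div, abs_of_pos hαpos, div_le_iff₀ hαpos]
      have h3 : |s - c * κ| ≤ |s| + |c * κ| := abs_sub _ _
      have h4 : |c * κ| ≤ 3 / 32 * η := by
        rw [abs_mul]
        have := mul_le_mul hcabs hκ (abs_nonneg _) zero_le_one
        linarith
      nlinarith
    have hαeq : 1 + κ = 1 := by
      have h3 : (1 + κ) • z + (s - c * κ) • u = (1 + κ) • (z + t • u) := by
        rw [smul_add, smul_smul, htmul]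
      rw [hq, h3, norm_smul, hf t htabs, mul_one, Real.norm_of_nonneg hαpos.le] at hq1
      exact hq1
    have hκ0 : κ = 0 := by linarith
    have hq2 : z' + s • u' = z + s • u := by
      rw [hq, hκ0]
      module
    -- the common norming functional
    have hqn : ‖z + s • u‖ = 1 := hf s hsη
    obtain ⟨ψ, hψ, hψq0⟩ := exists_dual_vector'' ℝ (z + s • u)
    have hψq : ψ (z + s • u) = 1 := by simpa [hqn] using hψq0
    have hψq' : ψ (z' + s • u') = 1 := by rw [hq2]; exact hψq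
    have hs1 : |s + η / 2| ≤ η := by
      have := abs_add_le s (η / 2)
      rw [abs_of_pos (by linarith : 0 < η / 2)] at this
      linarith
    have hs2 : |s + -(η / 2)| ≤ η := by
      have := abs_add_le s (-(η / 2))
      rw [abs_neg, abs_of_pos (by linarith : 0 < η / 2)] at this
      linarith
    have hψu : ψ u = 0 := by
      refine dual_flat hψ (by linarith : 0 < η / 2) hψq ?_ ?_
      · rw [add_assoc, ← add_smul]; exact hf _ hs1
      · rw [sub_eq_add_neg, add_assoc, ← neg_smul, ← add_smul]; exact hf _ hs2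
    have hψu' : ψ u' = 0 := by
      refine dual_flat hψ (by linarith : 0 < η / 2) hψq' ?_ ?_
      · rw [add_assoc, ← add_smul]; exact hf' _ hs1
      · rw [sub_eq_add_neg, add_assoc, ← neg_smul, ← add_smul]; exact hf' _ hs2
    have hψz : ψ z = 1 := by
      have := hψq
      rw [map_add, map_smul, hψu, smul_zero, add_zero] at this
      exact this
    have hψz' : ψ z' = 1 := by
      have := hψq'
      rw [map_add, map_smul, hψu', smul_zero, add_zero] at this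
      exact this
    exact hEq (hNF ψ hψ hψz hψu hψz' hψu')
  -- conclusion
  have ha : |φ u'| ≤ ‖z' - z‖ / η := by
    rw [le_div_iff₀ hη]; linarith
  have hbb2 : |b| ≤ (2 / η) * (4 * ‖z' - z‖) :=
    hbb.trans (mul_le_mul_of_nonneg_left hb'4 (by positivity))
  calc ‖u' - u‖ = ‖φ u' • (z - c • u) + b • m‖ := by rw [← hb]
    _ ≤ ‖φ u' • (z - c • u)‖ + ‖b • m‖ := norm_add_le _ _
    _ = |φ u'| * ‖z - c • u‖ + |b| := by
        rw [norm_smul, norm_smul, hm1, mul_one, Real.norm_eq_abs, Real.norm_eq_abs]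
    _ ≤ (‖z' - z‖ / η) * 3 + (2 / η) * (4 * ‖z' - z‖) := by
        have := mul_le_mul ha hnn (norm_nonneg _) (by positivity)
        linarith
    _ = (11 / η) * ‖z' - z‖ := by ring
    _ ≤ (64 / η) * ‖z' - z‖ := by
        apply mul_le_mul_of_nonneg_right _ (norm_nonneg _)
        apply div_le_div_of_nonneg_right (by norm_num) hη.le


/-- Functionals which agree with the norm on an open set. -/
def Fac : Set (X →L[ℝ] ℝ) := {φ | (interior {x : X | φ x = ‖x‖}).Nonempty}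

lemma eq_of_eq_on_open {φ ψ : X →L[ℝ] ℝ} {U : Set X} (hU : IsOpen U) (hne : U.Nonempty)
    (h : ∀ x ∈ U, φ x = ψ x) : φ = ψ := by
  obtain ⟨x₀, hx₀⟩ := hne
  obtain ⟨r, hr, hball⟩ := Metric.isOpen_iff.mp hU x₀ hx₀
  ext y
  have hy1 : 0 < ‖y‖ + 1 := by positivity
  obtain ⟨t, ht⟩ : ∃ t : ℝ, t = r / (2 * (‖y‖ + 1)) := ⟨_, rfl⟩
  have hpos : 0 < t := by rw [ht]; positivity
  have hmem : x₀ + t • y ∈ U := by
    apply hball
    rw [mem_ball, dist_eq_norm, add_sub_cancel_left, norm_smul, Real.norm_of_nonneg hpos.le]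
    have h1 : t * (2 * (‖y‖ + 1)) = r := by rw [ht]; field_simp
    nlinarith [norm_nonneg y]
  have h1 := h _ hmem
  rw [map_add, map_add, map_smul, map_smul, h x₀ hx₀] at h1
  have h2 : t • φ y = t • ψ y := add_left_cancel h1
  exact smul_right_injective _ hpos.ne' h2

lemma countable_fac [FiniteDimensional ℝ X] : (Fac : Set (X →L[ℝ] ℝ)).Countable := by
  refine Set.PairwiseDisjoint.countable_of_isOpen
    (s := fun φ : X →L[ℝ] ℝ => interior {x : X | φ x = ‖x‖}) ?_ (fun _ _ => isOpen_interior)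
    (fun φ hφ => hφ)
  intro φ _ ψ _ hne
  refine Set.disjoint_left.mpr fun x hx hx' => hne ?_
  refine eq_of_eq_on_open (U := interior {x : X | φ x = ‖x‖} ∩ interior {x : X | ψ x = ‖x‖})
    (isOpen_interior.inter isOpen_interior) ⟨x, hx, hx'⟩ fun y hy => ?_
  have h1 : φ y = ‖y‖ := interior_subset (s := {x : X | φ x = ‖x‖}) hy.1
  have h2 : ψ y = ‖y‖ := interior_subset (s := {x : X | ψ x = ‖x‖}) hy.2
  rw [h1, h2]

lemma fac_of_flats [FiniteDimensional ℝ X] (hdim : finrank ℝ X = 3) {ξ φ : X →L[ℝ] ℝ}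
    (hφ : ‖φ‖ ≤ 1) {z z' u u' : X} {η : ℝ} (hη : 0 < η)
    (hz : φ z = 1) (hz' : φ z' = 1) (hu : φ u = 0) (hu' : φ u' = 0)
    (hξu : ξ u = 1) (hξu' : ξ u' = 1) (hne : u' ≠ u)
    (hf : ∀ s : ℝ, |s| ≤ η → ‖z + s • u‖ = 1) (hf' : ∀ s : ℝ, |s| ≤ η → ‖z' + s • u'‖ = 1) :
    φ ∈ (Fac : Set (X →L[ℝ] ℝ)) := by
  obtain ⟨y₀, hy₀⟩ : ∃ y₀ : X, y₀ = (1 / 2 : ℝ) • z + (1 / 2 : ℝ) • z' := ⟨_, rfl⟩
  have hφy₀ : φ y₀ = 1 := by
    rw [hy₀, map_add, map_smul, map_smul, hz, hz']; norm_num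
  have hli : LinearIndependent ℝ ![y₀, u, u'] := by
    rw [Fintype.linearIndependent_iff]
    intro g hg
    simp only [Fin.sum_univ_three, Matrix.cons_val_zero, Matrix.cons_val_one,
      Matrix.cons_val] at hg
    have h1 := congrArg φ hg
    simp only [map_add, map_smul, hφy₀, hu, hu', smul_eq_mul, map_zero, mul_one, mul_zero,
      add_zero] at h1
    have h2 := congrArg ξ hg
    simp only [map_add, map_smul, hξu, hξu', smul_eq_mul, map_zero, mul_one, h1, zero_mul,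
      zero_add] at h2
    have h3 : g 2 • (u' - u) = 0 := by
      have h4 : g 1 = - g 2 := by linarith
      have h5 := hg
      rw [h1, zero_smul, zero_add, h4, neg_smul] at h5
      rw [smul_sub, sub_eq_add_neg, add_comm]
      exact h5
    have h6 : g 2 = 0 := by
      rcases smul_eq_zero.mp h3 with h | h
      · exact h
      · exact absurd (sub_eq_zero.mp h) hne
    have h7 : g 1 = 0 := by linarith
    intro i
    fin_cases i
    · exact h1
    · exact h7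
    · exact h6
  let b : Basis (Fin 3) ℝ X :=
    basisOfLinearIndependentOfCardEqFinrank hli (by simp [hdim])
  have hb : ⇑b = ![y₀, u, u'] := coe_basisOfLinearIndependentOfCardEqFinrank hli _
  have hcont : ∀ i, Continuous fun x => b.coord i x := fun i =>
    (b.coord i).continuous_of_finiteDimensional
  let U : Set X := {x | 0 < b.coord 0 x} ∩ {x | |b.coord 1 x| < (η / 2) * b.coord 0 x} ∩
    {x | |b.coord 2 x| < (η / 2) * b.coord 0 x}
  have hUo : IsOpen U := by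
    refine ((isOpen_lt continuous_const (hcont 0)).inter ?_).inter ?_
    · exact isOpen_lt (continuous_abs.comp (hcont 1)) (continuous_const.mul (hcont 0))
    · exact isOpen_lt (continuous_abs.comp (hcont 2)) (continuous_const.mul (hcont 0))
  have hb0 : b 0 = y₀ := by rw [hb]; rfl
  have hb1 : b 1 = u := by rw [hb]; rfl
  have hb2 : b 2 = u' := by rw [hb]; rfl
  have hy₀U : y₀ ∈ U := by
    have hc0 : b.coord 0 y₀ = 1 := by rw [← hb0]; simp
    have hc1 : b.coord 1 y₀ = 0 := by rw [← hb0]; simp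
    have hc2 : b.coord 2 y₀ = 0 := by rw [← hb0]; simp
    refine ⟨⟨?_, ?_⟩, ?_⟩
    · change 0 < b.coord 0 y₀
      rw [hc0]; exact one_pos
    · change |b.coord 1 y₀| < (η / 2) * b.coord 0 y₀
      rw [hc0, hc1, abs_zero]; linarith
    · change |b.coord 2 y₀| < (η / 2) * b.coord 0 y₀
      rw [hc0, hc2, abs_zero]; linarith
  have hsub : U ⊆ {x : X | φ x = ‖x‖} := by
    rintro x ⟨⟨hα, hβ⟩, hγ⟩
    obtain ⟨α, hαd⟩ : ∃ α : ℝ, α = b.coord 0 x := ⟨_, rfl⟩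
    obtain ⟨β, hβd⟩ : ∃ β : ℝ, β = b.coord 1 x := ⟨_, rfl⟩
    obtain ⟨γ, hγd⟩ : ∃ γ : ℝ, γ = b.coord 2 x := ⟨_, rfl⟩
    change 0 < b.coord 0 x at hα
    change |b.coord 1 x| < (η / 2) * b.coord 0 x at hβ
    change |b.coord 2 x| < (η / 2) * b.coord 0 x at hγ
    rw [← hαd] at hα hβ hγ
    rw [← hβd] at hβ
    rw [← hγd] at hγ
    have hx : x = α • y₀ + β • u + γ • u' := by
      have h1 := b.sum_repr x
      rw [Fin.sum_univ_three, hb0, hb1, hb2] at h1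
      rw [hαd, hβd, hγd]
      exact h1.symm
    have hs : ∀ β : ℝ, |β| < (η / 2) * α → |2 * (β / α)| ≤ η := by
      intro β hβ
      rw [abs_mul, abs_div, abs_of_pos hα, abs_of_pos (by norm_num : (0:ℝ) < 2)]
      have h1 : |β| / α < η / 2 := by rw [div_lt_iff₀ hα]; exact hβ
      linarith
    obtain ⟨y, hy⟩ : ∃ y : X, y = (1 / 2 : ℝ) • (z + (2 * (β / α)) • u) +
      (1 / 2 : ℝ) • (z' + (2 * (γ / α)) • u') := ⟨_, rfl⟩
    have hy1 : ‖y‖ ≤ 1 := by
      rw [hy]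
      calc ‖(1 / 2 : ℝ) • (z + (2 * (β / α)) • u) + (1 / 2 : ℝ) • (z' + (2 * (γ / α)) • u')‖
          ≤ ‖(1 / 2 : ℝ) • (z + (2 * (β / α)) • u)‖ + ‖(1 / 2 : ℝ) • (z' + (2 * (γ / α)) • u')‖ :=
            norm_add_le _ _
        _ = 1 := by
            rw [norm_smul, norm_smul, hf _ (hs β hβ), hf' _ (hs γ hγ)]
            norm_num
    have hφy : φ y = 1 := by
      rw [hy]
      simp only [map_add, map_smul, hz, hz', hu, hu', smul_eq_mul]
      norm_num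
    have hy2 : ‖y‖ = 1 := le_antisymm hy1 (by
      have := le_norm_of_opNorm_le hφ y
      rwa [hφy] at this)
    have hxy : x = α • y := by
      rw [hx, hy, hy₀]
      have hα0 : α ≠ 0 := hα.ne'
      have e1 : β • u = (α * (β / α)) • u := by
        congr 1; field_simp
      have e2 : γ • u' = (α * (γ / α)) • u' := by
        congr 1; field_simp
      rw [e1, e2]
      module
    change φ x = ‖x‖
    rw [hxy, map_smul, hφy, smul_eq_mul, norm_smul, hy2, Real.norm_of_nonneg hα.le]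
  exact ⟨y₀, interior_maximal hsub hUo hy₀U⟩


section Gauge

variable {W : Type*} [NormedAddCommGroup W] [NormedSpace ℝ W]

/-- Radial chart of the level set of a gauge. -/
noncomputable def gaugeChart (K : Set W) (e₁ e₂ : W) (t : ℝ) : W :=
  (gauge K (e₁ + t • e₂))⁻¹ • (e₁ + t • e₂)

lemma dimH_chart {K : Set W} (hK : Convex ℝ K) {ρ R : ℝ} (hρ : 0 < ρ) (hR : 0 < R)
    (h1 : ball (0 : W) ρ ⊆ K) (h2 : K ⊆ closedBall 0 R) (e₁ e₂ : W) (ℓ : W →L[ℝ] ℝ)
    (he₁ : ℓ e₁ = 1) (he₂ : ℓ e₂ = 0) : dimH (range (gaugeChart K e₁ e₂)) ≤ 1 := by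
  have hnhds : K ∈ nhds (0 : W) := Filter.mem_of_superset (ball_mem_nhds _ hρ) h1
  have habs : Absorbent ℝ K := absorbent_nhds_zero hnhds
  obtain ⟨r, hr⟩ : ∃ r : ℝ≥0, (r : ℝ) = ρ := ⟨ρ.toNNReal, Real.coe_toNNReal _ hρ.le⟩
  have hr0 : 0 < r := by rw [← NNReal.coe_pos, hr]; exact hρ
  have hlip := hK.lipschitzWith_gauge hr0 (by rw [hr]; exact h1)
  have hglip : ∀ x y : W, |gauge K x - gauge K y| ≤ ‖x - y‖ / ρ := by
    intro x y
    have h3 := hlip.dist_le_mul x y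
    rw [Real.dist_eq, dist_eq_norm, NNReal.coe_inv, hr] at h3
    rwa [div_eq_inv_mul]
  have hgle : ∀ x : W, ‖x‖ / R ≤ gauge K x := fun x =>
    le_gauge_of_subset_closedBall habs hR.le h2
  obtain ⟨L, hL⟩ : ∃ L : ℝ, L = ‖ℓ‖ := ⟨_, rfl⟩
  have hyL : ∀ t : ℝ, 1 ≤ L * ‖e₁ + t • e₂‖ := by
    intro t
    have h3 := ℓ.le_opNorm (e₁ + t • e₂)
    rw [map_add, map_smul, he₁, he₂, smul_zero, add_zero, norm_one, ← hL] at h3
    exact h3
  have hLpos : 0 < L := by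
    by_contra hneg
    push Not at hneg
    have h3 := hyL 0
    have h4 : L * ‖e₁ + (0 : ℝ) • e₂‖ ≤ 0 := mul_nonpos_of_nonpos_of_nonneg hneg (norm_nonneg _)
    linarith
  have hgpos : ∀ t : ℝ, 1 / (L * R) ≤ gauge K (e₁ + t • e₂) := by
    intro t
    refine le_trans ?_ (hgle _)
    rw [div_le_div_iff₀ (by positivity) hR]
    have := hyL t
    nlinarith
  have hgpos' : ∀ t : ℝ, 0 < gauge K (e₁ + t • e₂) := fun t =>
    lt_of_lt_of_le (by positivity) (hgpos t)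
  have hinv : ∀ t : ℝ, (gauge K (e₁ + t • e₂))⁻¹ ≤ L * R := by
    intro t
    rw [inv_le_comm₀ (hgpos' t) (by positivity)]
    have := hgpos t
    rwa [one_div] at this
  have hrat : ∀ t : ℝ, (gauge K (e₁ + t • e₂))⁻¹ * ‖e₁ + t • e₂‖ ≤ R := by
    intro t
    rw [inv_mul_le_iff₀ (hgpos' t)]
    have := hgle (e₁ + t • e₂)
    rw [div_le_iff₀ hR] at this
    linarith
  obtain ⟨C, hC⟩ : ∃ C : ℝ, C = L * R * (1 + R / ρ) * ‖e₂‖ := ⟨_, rfl⟩
  have hC0 : 0 ≤ C := by rw [hC]; positivity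
  have hLip : LipschitzWith (Real.toNNReal C) (gaugeChart K e₁ e₂) := by
    refine LipschitzWith.of_dist_le_mul fun t t' => ?_
    rw [Real.coe_toNNReal _ hC0, dist_eq_norm, Real.dist_eq]
    unfold gaugeChart
    obtain ⟨y, hy⟩ : ∃ y : W, y = e₁ + t • e₂ := ⟨_, rfl⟩
    obtain ⟨y', hy'⟩ : ∃ y' : W, y' = e₁ + t' • e₂ := ⟨_, rfl⟩
    have hyy : ‖y - y'‖ = |t - t'| * ‖e₂‖ := by
      rw [hy, hy', add_sub_add_left_eq_sub, ← sub_smul, norm_smul, Real.norm_eq_abs]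
    have ginv := hinv t
    have ginv' := hinv t'
    have gp := hgpos' t
    have gp' := hgpos' t'
    have grat' := hrat t'
    rw [← hy] at ginv gp
    rw [← hy'] at ginv' gp' grat'
    rw [← hy, ← hy']
    have hdec : (gauge K y)⁻¹ • y - (gauge K y')⁻¹ • y' =
        (gauge K y)⁻¹ • (y - y') +
          ((gauge K y)⁻¹ * (gauge K y' - gauge K y)) • ((gauge K y')⁻¹ • y') := by
      have e : (gauge K y)⁻¹ * (gauge K y' - gauge K y) * (gauge K y')⁻¹ =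
          (gauge K y)⁻¹ - (gauge K y')⁻¹ := by
        field_simp
        try ring
      rw [smul_smul, e]
      module
    rw [hdec]
    have hAp : 0 < (gauge K y)⁻¹ := inv_pos.mpr gp
    have hBp : 0 < (gauge K y')⁻¹ := inv_pos.mpr gp'
    have hgd : |gauge K y' - gauge K y| ≤ ‖y - y'‖ / ρ := by
      have h5 := hglip y' y
      rwa [norm_sub_rev] at h5
    have hLR : 0 ≤ L * R := by positivity
    calc ‖(gauge K y)⁻¹ • (y - y') +
          ((gauge K y)⁻¹ * (gauge K y' - gauge K y)) • ((gauge K y')⁻¹ • y')‖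
        ≤ ‖(gauge K y)⁻¹ • (y - y')‖ +
          ‖((gauge K y)⁻¹ * (gauge K y' - gauge K y)) • ((gauge K y')⁻¹ • y')‖ := norm_add_le _ _
      _ = (gauge K y)⁻¹ * ‖y - y'‖ +
          ((gauge K y)⁻¹ * |gauge K y' - gauge K y|) * ((gauge K y')⁻¹ * ‖y'‖) := by
          rw [norm_smul, norm_smul, norm_smul, norm_mul, Real.norm_eq_abs, Real.norm_eq_abs,
            Real.norm_eq_abs, abs_of_pos hAp, abs_of_pos hBp]
      _ ≤ (L * R) * ‖y - y'‖ + ((L * R) * (‖y - y'‖ / ρ)) * R := by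
          have h5 : (gauge K y)⁻¹ * ‖y - y'‖ ≤ (L * R) * ‖y - y'‖ :=
            mul_le_mul_of_nonneg_right ginv (norm_nonneg _)
          have h6 : (gauge K y)⁻¹ * |gauge K y' - gauge K y| ≤ (L * R) * (‖y - y'‖ / ρ) :=
            mul_le_mul ginv hgd (abs_nonneg _) hLR
          have h7 := mul_le_mul h6 grat' (by positivity) (by positivity)
          linarith
      _ = C * |t - t'| := by
          rw [hyy, hC]
          ring
  calc dimH (range (gaugeChart K e₁ e₂)) ≤ dimH (univ : Set ℝ) := hLip.dimH_range_le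
    _ = 1 := Real.dimH_univ

lemma gaugeChart_eq {K : Set W} {e₁ e₂ : W} {t r : ℝ} (hr : 0 < r)
    (h : gauge K (r • (e₁ + t • e₂)) = 1) : r • (e₁ + t • e₂) = gaugeChart K e₁ e₂ t := by
  rw [gauge_smul_of_nonneg hr.le, smul_eq_mul] at h
  have h1 : (gauge K (e₁ + t • e₂))⁻¹ = r := by
    rw [inv_eq_iff_eq_inv]
    exact eq_inv_of_mul_eq_one_right h
  unfold gaugeChart
  rw [h1]

lemma dimH_gauge_level [FiniteDimensional ℝ W] (hW : finrank ℝ W = 2) {K : Set W}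
    (hK : Convex ℝ K) {ρ R : ℝ} (hρ : 0 < ρ) (hR : 0 < R) (h1 : ball (0 : W) ρ ⊆ K)
    (h2 : K ⊆ closedBall 0 R) : dimH {h : W | gauge K h = 1} ≤ 1 := by
  let b : Basis (Fin 2) ℝ W := Module.finBasisOfFinrankEq ℝ W hW
  let ℓ₀ : W →L[ℝ] ℝ := (b.coord 0).toContinuousLinearMap
  let ℓ₁ : W →L[ℝ] ℝ := (b.coord 1).toContinuousLinearMap
  have h00 : ℓ₀ (b 0) = 1 := by simp [ℓ₀]
  have h01 : ℓ₀ (b 1) = 0 := by simp [ℓ₀]
  have h10 : ℓ₁ (b 0) = 0 := by simp [ℓ₁]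
  have h11 : ℓ₁ (b 1) = 1 := by simp [ℓ₁]
  have hcov : {h : W | gauge K h = 1} ⊆
      ((range (gaugeChart K (b 0) (b 1)) ∪ range (gaugeChart K (-b 0) (b 1))) ∪
      range (gaugeChart K (b 1) (b 0))) ∪ range (gaugeChart K (-b 1) (b 0)) := by
    intro h hh
    change gauge K h = 1 at hh
    have hrep : h = ℓ₀ h • b 0 + ℓ₁ h • b 1 := by
      have h3 := b.sum_repr h
      rw [Fin.sum_univ_two] at h3
      exact h3.symm
    obtain ⟨α, hα⟩ : ∃ α : ℝ, α = ℓ₀ h := ⟨_, rfl⟩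
    obtain ⟨β, hβ⟩ : ∃ β : ℝ, β = ℓ₁ h := ⟨_, rfl⟩
    rw [← hα, ← hβ] at hrep
    rcases lt_trichotomy α 0 with hα0 | hα0 | hα0
    · have hr : 0 < -α := by linarith
      have e : h = (-α) • (-b 0 + (β / (-α)) • b 1) := by
        rw [hrep, smul_add, smul_smul, mul_div_cancel₀ _ hr.ne']
        module
      left; left; right
      rw [e] at hh
      exact ⟨_, (e.trans (gaugeChart_eq hr hh)).symm⟩
    · rcases lt_trichotomy β 0 with hβ0 | hβ0 | hβ0
      · have hr : 0 < -β := by linarith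
        have e : h = (-β) • (-b 1 + (0 : ℝ) • b 0) := by
          rw [hrep, hα0]
          module
        right
        rw [e] at hh
        exact ⟨_, (e.trans (gaugeChart_eq hr hh)).symm⟩
      · exfalso
        rw [hrep, hα0, hβ0, zero_smul, zero_smul, add_zero, gauge_zero] at hh
        exact zero_ne_one hh
      · have e : h = β • (b 1 + (0 : ℝ) • b 0) := by
          rw [hrep, hα0]
          module
        left; right
        rw [e] at hh
        exact ⟨_, (e.trans (gaugeChart_eq hβ0 hh)).symm⟩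
    · have e : h = α • (b 0 + (β / α) • b 1) := by
        rw [hrep, smul_add, smul_smul, mul_div_cancel₀ _ hα0.ne']
      left; left; left
      rw [e] at hh
      exact ⟨_, (e.trans (gaugeChart_eq hα0 hh)).symm⟩
  refine (dimH_mono hcov).trans ?_
  rw [dimH_union, dimH_union, dimH_union]
  refine max_le (max_le (max_le ?_ ?_) ?_) ?_
  · exact dimH_chart hK hρ hR h1 h2 _ _ ℓ₀ h00 h01
  · exact dimH_chart hK hρ hR h1 h2 _ _ (-ℓ₀) (by simp [h00]) (by simp [h01])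
  · exact dimH_chart hK hρ hR h1 h2 _ _ ℓ₁ h11 h10
  · exact dimH_chart hK hρ hR h1 h2 _ _ (-ℓ₁) (by simp [h11]) (by simp [h10])

end Gauge

/-- A level of a norming functional of `v` in the sphere has Hausdorff dimension at most one. -/
lemma dimH_level [FiniteDimensional ℝ X] {ξ : X →L[ℝ] ℝ}
    (hker : finrank ℝ (LinearMap.ker (ξ : X →ₗ[ℝ] ℝ)) = 2) {v : X} (hv : ‖v‖ = 1)
    (hξv : ξ v = 1) {c : ℝ} (hc : |c| < 1) : dimH {z : X | ‖z‖ = 1 ∧ ξ z = c} ≤ 1 := by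
  let H := LinearMap.ker (ξ : X →ₗ[ℝ] ℝ)
  obtain ⟨z₀, hz₀⟩ : ∃ z₀ : X, z₀ = c • v := ⟨_, rfl⟩
  have hz₀n : ‖z₀‖ = |c| := by rw [hz₀, norm_smul, hv, mul_one, Real.norm_eq_abs]
  let K : Set H := {h | ‖z₀ + (h : X)‖ ≤ 1}
  have hcon : Convex ℝ K := by
    intro x hx y hy a b ha hb hab
    have e : z₀ + ((a • x + b • y : H) : X) = a • (z₀ + (x : X)) + b • (z₀ + (y : X)) := by
      have e1 : z₀ = a • z₀ + b • z₀ := by rw [← add_smul, hab, one_smul]
      simp only [Submodule.coe_add, Submodule.coe_smul, smul_add]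
      nth_rewrite 1 [e1]
      abel
    change ‖z₀ + ((a • x + b • y : H) : X)‖ ≤ 1
    rw [e]
    calc ‖a • (z₀ + (x : X)) + b • (z₀ + (y : X))‖
        ≤ ‖a • (z₀ + (x : X))‖ + ‖b • (z₀ + (y : X))‖ := norm_add_le _ _
      _ = a * ‖z₀ + (x : X)‖ + b * ‖z₀ + (y : X)‖ := by
          rw [norm_smul, norm_smul, Real.norm_of_nonneg ha, Real.norm_of_nonneg hb]
      _ ≤ a * 1 + b * 1 := add_le_add (mul_le_mul_of_nonneg_left hx ha)
          (mul_le_mul_of_nonneg_left hy hb)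
      _ = 1 := by rw [mul_one, mul_one, hab]
  have hρ : 0 < 1 - |c| := by linarith
  have hb1 : ball (0 : H) (1 - |c|) ⊆ K := by
    intro h hh
    rw [mem_ball_zero_iff] at hh
    have hh' : ‖(h : X)‖ < 1 - |c| := hh
    change ‖z₀ + (h : X)‖ ≤ 1
    have := norm_add_le z₀ (h : X)
    rw [hz₀n] at this
    linarith
  have hb2 : K ⊆ closedBall (0 : H) 2 := by
    intro h hh
    rw [mem_closedBall_zero_iff]
    have hh' : ‖z₀ + (h : X)‖ ≤ 1 := hh
    change ‖(h : X)‖ ≤ 2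
    have h3 : (h : X) = (z₀ + (h : X)) - z₀ := by abel
    have h4 := norm_sub_le (z₀ + (h : X)) z₀
    rw [← h3, hz₀n] at h4
    linarith
  have hfin : FiniteDimensional ℝ H := inferInstance
  have hnhds : K ∈ nhds (0 : H) := Filter.mem_of_superset (ball_mem_nhds _ hρ) hb1
  have habs : Absorbent ℝ K := absorbent_nhds_zero hnhds
  have hlev := dimH_gauge_level hker hcon hρ (by norm_num : (0:ℝ) < 2) hb1 hb2
  have hiso : Isometry fun h : H => z₀ + (h : X) :=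
    (IsometryEquiv.addLeft z₀).isometry.comp isometry_subtype_coe
  have hcov : {z : X | ‖z‖ = 1 ∧ ξ z = c} ⊆ (fun h : H => z₀ + (h : X)) '' {h : H | gauge K h = 1} := by
    rintro z ⟨hz1, hzc⟩
    have hmem : z - z₀ ∈ H := by
      change (ξ : X →ₗ[ℝ] ℝ) (z - z₀) = 0
      change ξ (z - z₀) = 0
      rw [map_sub, hzc, hz₀, map_smul, hξv, smul_eq_mul, mul_one, sub_self]
    refine ⟨⟨z - z₀, hmem⟩, ?_, by simp⟩
    change gauge K ⟨z - z₀, hmem⟩ = 1
    have hmemK : (⟨z - z₀, hmem⟩ : H) ∈ K := by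
      change ‖z₀ + (z - z₀)‖ ≤ 1
      rw [add_sub_cancel, hz1]
    refine le_antisymm (gauge_le_one_of_mem hmemK) ?_
    by_contra hlt
    push Not at hlt
    obtain ⟨b, hb0, hb1', hbmem⟩ := exists_lt_of_gauge_lt habs hlt
    obtain ⟨h', hh', hh'eq⟩ := hbmem
    have hh'K : ‖z₀ + (h' : X)‖ ≤ 1 := hh'
    have e : z = (1 - b) • z₀ + b • (z₀ + (h' : X)) := by
      have h3 := congrArg (fun y : H => (y : X)) hh'eq
      simp only [Submodule.coe_smul] at h3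
      have h4 : z = z₀ + b • (h' : X) := by rw [h3]; abel
      rw [h4]
      module
    have h5 : ‖z‖ < 1 := by
      rw [e]
      calc ‖(1 - b) • z₀ + b • (z₀ + (h' : X))‖
          ≤ ‖(1 - b) • z₀‖ + ‖b • (z₀ + (h' : X))‖ := norm_add_le _ _
        _ = (1 - b) * |c| + b * ‖z₀ + (h' : X)‖ := by
            rw [norm_smul, norm_smul, hz₀n, Real.norm_of_nonneg (by linarith),
              Real.norm_of_nonneg hb0.le]
        _ < 1 := by
            have h6 : (1 - b) * |c| < (1 - b) * 1 := mul_lt_mul_of_pos_left hc (by linarith)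
            have h7 : b * ‖z₀ + (h' : X)‖ ≤ b * 1 := mul_le_mul_of_nonneg_left hh'K hb0.le
            linarith
    linarith
  calc dimH {z : X | ‖z‖ = 1 ∧ ξ z = c} ≤ dimH ((fun h : H => z₀ + (h : X)) '' {h : H | gauge K h = 1}) :=
        dimH_mono hcov
    _ = dimH {h : H | gauge K h = 1} := hiso.dimH_image _
    _ ≤ 1 := hlev


/-- Directions off a facet plane: the plane section is at most a line. -/
lemma dimH_fac_line [FiniteDimensional ℝ X] {ξ : X →L[ℝ] ℝ}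
    (hker : finrank ℝ (LinearMap.ker (ξ : X →ₗ[ℝ] ℝ)) = 2) {v : X} (hv : ‖v‖ = 1)
    (hξv : ξ v = 1) {φ : X →L[ℝ] ℝ} (hφ : φ ∈ (Fac : Set (X →L[ℝ] ℝ))) :
    dimH {x : LinearMap.ker (ξ : X →ₗ[ℝ] ℝ) | φ (v + (x : X)) = 0} ≤ 1 := by
  by_cases hne : ({x : LinearMap.ker (ξ : X →ₗ[ℝ] ℝ) | φ (v + (x : X)) = 0}).Nonempty
  swap
  · rw [Set.not_nonempty_iff_eq_empty.mp hne, dimH_empty]
    exact zero_le
  obtain ⟨x₀, hx₀⟩ := hne
  have hx₀' : φ (v + (x₀ : X)) = 0 := hx₀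
  have hex : ∃ h : LinearMap.ker (ξ : X →ₗ[ℝ] ℝ), φ (h : X) ≠ 0 := by
    by_contra hall
    push Not at hall
    have hφv : φ v = 0 := by
      have := hall x₀
      rw [map_add, this, add_zero] at hx₀'
      exact hx₀'
    have hφ0 : ∀ w : X, φ w = 0 := by
      intro w
      have hmem : w - ξ w • v ∈ LinearMap.ker (ξ : X →ₗ[ℝ] ℝ) := by
        change ξ (w - ξ w • v) = 0
        rw [map_sub, map_smul, hξv, smul_eq_mul, mul_one, sub_self]
      have h1 := hall ⟨_, hmem⟩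
      change φ (w - ξ w • v) = 0 at h1
      rw [map_sub, map_smul, hφv, smul_zero, sub_zero] at h1
      exact h1
    obtain ⟨x₁, hx₁⟩ := hφ
    obtain ⟨r, hr, hball⟩ := Metric.isOpen_iff.mp isOpen_interior x₁ hx₁
    have hn : ∀ y ∈ ball x₁ r, y = 0 := by
      intro y hy
      have h1 : φ y = ‖y‖ := interior_subset (s := {x : X | φ x = ‖x‖}) (hball hy)
      rw [hφ0 y] at h1
      exact norm_eq_zero.mp h1.symm
    have h0 : x₁ = 0 := hn x₁ (mem_ball_self hr)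
    have h2 : (r / 2) • v = 0 := by
      apply hn
      rw [h0, mem_ball_zero_iff, norm_smul, hv, mul_one, Real.norm_of_nonneg (by positivity)]
      linarith
    rw [smul_eq_zero] at h2
    rcases h2 with h2 | h2
    · linarith
    · rw [h2, norm_zero] at hv
      exact zero_ne_one hv
  obtain ⟨h, hh⟩ := hex
  have hnmem : (φ (h : X))⁻¹ • (h : X) ∈ LinearMap.ker (ξ : X →ₗ[ℝ] ℝ) :=
    Submodule.smul_mem _ _ h.2
  have hφn : φ ((φ (h : X))⁻¹ • (h : X)) = 1 := by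
    rw [map_smul, smul_eq_mul, inv_mul_cancel₀ hh]
  obtain ⟨m, hmH, _, _, hspan⟩ := exists_m hker φ hnmem hφn
  let f : ℝ → LinearMap.ker (ξ : X →ₗ[ℝ] ℝ) := fun t => x₀ + t • ⟨m, hmH⟩
  have hf : ContDiff ℝ 1 f := by fun_prop
  have hcov : {x : LinearMap.ker (ξ : X →ₗ[ℝ] ℝ) | φ (v + (x : X)) = 0} ⊆ range f := by
    intro x hx
    have hx' : φ (v + (x : X)) = 0 := hx
    have hmem : (x : X) - (x₀ : X) ∈ LinearMap.ker (ξ : X →ₗ[ℝ] ℝ) :=
      Submodule.sub_mem _ x.2 x₀.2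
    obtain ⟨b, hb⟩ := hspan _ hmem
    have h0 : φ ((x : X) - (x₀ : X)) = 0 := by
      rw [map_add] at hx' hx₀'
      rw [map_sub]
      linarith
    rw [h0, zero_smul, zero_add] at hb
    refine ⟨b, ?_⟩
    apply Subtype.ext
    change (x₀ : X) + b • m = (x : X)
    rw [← hb]
    abel
  calc dimH {x : LinearMap.ker (ξ : X →ₗ[ℝ] ℝ) | φ (v + (x : X)) = 0} ≤ dimH (range f) :=
        dimH_mono hcov
    _ ≤ finrank ℝ ℝ := hf.dimH_range_le
    _ = 1 := by simp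

/-- The plane directions off the facet planes with chords at one level form a set of dimension
at most one. -/
lemma dimH_level_dirs [FiniteDimensional ℝ X] (hdim : finrank ℝ X = 3) {ξ : X →L[ℝ] ℝ}
    (hξ : ‖ξ‖ ≤ 1) (hker : finrank ℝ (LinearMap.ker (ξ : X →ₗ[ℝ] ℝ)) = 2) {v : X} (hv : ‖v‖ = 1)
    (hξv : ξ v = 1) {η : ℝ} (hη : 0 < η) (hη' : η ≤ 1 / 16) (c : ℝ) :
    dimH {x : LinearMap.ker (ξ : X →ₗ[ℝ] ℝ) | ‖(x : X)‖ ≤ 1 ∧
      (∀ φ ∈ (Fac : Set (X →L[ℝ] ℝ)), φ (v + (x : X)) ≠ 0) ∧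
      ∃ z : X, ξ z = c ∧ ∀ s : ℝ, |s| ≤ η → ‖z + s • (v + (x : X))‖ = 1} ≤ 1 := by
  obtain ⟨T, hT⟩ : ∃ T : Set (LinearMap.ker (ξ : X →ₗ[ℝ] ℝ)), T =
      {x : LinearMap.ker (ξ : X →ₗ[ℝ] ℝ) | ‖(x : X)‖ ≤ 1 ∧
      (∀ φ ∈ (Fac : Set (X →L[ℝ] ℝ)), φ (v + (x : X)) ≠ 0) ∧
      ∃ z : X, ξ z = c ∧ ∀ s : ℝ, |s| ≤ η → ‖z + s • (v + (x : X))‖ = 1} := ⟨_, rfl⟩
  rw [← hT]
  by_cases hne : T.Nonempty
  swap
  · rw [Set.not_nonempty_iff_eq_empty.mp hne, dimH_empty]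
    exact zero_le
  have hmem0 : ∀ x ∈ T, ‖(x : X)‖ ≤ 1 ∧
      (∀ φ ∈ (Fac : Set (X →L[ℝ] ℝ)), φ (v + (x : X)) ≠ 0) ∧
      ∃ z : X, ξ z = c ∧ ∀ s : ℝ, |s| ≤ η → ‖z + s • (v + (x : X))‖ = 1 := by
    intro x hx
    rw [hT] at hx
    exact hx
  have hmem : ∀ x : T, ‖((x : LinearMap.ker (ξ : X →ₗ[ℝ] ℝ)) : X)‖ ≤ 1 ∧
      (∀ φ ∈ (Fac : Set (X →L[ℝ] ℝ)), φ (v + ((x : LinearMap.ker (ξ : X →ₗ[ℝ] ℝ)) : X)) ≠ 0) ∧
      ∃ z : X, ξ z = c ∧ ∀ s : ℝ, |s| ≤ η →
        ‖z + s • (v + ((x : LinearMap.ker (ξ : X →ₗ[ℝ] ℝ)) : X))‖ = 1 := by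
    intro x
    exact hmem0 x x.2
  have hξx : ∀ x : LinearMap.ker (ξ : X →ₗ[ℝ] ℝ), ξ (v + (x : X)) = 1 := by
    intro x
    have h1 : ξ (x : X) = 0 := x.2
    rw [map_add, h1, hξv, add_zero]
  have hcabs : |c| < 1 := by
    obtain ⟨x₀, hx₀⟩ := hne
    obtain ⟨_, _, z, hz, hflat⟩ := hmem ⟨x₀, hx₀⟩
    have h1 := hflat η (by rw [abs_of_pos hη])
    have h2 := hflat (-η) (by rw [abs_neg, abs_of_pos hη])
    have h3 := abs_le_norm_of_opNorm_le hξ (z + η • (v + ((x₀ : LinearMap.ker (ξ : X →ₗ[ℝ] ℝ)) : X)))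
    have h4 := abs_le_norm_of_opNorm_le hξ
      (z + (-η) • (v + ((x₀ : LinearMap.ker (ξ : X →ₗ[ℝ] ℝ)) : X)))
    rw [h1, map_add, map_smul, hξx, hz, smul_eq_mul, mul_one, abs_le] at h3
    rw [h2, map_add, map_smul, hξx, hz, smul_eq_mul, mul_one, abs_le] at h4
    rw [abs_lt]
    constructor <;> linarith [h3.1, h3.2, h4.1, h4.2]
  choose Z hZ1 hZ2 using fun x : T => (hmem x).2.2
  obtain ⟨C, hC⟩ : ∃ C : ℝ, C = 64 / η := ⟨_, rfl⟩
  have hC0 : 0 ≤ C := by rw [hC]; positivity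
  have hanti : AntilipschitzWith (Real.toNNReal C) Z := by
    refine AntilipschitzWith.of_le_mul_dist fun x y => ?_
    rw [Real.coe_toNNReal _ hC0, Subtype.dist_eq, Subtype.dist_eq, dist_eq_norm, dist_eq_norm]
    have hnx : ∀ x : T, ‖v + ((x : LinearMap.ker (ξ : X →ₗ[ℝ] ℝ)) : X)‖ ≤ 2 := by
      intro x
      have h1 := norm_add_le v ((x : LinearMap.ker (ξ : X →ₗ[ℝ] ℝ)) : X)
      have h2 := (hmem x).1
      rw [hv] at h1
      linarith
    have key := flat_lip hξ hker (u := v + ((y : LinearMap.ker (ξ : X →ₗ[ℝ] ℝ)) : X))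
      (u' := v + ((x : LinearMap.ker (ξ : X →ₗ[ℝ] ℝ)) : X)) (z := Z y) (z' := Z x) (c := c)
      (hξx _) (hξx _) (hnx y) (hnx x) (hZ1 y) (hZ1 x) hη hη' (hZ2 y) (hZ2 x) ?_
    · rw [add_sub_add_left_eq_sub, ← hC] at key
      exact key
    · intro φ hφ h1 h2 h3 h4
      by_contra hne
      exact (hmem y).2.1 φ (fac_of_flats hdim hφ hη h1 h3 h2 h4 (hξx _) (hξx _) hne (hZ2 y) (hZ2 x)) h2
  have h1 : dimH (univ : Set T) ≤ dimH (Z '' univ) := hanti.le_dimH_image univ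
  have h2 : Z '' univ ⊆ {z : X | ‖z‖ = 1 ∧ ξ z = c} := by
    rintro _ ⟨x, _, rfl⟩
    refine ⟨?_, hZ1 x⟩
    simpa using hZ2 x 0 (by simpa using hη.le)
  have h3 : dimH T = dimH (univ : Set T) := by
    have h4 := (isometry_subtype_coe (s := T)).dimH_image univ
    rw [Subtype.coe_image_univ] at h4
    exact h4
  rw [h3]
  exact h1.trans ((dimH_mono h2).trans (dimH_level hker hv hξv hcabs))

/-- A chord through levels: sliding a chord to a point of a level of the grid. -/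
lemma exists_chord_at_level {ξ : X →L[ℝ] ℝ} {η : ℝ} (hη : 0 < η) {u p : X} (hu : ξ u = 1)
    (hp : ∀ τ ∈ Icc (0 : ℝ) (3 * η), ‖p + τ • u‖ = 1) :
    ∃ k : ℤ, ∃ z : X, ξ z = (k : ℝ) * η ∧ ∀ s : ℝ, |s| ≤ η → ‖z + s • u‖ = 1 := by
  obtain ⟨k, hk⟩ : ∃ k : ℤ, k = ⌈(ξ p + η) / η⌉ := ⟨_, rfl⟩
  have hk1 : (ξ p + η) / η ≤ (k : ℝ) := by rw [hk]; exact Int.le_ceil _
  have hk2 : (k : ℝ) < (ξ p + η) / η + 1 := by rw [hk]; exact Int.ceil_lt_add_one _
  rw [div_le_iff₀ hη] at hk1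
  have hk3 : (k : ℝ) * η < ξ p + η + η := by
    have h1 := mul_lt_mul_of_pos_right hk2 hη
    have h2 : ((ξ p + η) / η + 1) * η = ξ p + η + η := by
      field_simp
    linarith
  obtain ⟨τ₀, hτ₀⟩ : ∃ τ₀ : ℝ, τ₀ = (k : ℝ) * η - ξ p := ⟨_, rfl⟩
  refine ⟨k, p + τ₀ • u, ?_, ?_⟩
  · rw [map_add, map_smul, hu, smul_eq_mul, mul_one, hτ₀]
    ring
  · intro s hs
    have hs' := abs_le.mp hs
    rw [add_assoc, ← add_smul]
    apply hp
    constructor
    · rw [hτ₀]; linarith [hs'.1]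
    · rw [hτ₀]; linarith [hs'.2]

theorem flatDir_dense_compl [FiniteDimensional ℝ X] (hdim : finrank ℝ X = 3) {d : ℝ} (hd : 0 < d)
    {v : X} (hv : ‖v‖ = 1) {ε : ℝ} (hε : 0 < ε) :
    ∃ v₁ : X, ‖v₁‖ = 1 ∧ ‖v₁ - v‖ < ε ∧ v₁ ∉ (FlatDir d : Set X) := by
  by_contra hcon
  push Not at hcon
  obtain ⟨ξ, hξ, hξv0⟩ := exists_dual_vector'' ℝ v
  have hξv : ξ v = 1 := by simpa [hv] using hξv0
  have hξ0 : (ξ : X →ₗ[ℝ] ℝ) ≠ 0 := by
    intro h0
    have h1 : (ξ : X →ₗ[ℝ] ℝ) v = 1 := hξv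
    rw [h0] at h1
    exact zero_ne_one h1
  have hker : finrank ℝ (LinearMap.ker (ξ : X →ₗ[ℝ] ℝ)) = 2 := by
    have := Module.Dual.finrank_ker_add_one_of_ne_zero (f := (ξ : X →ₗ[ℝ] ℝ)) hξ0
    omega
  obtain ⟨d₀, hd₀⟩ : ∃ d₀ : ℝ, d₀ = min d 1 := ⟨_, rfl⟩
  have hd₀pos : 0 < d₀ := by rw [hd₀]; exact lt_min hd one_pos
  have hd₀d : d₀ ≤ d := by rw [hd₀]; exact min_le_left _ _
  have hd₀1 : d₀ ≤ 1 := by rw [hd₀]; exact min_le_right _ _
  obtain ⟨η, hηd⟩ : ∃ η : ℝ, η = d₀ / 16 := ⟨_, rfl⟩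
  have hη : 0 < η := by rw [hηd]; positivity
  have hη' : η ≤ 1 / 16 := by rw [hηd]; linarith
  obtain ⟨ε₁, hε₁⟩ : ∃ ε₁ : ℝ, ε₁ = min (ε / 4) (1 / 2) := ⟨_, rfl⟩
  have hε₁pos : 0 < ε₁ := by rw [hε₁]; exact lt_min (by positivity) (by norm_num)
  have hε₁a : ε₁ ≤ ε / 4 := by rw [hε₁]; exact min_le_left _ _
  have hε₁b : ε₁ ≤ 1 / 2 := by rw [hε₁]; exact min_le_right _ _
  -- the covering
  have hcov : ball (0 : LinearMap.ker (ξ : X →ₗ[ℝ] ℝ)) ε₁ ⊆
      (⋃ φ ∈ (Fac : Set (X →L[ℝ] ℝ)), {x : LinearMap.ker (ξ : X →ₗ[ℝ] ℝ) | φ (v + (x : X)) = 0}) ∪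
      ⋃ k : ℤ, {x : LinearMap.ker (ξ : X →ₗ[ℝ] ℝ) | ‖(x : X)‖ ≤ 1 ∧
      (∀ φ ∈ (Fac : Set (X →L[ℝ] ℝ)), φ (v + (x : X)) ≠ 0) ∧
      ∃ z : X, ξ z = (k : ℝ) * η ∧ ∀ s : ℝ, |s| ≤ η → ‖z + s • (v + (x : X))‖ = 1} := by
    intro x hx
    rw [mem_ball_zero_iff] at hx
    have hx' : ‖(x : X)‖ < ε₁ := hx
    by_cases hfac : ∃ φ ∈ (Fac : Set (X →L[ℝ] ℝ)), φ (v + (x : X)) = 0
    · left
      obtain ⟨φ, hφ, h0⟩ := hfac
      simp only [mem_iUnion]
      exact ⟨φ, hφ, h0⟩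
    right
    push Not at hfac
    simp only [mem_iUnion]
    obtain ⟨u, hu⟩ : ∃ u : X, u = v + (x : X) := ⟨_, rfl⟩
    have hξu : ξ u = 1 := by
      have h1 : ξ (x : X) = 0 := x.2
      rw [hu, map_add, h1, hξv, add_zero]
    have hun1 : 1 ≤ ‖u‖ := by
      have := le_norm_of_opNorm_le hξ u
      rwa [hξu] at this
    have hun2 : ‖u‖ ≤ 1 + ‖(x : X)‖ := by
      have := norm_add_le v (x : X)
      rw [hv] at this
      rw [hu]
      exact this
    have hun0 : ‖u‖ ≠ 0 := by linarith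
    obtain ⟨u₁, hu₁⟩ : ∃ u₁ : X, u₁ = ‖u‖⁻¹ • u := ⟨_, rfl⟩
    have hu₁n : ‖u₁‖ = 1 := by
      rw [hu₁, norm_smul, norm_inv, norm_norm, inv_mul_cancel₀ hun0]
    have hu₁d : ‖u₁ - v‖ < ε := by
      have e : u₁ - v = (‖u‖⁻¹ - 1) • u + (x : X) := by
        have hv' : v = u - (x : X) := by rw [hu]; abel
        rw [hu₁, hv', sub_smul, one_smul]
        abel
      rw [e]
      have h1 : ‖(‖u‖⁻¹ - 1) • u‖ = ‖u‖ - 1 := by
        rw [norm_smul, Real.norm_eq_abs, abs_sub_comm, abs_of_nonneg, sub_mul,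
          inv_mul_cancel₀ hun0, one_mul]
        rw [sub_nonneg]
        exact inv_le_one_of_one_le₀ hun1
      have h2 := norm_add_le ((‖u‖⁻¹ - 1) • u) (x : X)
      rw [h1] at h2
      linarith
    obtain ⟨_, p, hp⟩ := hcon u₁ hu₁n hu₁d
    have hp' : ∀ τ ∈ Icc (0 : ℝ) (3 * η), ‖p + τ • u‖ = 1 := by
      intro τ hτ
      have e : τ • u = (τ * ‖u‖) • u₁ := by
        rw [hu₁, smul_smul, mul_assoc, mul_inv_cancel₀ hun0, mul_one]
      rw [e]
      apply hp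
      constructor
      · exact mul_nonneg hτ.1 (norm_nonneg _)
      · have h1 : ‖u‖ ≤ 3 / 2 := by linarith
        have h2 : τ * ‖u‖ ≤ (3 * η) * (3 / 2) :=
          mul_le_mul hτ.2 h1 (norm_nonneg _) (by positivity)
        rw [hηd] at h2
        linarith
    obtain ⟨k, z, hz1, hz2⟩ := exists_chord_at_level hη hξu hp'
    refine ⟨k, ?_, hfac, z, hz1, ?_⟩
    · linarith
    · rw [← hu]
      exact hz2
  have hfinH : FiniteDimensional ℝ (LinearMap.ker (ξ : X →ₗ[ℝ] ℝ)) := inferInstance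
  have hball : dimH (ball (0 : LinearMap.ker (ξ : X →ₗ[ℝ] ℝ)) ε₁) = 2 := by
    rw [Real.dimH_of_mem_nhds (ball_mem_nhds _ hε₁pos), hker]
    rfl
  have hle := dimH_mono hcov
  rw [hball, dimH_union, dimH_bUnion countable_fac, dimH_iUnion] at hle
  have h3 : (2 : ℝ≥0∞) ≤ 1 := by
    refine hle.trans (max_le ?_ ?_)
    · exact iSup₂_le fun φ hφ => dimH_fac_line hker hv hξv hφ
    · exact iSup_le fun k => dimH_level_dirs hdim hξ hker hv hξv hη hη' _
  exact absurd h3 (by norm_num)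

end Vale.Agent.Lib.P084.D3
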