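/-
Step 0: `DSet` is closed and nowhere dense in the sphere (dimension 3).  `DSet` is the set `FlatDir 1`
of directions of unit segments contained in the sphere; see `FlatDir.lean` for the dimension count.
-/
import Vale.Agent.Lib.P084.D3.Calc
import Vale.Agent.Lib.P084.D3.FlatDir

namespace Vale.Agent.Lib.P084.D3

variable {X : Type*} [NormedAddCommGroup X] [NormedSpace ℝ X]

/-- `DSet` is the set of directions of unit segments contained in the sphere. -/
theorem dSet_eq_flatDir : (DSet : Set X) = FlatDir 1 := by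
  ext x
  constructor
  · rintro ⟨hx, c, ⟨hc, hxc⟩, φ, ⟨hφ, hφc⟩, hφx⟩
    refine ⟨hx, c - x, fun t ht => ?_⟩
    have e : c - x + t • x = (1 - t) • (c - x) + t • c := by module
    have hcx : ‖c - x‖ = 1 := by rw [norm_sub_rev]; exact hxc
    apply le_antisymm
    · rw [e]
      calc ‖(1 - t) • (c - x) + t • c‖ ≤ ‖(1 - t) • (c - x)‖ + ‖t • c‖ := norm_add_le _ _
        _ = 1 := by
            rw [norm_smul, norm_smul, hcx, hc, Real.norm_of_nonneg (by linarith [ht.2]),
              Real.norm_of_nonneg ht.1]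
            ring
    · have h1 := le_norm_of_opNorm_le hφ (c - x + t • x)
      rw [map_add, map_sub, map_smul, hφc, hφx, smul_zero, sub_zero, add_zero] at h1
      exact h1
  · rintro ⟨hx, p, hp⟩
    have hp0 : ‖p‖ = 1 := by simpa using hp 0 ⟨le_rfl, zero_le_one⟩
    have hp1 : ‖p + x‖ = 1 := by simpa using hp 1 ⟨zero_le_one, le_rfl⟩
    have hph : ‖p + (1 / 2 : ℝ) • x‖ = 1 := hp _ ⟨by norm_num, by norm_num⟩
    obtain ⟨φ, hφ, hφq0⟩ := exists_dual_vector'' ℝ (p + (1 / 2 : ℝ) • x)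
    have hφq : φ (p + (1 / 2 : ℝ) • x) = 1 := by
      rw [hφq0, hph]
      simp
    have hφx : φ x = 0 := by
      refine dual_flat hφ (η := 1 / 2) (by norm_num) hφq ?_ ?_
      · have e : p + (1 / 2 : ℝ) • x + (1 / 2 : ℝ) • x = p + x := by module
        rw [e]; exact hp1
      · have e : p + (1 / 2 : ℝ) • x - (1 / 2 : ℝ) • x = p := by module
        rw [e]; exact hp0
    refine ⟨hx, p + x, ⟨hp1, ?_⟩, φ, ⟨hφ, ?_⟩, hφx⟩
    · have e : x - (p + x) = -p := by abel
      rw [e, norm_neg]; exact hp0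
    · rw [map_add, hφx, add_zero]
      rw [map_add, map_smul, hφx, smul_zero, add_zero] at hφq
      exact hφq

variable [FiniteDimensional ℝ X]

theorem isClosed_DSet : IsClosed (DSet : Set X) := by
  rw [dSet_eq_flatDir]
  exact isClosed_flatDir 1

theorem exists_notD_near (hdim : Module.finrank ℝ X = 3) {z : X} (hz : ‖z‖ = 1) {ε : ℝ} (hε : 0 < ε) :
    ∃ x : X, ‖x‖ = 1 ∧ x ∉ (DSet : Set X) ∧ ‖x - z‖ < ε := by
  obtain ⟨v₁, h1, h2, h3⟩ := flatDir_dense_compl hdim one_pos hz hε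
  refine ⟨v₁, h1, ?_, h2⟩
  rw [dSet_eq_flatDir]
  exact h3

end Vale.Agent.Lib.P084.D3
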