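/-
P084 dim 3, shared module SMOOTH (helper97): norming functionals, differentiable points of a
norm, upper semicontinuity, residual set of doubly smooth points of the sphere.
Mathlib only.
-/
import Mathlib

open Set Metric Filter Topology MeasureTheory

namespace Vale.Agent.Lib.P084.D3

variable {X : Type*} [NormedAddCommGroup X] [NormedSpace ℝ X]

/-- `φ` is a norming functional of `x`. -/
def IsNorming (φ : X →L[ℝ] ℝ) (x : X) : Prop := ‖φ‖ ≤ 1 ∧ φ x = ‖x‖

theorem exists_isNorming (x : X) : ∃ φ : X →L[ℝ] ℝ, IsNorming φ x := by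
  obtain ⟨g, h1, h2⟩ := exists_dual_vector'' ℝ x
  exact ⟨g, h1, by simpa using h2⟩

theorem IsNorming.le {φ : X →L[ℝ] ℝ} {x : X} (h : IsNorming φ x) (y : X) : φ y ≤ ‖y‖ := by
  have h1 := φ.le_opNorm y
  have h2 : |φ y| ≤ ‖y‖ := by
    calc |φ y| = ‖φ y‖ := (Real.norm_eq_abs _).symm
      _ ≤ ‖φ‖ * ‖y‖ := h1
      _ ≤ 1 * ‖y‖ := by gcongr; exact h.1
      _ = ‖y‖ := one_mul _
  exact (le_abs_self _).trans h2

theorem IsNorming.abs_le {φ : X →L[ℝ] ℝ} {x : X} (h : IsNorming φ x) (y : X) : |φ y| ≤ ‖y‖ := by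
  refine _root_.abs_le.mpr ⟨?_, ?_⟩
  · have := h.le (-y)
    simp only [map_neg, norm_neg] at this
    linarith
  · exact h.le y

/-- scaling: a linear inequality for small vectors holds for all vectors -/
theorem le_of_small (ℓ : X →L[ℝ] ℝ) {ε δ : ℝ} (hδ : 0 < δ)
    (h : ∀ d : X, ‖d‖ < δ → ℓ d ≤ ε * ‖d‖) (d : X) : ℓ d ≤ ε * ‖d‖ := by
  by_cases hd : d = 0
  · simp [hd]
  have hn : 0 < ‖d‖ := norm_pos_iff.mpr hd
  set t : ℝ := δ / (2 * ‖d‖) with ht
  have htpos : 0 < t := by positivity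
  have hsm : ‖t • d‖ < δ := by
    rw [norm_smul, Real.norm_eq_abs, abs_of_pos htpos, ht]
    field_simp
    linarith
  have := h (t • d) hsm
  rw [map_smul, smul_eq_mul, norm_smul, Real.norm_eq_abs, abs_of_pos htpos] at this
  have h2 : t * ℓ d ≤ t * (ε * ‖d‖) := by nlinarith
  exact le_of_mul_le_mul_left h2 htpos

/-- Expansion of the norm at a point of differentiability, epsilon-delta form. -/
theorem expansion {x : X} {φ : X →L[ℝ] ℝ} (h : HasFDerivAt (fun z : X => ‖z‖) φ x) {ε : ℝ}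
    (hε : 0 < ε) : ∃ δ > 0, ∀ d : X, ‖d‖ < δ → |‖x + d‖ - ‖x‖ - φ d| ≤ ε * ‖d‖ := by
  have h1 := (hasFDerivAt_iff_isLittleO_nhds_zero.mp h)
  have h2 := h1.def hε
  rw [Metric.eventually_nhds_iff] at h2
  obtain ⟨δ, hδ, h3⟩ := h2
  refine ⟨δ, hδ, fun d hd => ?_⟩
  have := h3 (y := d) (by simpa using hd)
  simpa [Real.norm_eq_abs] using this

/-- The derivative of the norm at a nonzero point is a norming functional. -/
theorem hasFDerivAt_isNorming {x : X} {φ : X →L[ℝ] ℝ} (h : HasFDerivAt (fun z : X => ‖z‖) φ x) :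
    IsNorming φ x := by
  constructor
  · refine ContinuousLinearMap.opNorm_le_bound _ zero_le_one fun d => ?_
    have key : ∀ d : X, φ d ≤ ‖d‖ := by
      intro d
      refine le_of_forall_pos_le_add fun ε hε => ?_
      by_cases hd : d = 0
      · simp [hd, hε.le]
      have hn : 0 < ‖d‖ := norm_pos_iff.mpr hd
      obtain ⟨δ, hδ, h3⟩ := expansion h (ε := ε / ‖d‖) (by positivity)
      have h4 : φ d ≤ (1 + ε / ‖d‖) * ‖d‖ := by
        refine le_of_small φ hδ (fun e he => ?_) d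
        have h5 := h3 e he
        have h6 := (_root_.abs_le.mp h5).1
        have h7 : ‖x + e‖ ≤ ‖x‖ + ‖e‖ := norm_add_le _ _
        nlinarith
      have : (1 + ε / ‖d‖) * ‖d‖ = ‖d‖ + ε := by field_simp
      linarith
    rw [Real.norm_eq_abs, abs_le]
    constructor
    · have := key (-d)
      simp only [map_neg, norm_neg] at this
      linarith
    · simpa using key d
  · -- value at x
    by_cases hx : x = 0
    · simp [hx]
    have hn : 0 < ‖x‖ := norm_pos_iff.mpr hx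
    have key : ∀ ε > 0, |φ x - ‖x‖| ≤ ε * ‖x‖ := by
      intro ε hε
      obtain ⟨δ, hδ, h3⟩ := expansion h hε
      set t : ℝ := min (δ / (2 * ‖x‖)) 1 with ht
      have htpos : 0 < t := by positivity
      have ht1 : t ≤ 1 := min_le_right _ _
      have ht2 : t * ‖x‖ < δ := by
        have : t ≤ δ / (2 * ‖x‖) := min_le_left _ _
        calc t * ‖x‖ ≤ δ / (2 * ‖x‖) * ‖x‖ := by gcongr
          _ = δ / 2 := by field_simp
          _ < δ := by linarith
      have h5 := h3 (t • x) (by rw [norm_smul, Real.norm_eq_abs, abs_of_pos htpos]; exact ht2)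
      have h6 : x + t • x = (1 + t) • x := by rw [add_smul, one_smul]
      rw [h6, norm_smul, map_smul, smul_eq_mul, norm_smul, Real.norm_eq_abs,
        Real.norm_eq_abs, abs_of_pos (by linarith : (0 : ℝ) < 1 + t), abs_of_pos htpos] at h5
      have h7 : (1 + t) * ‖x‖ - ‖x‖ - t * φ x = t * (‖x‖ - φ x) := by ring
      rw [h7, abs_mul, abs_of_pos htpos] at h5
      have h8 : t * |‖x‖ - φ x| ≤ t * (ε * ‖x‖) := by nlinarith
      have h9 := le_of_mul_le_mul_left h8 htpos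
      rwa [abs_sub_comm] at h9
    have h0 : |φ x - ‖x‖| ≤ 0 := by
      refine le_of_forall_pos_le_add fun ε hε => ?_
      have := key (ε / ‖x‖) (by positivity)
      have h2 : ε / ‖x‖ * ‖x‖ = ε := by field_simp
      linarith
    have h1 : |φ x - ‖x‖| = 0 := le_antisymm h0 (abs_nonneg _)
    have h2 := abs_eq_zero.mp h1
    linarith

/-- At a point of differentiability the norming functional is unique. -/
theorem isNorming_unique {x : X} {φ ψ : X →L[ℝ] ℝ} (h : HasFDerivAt (fun z : X => ‖z‖) φ x)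
    (hψ : IsNorming ψ x) : ψ = φ := by
  have key : ∀ ε > 0, ∀ d : X, (ψ - φ) d ≤ ε * ‖d‖ := by
    intro ε hε d
    obtain ⟨δ, hδ, h3⟩ := expansion h hε
    refine le_of_small (ψ - φ) hδ (fun e he => ?_) d
    have h5 := (_root_.abs_le.mp (h3 e he)).2
    have h6 := hψ.le (x + e)
    rw [map_add, hψ.2] at h6
    simp only [ContinuousLinearMap.sub_apply]
    linarith
  have key2 : ∀ d : X, (ψ - φ) d ≤ 0 := by
    intro d
    by_cases hd : d = 0
    · simp [hd]
    have hn : 0 < ‖d‖ := norm_pos_iff.mpr hd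
    refine le_of_forall_pos_le_add fun ε hε => ?_
    have := key (ε / ‖d‖) (by positivity) d
    have h2 : ε / ‖d‖ * ‖d‖ = ε := by field_simp
    linarith
  ext d
  have h1 := key2 d
  have h2 := key2 (-d)
  simp only [ContinuousLinearMap.sub_apply, map_neg] at h1 h2
  linarith

theorem DifferentiableAt.isNorming {x : X} (h : DifferentiableAt ℝ (fun z : X => ‖z‖) x) :
    IsNorming (fderiv ℝ (fun z : X => ‖z‖) x) x :=
  hasFDerivAt_isNorming h.hasFDerivAt

theorem isNorming_eq_fderiv {x : X} (h : DifferentiableAt ℝ (fun z : X => ‖z‖) x)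
    {ψ : X →L[ℝ] ℝ} (hψ : IsNorming ψ x) : ψ = fderiv ℝ (fun z : X => ‖z‖) x :=
  isNorming_unique h.hasFDerivAt hψ

section FD

variable [FiniteDimensional ℝ X]

omit [FiniteDimensional ℝ X] in
theorem tendsto_clm_apply {ι : Type*} {l : Filter ι} {χ : ι → X →L[ℝ] ℝ} {a : X →L[ℝ] ℝ}
    {y : ι → X} {x : X} (hχ : Tendsto χ l (𝓝 a)) (hy : Tendsto y l (𝓝 x)) :
    Tendsto (fun i => χ i (y i)) l (𝓝 (a x)) := by
  have hc : Continuous fun p : (X →L[ℝ] ℝ) × X => p.1 p.2 := isBoundedBilinearMap_apply.continuous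
  exact (hc.tendsto (a, x)).comp (hχ.prodMk_nhds hy)

theorem isCompact_dualBall : IsCompact (closedBall (0 : X →L[ℝ] ℝ) 1) := by
  haveI : FiniteDimensional ℝ (X →L[ℝ] ℝ) := inferInstance
  haveI : ProperSpace (X →L[ℝ] ℝ) := FiniteDimensional.proper ℝ _
  exact isCompact_closedBall 0 1

/-- Upper semicontinuity of the norming functionals, epsilon-delta form, at a point where the
norming functional is unique. -/
theorem usc_of_unique {x : X} {φ : X →L[ℝ] ℝ} (huniq : ∀ ψ : X →L[ℝ] ℝ, IsNorming ψ x → ψ = φ)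
    {ε : ℝ} (hε : 0 < ε) :
    ∃ δ > 0, ∀ y : X, ∀ χ : X →L[ℝ] ℝ, ‖y - x‖ < δ → IsNorming χ y → ‖χ - φ‖ < ε := by
  by_contra hcon
  push Not at hcon
  -- sequences
  have h1 : ∀ n : ℕ, ∃ y : X, ∃ χ : X →L[ℝ] ℝ, ‖y - x‖ < 1 / ((n : ℝ) + 1) ∧ IsNorming χ y ∧
      ε ≤ ‖χ - φ‖ := fun n => hcon _ (by positivity)
  choose y χ hy hχ hεχ using h1
  have hmem : ∀ n, χ n ∈ closedBall (0 : X →L[ℝ] ℝ) 1 := fun n => by
    simpa using (hχ n).1
  obtain ⟨a, ha, σ, hσ, hlim⟩ := isCompact_dualBall.tendsto_subseq hmem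
  have hyl : Tendsto y atTop (𝓝 x) := by
    rw [tendsto_iff_norm_sub_tendsto_zero]
    refine squeeze_zero (fun n => norm_nonneg _) (fun n => (hy n).le) ?_
    exact tendsto_one_div_add_atTop_nhds_zero_nat
  have hyσ := hyl.comp hσ.tendsto_atTop
  have ha1 : IsNorming a x := by
    refine ⟨by simpa using ha, ?_⟩
    have h2 : Tendsto (fun n => (χ ∘ σ) n ((y ∘ σ) n)) atTop (𝓝 (a x)) :=
      tendsto_clm_apply hlim hyσ
    have h3 : Tendsto (fun n => ‖(y ∘ σ) n‖) atTop (𝓝 ‖x‖) := hyσ.norm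
    have h4 : (fun n => (χ ∘ σ) n ((y ∘ σ) n)) = fun n => ‖(y ∘ σ) n‖ := by
      funext n
      exact (hχ (σ n)).2
    rw [h4] at h2
    exact tendsto_nhds_unique h2 h3
  have ha2 := huniq a ha1
  have h5 : Tendsto (fun n => ‖(χ ∘ σ) n - φ‖) atTop (𝓝 ‖a - φ‖) := (hlim.sub_const φ).norm
  rw [ha2, sub_self, norm_zero] at h5
  have h6 : ∀ᶠ n in atTop, ‖(χ ∘ σ) n - φ‖ < ε := h5.eventually (gt_mem_nhds hε)
  obtain ⟨n, hn⟩ := h6.exists
  exact absurd hn (not_lt.mpr (hεχ (σ n)))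

/-- Upper semicontinuity at a point of differentiability. -/
theorem usc_fderiv {x : X} (h : DifferentiableAt ℝ (fun z : X => ‖z‖) x) {ε : ℝ} (hε : 0 < ε) :
    ∃ δ > 0, ∀ y : X, ∀ χ : X →L[ℝ] ℝ, ‖y - x‖ < δ → IsNorming χ y →
      ‖χ - fderiv ℝ (fun z : X => ‖z‖) x‖ < ε :=
  usc_of_unique (fun _ hψ => isNorming_eq_fderiv h hψ) hε

omit [FiniteDimensional ℝ X] in
/-- Limits of norming functionals are norming. -/
theorem IsNorming.of_tendsto {ι : Type*} {l : Filter ι} [l.NeBot] {y : ι → X} {χ : ι → X →L[ℝ] ℝ}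
    {x : X} {a : X →L[ℝ] ℝ} (hy : Tendsto y l (𝓝 x)) (hχ : Tendsto χ l (𝓝 a))
    (h : ∀ i, IsNorming (χ i) (y i)) : IsNorming a x := by
  constructor
  · have h1 : Tendsto (fun i => ‖χ i‖) l (𝓝 ‖a‖) := hχ.norm
    exact le_of_tendsto h1 (Eventually.of_forall fun i => (h i).1)
  · have h2 : Tendsto (fun i => χ i (y i)) l (𝓝 (a x)) := tendsto_clm_apply hχ hy
    have h3 : Tendsto (fun i => ‖y i‖) l (𝓝 ‖x‖) := hy.norm
    have h4 : (fun i => χ i (y i)) = fun i => ‖y i‖ := by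
      funext i
      exact (h i).2
    rw [h4] at h2
    exact tendsto_nhds_unique h2 h3

/-- A point with a unique norming functional is a point of differentiability. -/
theorem hasFDerivAt_of_unique {x : X} {φ : X →L[ℝ] ℝ} (hφ : IsNorming φ x)
    (huniq : ∀ ψ : X →L[ℝ] ℝ, IsNorming ψ x → ψ = φ) :
    HasFDerivAt (fun z : X => ‖z‖) φ x := by
  rw [hasFDerivAt_iff_isLittleO_nhds_zero, Asymptotics.isLittleO_iff]
  intro ε hε
  obtain ⟨δ, hδ, h⟩ := usc_of_unique huniq hε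
  rw [Metric.eventually_nhds_iff]
  refine ⟨δ, hδ, fun d hd => ?_⟩
  have hd' : ‖d‖ < δ := by simpa using hd
  obtain ⟨χ, hχ⟩ := exists_isNorming (x + d)
  have h1 := h (x + d) χ (by simpa using hd') hχ
  have h2 := hφ.le (x + d)
  rw [map_add, hφ.2] at h2
  have h3 := hχ.le x
  have h4 := hχ.2
  rw [map_add] at h4
  have h5 : (χ - φ) d ≤ ‖χ - φ‖ * ‖d‖ := by
    have := (χ - φ).le_opNorm d
    exact (le_abs_self _).trans this
  simp only [ContinuousLinearMap.sub_apply] at h5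
  have h6 : ‖χ - φ‖ * ‖d‖ ≤ ε * ‖d‖ := by
    have := norm_nonneg d
    gcongr
  have h7 : 0 ≤ ε * ‖d‖ := by positivity
  rw [Real.norm_eq_abs, _root_.abs_le]
  have h8 : ‖x + d - x‖ = ‖d‖ := by rw [add_sub_cancel_left]
  constructor <;> linarith

/-- Differentiable points are dense on the sphere. -/
theorem dense_diff_sphere (x₀ : X) (hx₀ : ‖x₀‖ = 1) {ε : ℝ} (hε : 0 < ε) :
    ∃ y : X, ‖y‖ = 1 ∧ ‖y - x₀‖ < ε ∧ DifferentiableAt ℝ (fun z : X => ‖z‖) y := by
  letI : MeasurableSpace X := borel X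
  haveI : BorelSpace X := ⟨rfl⟩
  have hae : ∀ᵐ z ∂(Measure.addHaar : Measure X), DifferentiableAt ℝ (fun z : X => ‖z‖) z :=
    ae_differentiableAt_norm
  have hd : Dense {z : X | DifferentiableAt ℝ (fun z : X => ‖z‖) z} :=
    Measure.dense_of_ae hae
  set η : ℝ := min (ε / 2) (1 / 2) with hη
  have hηpos : 0 < η := by positivity
  obtain ⟨z, hzd, hz⟩ := hd.exists_mem_open isOpen_ball ⟨x₀, mem_ball_self hηpos⟩
  have hz1 : ‖z - x₀‖ < η := by simpa [dist_eq_norm] using hz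
  have hη1 : η ≤ 1 / 2 := min_le_right _ _
  have hη2 : η ≤ ε / 2 := min_le_left _ _
  have hzn : 1 / 2 ≤ ‖z‖ := by
    have := norm_sub_norm_le x₀ z
    rw [norm_sub_rev x₀ z, hx₀] at this
    linarith
  have hzpos : 0 < ‖z‖ := by linarith
  refine ⟨‖z‖⁻¹ • z, ?_, ?_, ?_⟩
  · rw [norm_smul, norm_inv, norm_norm]
    field_simp
  · have h1 : ‖z‖⁻¹ • z - x₀ = (‖z‖⁻¹ • z - z) + (z - x₀) := by abel
    have h2 : ‖‖z‖⁻¹ • z - z‖ = |1 - ‖z‖| := by
      have h3 : ‖z‖⁻¹ • z - z = (‖z‖⁻¹ - 1) • z := by rw [sub_smul, one_smul]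
      rw [h3, norm_smul, Real.norm_eq_abs]
      have h6 : |‖z‖⁻¹ - 1| * ‖z‖ = |(‖z‖⁻¹ - 1) * ‖z‖| := by
        rw [abs_mul, abs_of_pos hzpos]
      rw [h6]
      have h7 : (‖z‖⁻¹ - 1) * ‖z‖ = 1 - ‖z‖ := by field_simp
      rw [h7]
    have h4 : |1 - ‖z‖| ≤ ‖z - x₀‖ := by
      have := abs_norm_sub_norm_le z x₀
      rw [hx₀] at this
      rwa [abs_sub_comm]
    rw [h1]
    have h5 := norm_add_le (‖z‖⁻¹ • z - z) (z - x₀)
    rw [h2] at h5
    linarith
  · -- homogeneity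
    set c : ℝ := ‖z‖ with hc
    have hcomp : DifferentiableAt ℝ (fun u : X => c⁻¹ * ‖c • u‖) (c⁻¹ • z) := by
      have h1 : DifferentiableAt ℝ (fun u : X => c • u) (c⁻¹ • z) :=
        (differentiableAt_id).const_smul c
      have h2 : c • c⁻¹ • z = z := by rw [smul_smul, mul_inv_cancel₀ hzpos.ne', one_smul]
      have h3 : DifferentiableAt ℝ (fun w : X => ‖w‖) (c • c⁻¹ • z) := by rw [h2]; exact hzd
      have h4 : DifferentiableAt ℝ (fun u : X => ‖c • u‖) (c⁻¹ • z) := h3.comp (c⁻¹ • z) h1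
      exact h4.const_mul _
    have heq : (fun u : X => c⁻¹ * ‖c • u‖) = fun u : X => ‖u‖ := by
      funext u
      rw [norm_smul, Real.norm_eq_abs, abs_of_pos hzpos, ← mul_assoc, inv_mul_cancel₀ hzpos.ne',
        one_mul]
    rwa [heq] at hcomp

/-- The set of sphere points whose norming functionals have oscillation `≥ ε` is closed. -/
theorem isClosed_bad {ε : ℝ} :
    IsClosed {x : X | ‖x‖ = 1 ∧ ∃ φ ψ : X →L[ℝ] ℝ, IsNorming φ x ∧ IsNorming ψ x ∧ ε ≤ ‖φ - ψ‖} := by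
  haveI : ProperSpace X := FiniteDimensional.proper ℝ _
  have hK : IsCompact (sphere (0 : X) 1 ×ˢ (closedBall (0 : X →L[ℝ] ℝ) 1 ×ˢ
      closedBall (0 : X →L[ℝ] ℝ) 1)) :=
    (isCompact_sphere _ _).prod (isCompact_dualBall.prod isCompact_dualBall)
  set A : Set (X × (X →L[ℝ] ℝ) × (X →L[ℝ] ℝ)) :=
    (sphere (0 : X) 1 ×ˢ (closedBall (0 : X →L[ℝ] ℝ) 1 ×ˢ closedBall (0 : X →L[ℝ] ℝ) 1)) ∩
      ({p | p.2.1 p.1 = 1} ∩ ({p | p.2.2 p.1 = 1} ∩ {p | ε ≤ ‖p.2.1 - p.2.2‖})) with hA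
  have hAc : IsCompact A := by
    refine hK.inter_right ?_
    have hc1 : Continuous fun p : X × (X →L[ℝ] ℝ) × (X →L[ℝ] ℝ) => p.2.1 p.1 :=
      (continuous_snd.fst).clm_apply continuous_fst
    have hc2 : Continuous fun p : X × (X →L[ℝ] ℝ) × (X →L[ℝ] ℝ) => p.2.2 p.1 :=
      (continuous_snd.snd).clm_apply continuous_fst
    have hc3 : Continuous fun p : X × (X →L[ℝ] ℝ) × (X →L[ℝ] ℝ) => ‖p.2.1 - p.2.2‖ :=
      ((continuous_snd.fst).sub (continuous_snd.snd)).norm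
    exact (isClosed_eq hc1 continuous_const).inter
      ((isClosed_eq hc2 continuous_const).inter (isClosed_le continuous_const hc3))
  have hI := (hAc.image continuous_fst).isClosed
  convert hI using 1
  ext x
  constructor
  · rintro ⟨hx, φ, ψ, hφ, hψ, h⟩
    refine ⟨(x, φ, ψ), ⟨⟨by simpa using hx, by simpa using hφ.1, by simpa using hψ.1⟩, ?_, ?_, h⟩, rfl⟩
    · simpa [hx] using hφ.2
    · simpa [hx] using hψ.2
  · rintro ⟨⟨y, φ, ψ⟩, ⟨⟨h1, h2, h3⟩, h4, h5, h6⟩, rfl⟩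
    have hy : ‖y‖ = 1 := by simpa using h1
    refine ⟨hy, φ, ψ, ⟨by simpa using h2, ?_⟩, ⟨by simpa using h3, ?_⟩, h6⟩
    · rw [hy]; exact h4
    · rw [hy]; exact h5

/-- **Residual smoothness.** Generic points of the sphere are points of differentiability of the
norm. -/
theorem residual_diff_norm :
    ∀ᶠ x : sphere (0 : X) 1 in residual _, DifferentiableAt ℝ (fun z : X => ‖z‖) (x : X) := by
  have hU : ∀ n : ℕ, {x : sphere (0 : X) 1 | ¬ ∃ φ ψ : X →L[ℝ] ℝ, IsNorming φ (x : X) ∧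
      IsNorming ψ (x : X) ∧ 1 / ((n : ℝ) + 1) ≤ ‖φ - ψ‖} ∈ residual (sphere (0 : X) 1) := by
    intro n
    refine residual_of_dense_open ?_ ?_
    · have h1 := (isClosed_bad (X := X) (ε := 1 / ((n : ℝ) + 1))).preimage
        (continuous_subtype_val (p := (· ∈ sphere (0 : X) 1)))
      have h2 := h1.isOpen_compl
      convert h2 using 1
      ext x
      have hx : ‖(x : X)‖ = 1 := by simpa using x.2
      simp [hx]
    · rw [dense_iff_inter_open]
      rintro W hW ⟨w, hw⟩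
      obtain ⟨W', hW', rfl⟩ := isOpen_induced_iff.mp hW
      obtain ⟨ε, hε, hb⟩ := Metric.isOpen_iff.mp hW' (w : X) hw
      have hw1 : ‖(w : X)‖ = 1 := by simpa using w.2
      obtain ⟨y, hy1, hy2, hy3⟩ := dense_diff_sphere (w : X) hw1 hε
      refine ⟨⟨y, by simpa using hy1⟩, hb (by simpa [dist_eq_norm] using hy2), ?_⟩
      rintro ⟨φ, ψ, hφ, hψ, h⟩
      have e1 := isNorming_eq_fderiv hy3 hφ
      have e2 := isNorming_eq_fderiv hy3 hψ
      rw [e1, e2, sub_self, norm_zero] at h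
      have : (0 : ℝ) < 1 / ((n : ℝ) + 1) := by positivity
      exact absurd h (not_le.mpr this)
  have hall := (countable_iInter_mem (l := residual (sphere (0 : X) 1))).mpr hU
  filter_upwards [hall] with x hx
  simp only [mem_iInter, mem_setOf_eq] at hx
  obtain ⟨φ, hφ⟩ := exists_isNorming (x : X)
  refine (hasFDerivAt_of_unique hφ ?_).differentiableAt
  intro ψ hψ
  by_contra hne
  have hpos : 0 < ‖ψ - φ‖ := norm_pos_iff.mpr (sub_ne_zero.mpr hne)
  obtain ⟨n, hn⟩ := exists_nat_one_div_lt hpos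
  exact hx n ⟨ψ, φ, hψ, hφ, hn.le⟩

end FD

/-- Generic points of the sphere of `X` are sent to points of differentiability of the norm of
`Y` by a surjective isometry of spheres. -/
theorem residual_diff_norm_pullback {X : Type*} [NormedAddCommGroup X] {Y : Type*} [NormedAddCommGroup Y] [NormedSpace ℝ Y]
    [FiniteDimensional ℝ Y] (g : sphere (0 : X) 1 → sphere (0 : Y) 1)
    (hg : Isometry g) (hs : Function.Surjective g) :
    ∀ᶠ x : sphere (0 : X) 1 in residual _, DifferentiableAt ℝ (fun z : Y => ‖z‖) (g x : Y) := by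
  have hopen : IsOpenMap g := by
    let e : sphere (0 : X) 1 ≃ᵢ sphere (0 : Y) 1 :=
      IsometryEquiv.mk (Equiv.ofBijective g ⟨hg.injective, hs⟩) hg
    exact e.toHomeomorph.isOpenMap
  exact (tendsto_residual_of_isOpenMap hg.continuous hopen).eventually residual_diff_norm

end Vale.Agent.Lib.P084.D3
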