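/-
Residual sets on the sphere: smooth points (Rademacher: `LipschitzWith.ae_differentiableAt`; a norm
differentiable at `c` has a unique norming functional; `{c : diam Nrm c < 1/n}` is open), complement of
`DSet`.
-/
import Vale.Agent.Lib.P084.D3.DLemma
import Vale.Agent.Lib.P084.D3.Smooth

namespace Vale.Agent.Lib.P084.D3

open Vale.Agent.Lib.P084.UC

variable {X Y : Type*} [NormedAddCommGroup X] [NormedSpace ℝ X] [FiniteDimensional ℝ X]
  [NormedAddCommGroup Y] [NormedSpace ℝ Y] [FiniteDimensional ℝ Y]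

/-- The unit sphere as a type. -/
abbrev Sph (X : Type*) [NormedAddCommGroup X] [NormedSpace ℝ X] := Metric.sphere (0 : X) 1

omit [FiniteDimensional ℝ X] in
/-- A point of differentiability of the norm on the sphere is smooth in the sense of `Sm`. -/
theorem Sm.of_differentiableAt {c : X} (hc1 : ‖c‖ = 1)
    (hc : DifferentiableAt ℝ (fun z : X => ‖z‖) c) : Sm c := by
  intro φ hφ
  have h1 : IsNorming φ c := ⟨hφ.1, by rw [hφ.2, hc1]⟩
  have h0 := nr_mem hc1
  have h2 : IsNorming (nr c) c := ⟨h0.1, by rw [h0.2, hc1]⟩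
  rw [isNorming_eq_fderiv hc h1, isNorming_eq_fderiv hc h2]

theorem residual_sm (_hX : Nontrivial X) : {c : Sph X | Sm (c : X)} ∈ residual (Sph X) := by
  have h := residual_diff_norm (X := X)
  filter_upwards [h] with c hc
  have hc1 : ‖(c : X)‖ = 1 := by simpa using c.2
  exact Sm.of_differentiableAt hc1 hc

/-- `f` is a homeomorphism of the spheres. -/
theorem residual_sm_comp {f : X → Y} (_hX : Nontrivial X) (hf : IsSphereIso f) :
    {c : Sph X | Sm (f (c : X))} ∈ residual (Sph X) := by
  let g : Sph X → Sph Y := fun x => ⟨f (x : X), by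
    have hx : ‖(x : X)‖ = 1 := by simpa using x.2
    simpa using hf.norm_eq _ hx⟩
  have hiso : Isometry g := by
    refine Isometry.of_dist_eq fun a b => ?_
    have ha : ‖(a : X)‖ = 1 := by simpa using a.2
    have hb : ‖(b : X)‖ = 1 := by simpa using b.2
    change dist (f (a : X)) (f (b : X)) = dist (a : X) (b : X)
    rw [dist_eq_norm, dist_eq_norm]
    exact hf.iso _ _ ha hb
  have hsurj : Function.Surjective g := by
    intro y
    have hy : ‖(y : Y)‖ = 1 := by simpa using y.2
    obtain ⟨x, hx, hxy⟩ := hf.surj _ hy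
    refine ⟨⟨x, by simpa using hx⟩, ?_⟩
    exact Subtype.ext hxy
  have h := residual_diff_norm_pullback g hiso hsurj
  filter_upwards [h] with c hc
  have hc1 : ‖f (c : X)‖ = 1 := by
    have hx : ‖(c : X)‖ = 1 := by simpa using c.2
    exact hf.norm_eq _ hx
  exact Sm.of_differentiableAt hc1 hc

theorem residual_notD (hdim : Module.finrank ℝ X = 3) :
    {c : Sph X | (c : X) ∉ (DSet : Set X)} ∈ residual (Sph X) := by
  refine residual_of_dense_open ?_ ?_
  · exact ((isClosed_DSet (X := X)).preimage continuous_subtype_val).isOpen_compl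
  · rw [dense_iff_inter_open]
    rintro W hW ⟨w, hw⟩
    obtain ⟨W', hW', rfl⟩ := isOpen_induced_iff.mp hW
    obtain ⟨ε, hε, hb⟩ := Metric.isOpen_iff.mp hW' (w : X) hw
    have hw1 : ‖(w : X)‖ = 1 := by simpa using w.2
    obtain ⟨y, hy1, hy2, hy3⟩ := exists_notD_near hdim hw1 hε
    refine ⟨⟨y, by simpa using hy1⟩, hb (by simpa [dist_eq_norm] using hy3), hy2⟩

end Vale.Agent.Lib.P084.D3
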