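/-
Generic dichotomy.  Put `Fa = {x : IsFlat-like: sphere near x lies in one face}`, open, and
`Mid = {q : ∃ d, ‖d‖ = 1, [q - d, q + d] ⊆ sphere}`, closed.  A point outside the two frontiers and
smooth is flat, or its `J(x) = {a ∈ Eo x, nr x a = 0}` has at most one point: if `a ≠ b` in `J(x)` are
independent, the triangle `x, x - a, x - b` lies in the face, interior points of the triangle are
flat (radial projection), so `x` is in the closure of `Fa`, so in `Fa`.  If `b = - a`, `x ∈ Mid`, so
`x` is in the interior of `Mid`; `x + t a ∈ Mid` has a chord direction `a'`, `a' = ± a` would give a chord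
of length `> 2`; so two chords cross, the face of `nr x` is two dimensional: again `x` is flat.
-/
import Vale.Agent.Lib.P084.D3.Residual

namespace Vale.Agent.Lib.P084.D3

open Set

variable {X : Type*} [NormedAddCommGroup X] [NormedSpace ℝ X] [FiniteDimensional ℝ X]

omit [FiniteDimensional ℝ X] in
/-- A functional with a unit vector in a norming position and a flat direction vanishes on it. -/
private theorem nrm_kill_of_bound {c v : X} {ψ : X →L[ℝ] ℝ} (hψ : ψ ∈ Nrm c) {r : ℝ} (hr : 0 < r)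
    (h1 : ‖c + r • v‖ ≤ 1) (h2 : ‖c - r • v‖ ≤ 1) : ψ v = 0 := by
  have h3 := nrm_le hψ (c + r • v)
  have h4 := nrm_le hψ (c - r • v)
  rw [map_add, map_smul, hψ.2, smul_eq_mul] at h3
  rw [map_sub, map_smul, hψ.2, smul_eq_mul] at h4
  have h5 : r * ψ v ≤ 0 := by linarith
  have h6 : 0 ≤ r * ψ v := by linarith
  have h7 : r * ψ v = 0 := le_antisymm h5 h6
  rcases mul_eq_zero.1 h7 with h | h
  · exact absurd h hr.ne'
  · exact h

/-- Coordinates for a frame in dimension three. -/
private theorem exists_coords (hdim : Module.finrank ℝ X = 3) {w v₁ v₂ : X} {φ : X →L[ℝ] ℝ}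
    (hw : φ w = 1) (h1 : φ v₁ = 0) (h2 : φ v₂ = 0)
    (hli : ∀ s t : ℝ, s • v₁ + t • v₂ = 0 → s = 0 ∧ t = 0) :
    ∃ ℓ₁ ℓ₂ : X →L[ℝ] ℝ, ℓ₁ w = 0 ∧ ℓ₂ w = 0 ∧ ∀ z, z = φ z • w + ℓ₁ z • v₁ + ℓ₂ z • v₂ := by
  classical
  have hind : LinearIndependent ℝ ![w, v₁, v₂] := by
    rw [Fintype.linearIndependent_iff]
    intro g hg
    simp only [Fin.sum_univ_three, Matrix.cons_val_zero, Matrix.cons_val_one, Matrix.cons_val] at hg
    have hφ := congrArg φ hg
    simp only [map_add, map_smul, hw, h1, h2, smul_eq_mul, mul_one, mul_zero, add_zero, map_zero]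
      at hφ
    have hg0 : g 0 = 0 := hφ
    rw [hg0, zero_smul, zero_add] at hg
    obtain ⟨h3, h4⟩ := hli _ _ hg
    intro i
    fin_cases i
    · exact hg0
    · exact h3
    · exact h4
  have hcard : Fintype.card (Fin 3) = Module.finrank ℝ X := by simp [hdim]
  let b := basisOfLinearIndependentOfCardEqFinrank hind hcard
  have hb0 : b 0 = w := by simp [b]
  have hb1 : b 1 = v₁ := by simp [b]
  have hb2 : b 2 = v₂ := by simp [b]
  refine ⟨(b.coord 1).toContinuousLinearMap, (b.coord 2).toContinuousLinearMap, ?_, ?_, ?_⟩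
  · have : b.coord 1 w = 0 := by
      rw [← hb0]
      simp
    simpa using this
  · have : b.coord 2 w = 0 := by
      rw [← hb0]
      simp
    simpa using this
  · intro z
    have hz := b.sum_repr z
    rw [Fin.sum_univ_three, hb0, hb1, hb2] at hz
    have hφz := congrArg φ hz
    simp only [map_add, map_smul, hw, h1, h2, smul_eq_mul, mul_one, mul_zero, add_zero] at hφz
    simp only [LinearMap.coe_toContinuousLinearMap', Module.Basis.coord_apply]
    rw [← hφz]
    exact hz.symm

/-- A flat patch at `w` in dimension three gives flatness. -/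
theorem flat_of_patch (hdim : Module.finrank ℝ X = 3) {w v₁ v₂ : X} {φ : X →L[ℝ] ℝ} (hw : ‖w‖ = 1)
    (hφ : φ ∈ Nrm w) (h1 : φ v₁ = 0) (h2 : φ v₂ = 0)
    (hli : ∀ s t : ℝ, s • v₁ + t • v₂ = 0 → s = 0 ∧ t = 0) {r : ℝ} (hr : 0 < r)
    (hb : ∀ s t : ℝ, |s| ≤ r → |t| ≤ r → ‖w + s • v₁ + t • v₂‖ ≤ 1) : IsFlat w := by
  obtain ⟨ℓ₁, ℓ₂, hℓ₁, hℓ₂, hz⟩ := exists_coords hdim hφ.2 h1 h2 hli
  have habs : |r| ≤ r := (abs_of_pos hr).le
  have habs' : |(-r)| ≤ r := by rw [abs_neg]; exact habs
  have h0 : |(0 : ℝ)| ≤ r := by simpa using hr.le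
  -- the norming functional is unique
  have hψ := nr_mem hw
  have hψ1 : nr w v₁ = 0 := by
    refine nrm_kill_of_bound hψ hr ?_ ?_
    · simpa using hb r 0 habs h0
    · simpa [sub_eq_add_neg] using hb (-r) 0 habs' h0
  have hψ2 : nr w v₂ = 0 := by
    refine nrm_kill_of_bound hψ hr ?_ ?_
    · simpa using hb 0 r h0 habs
    · simpa [sub_eq_add_neg] using hb 0 (-r) h0 habs'
  have hnr : nr w = φ := by
    ext z
    have := congrArg (nr w) (hz z)
    simp only [map_add, map_smul, hψ.2, hψ1, hψ2, smul_eq_mul, mul_one, mul_zero, add_zero] at this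
    exact this
  -- the neighbourhood
  set C : ℝ := ‖ℓ₁‖ + ‖ℓ₂‖ + 1 with hC
  have hCpos : 0 < C := by positivity
  refine ⟨min (1 / 2) (r / (2 * C)), lt_min (by norm_num) (by positivity), ?_⟩
  intro z hz1 hzw
  rw [hnr]
  have hlt1 : ‖z - w‖ < 1 / 2 := lt_of_lt_of_le hzw (min_le_left _ _)
  have hlt2 : ‖z - w‖ < r / (2 * C) := lt_of_lt_of_le hzw (min_le_right _ _)
  have hu : 1 / 2 ≤ φ z := by
    have h3 := nrm_abs_le hφ (z - w)
    rw [map_sub, hφ.2] at h3
    have := (abs_le.1 h3).1
    linarith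
  have hupos : 0 < φ z := by linarith
  have hCeps : C * ‖z - w‖ ≤ r / 2 := by
    have : C * ‖z - w‖ ≤ C * (r / (2 * C)) := by gcongr
    have h3 : C * (r / (2 * C)) = r / 2 := by field_simp
    linarith
  have hl1 : |ℓ₁ z / φ z| ≤ r := by
    have h3 : |ℓ₁ z| ≤ C * ‖z - w‖ := by
      have h4 : ℓ₁ z = ℓ₁ (z - w) := by rw [map_sub, hℓ₁, sub_zero]
      rw [h4]
      calc |ℓ₁ (z - w)| ≤ ‖ℓ₁‖ * ‖z - w‖ := by simpa using ℓ₁.le_opNorm (z - w)
        _ ≤ C * ‖z - w‖ := by
          gcongr
          simp only [hC]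
          linarith [norm_nonneg ℓ₂]
    rw [abs_div, abs_of_pos hupos, div_le_iff₀ hupos]
    nlinarith
  have hl2 : |ℓ₂ z / φ z| ≤ r := by
    have h3 : |ℓ₂ z| ≤ C * ‖z - w‖ := by
      have h4 : ℓ₂ z = ℓ₂ (z - w) := by rw [map_sub, hℓ₂, sub_zero]
      rw [h4]
      calc |ℓ₂ (z - w)| ≤ ‖ℓ₂‖ * ‖z - w‖ := by simpa using ℓ₂.le_opNorm (z - w)
        _ ≤ C * ‖z - w‖ := by
          gcongr
          simp only [hC]
          linarith [norm_nonneg ℓ₁]
    rw [abs_div, abs_of_pos hupos, div_le_iff₀ hupos]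
    nlinarith
  have hy := hb _ _ hl1 hl2
  have hzz := hz z
  have heq : w + (ℓ₁ z / φ z) • v₁ + (ℓ₂ z / φ z) • v₂ = (φ z)⁻¹ • z := by
    calc w + (ℓ₁ z / φ z) • v₁ + (ℓ₂ z / φ z) • v₂
        = (φ z)⁻¹ • (φ z • w + ℓ₁ z • v₁ + ℓ₂ z • v₂) := by
          rw [smul_add, smul_add, smul_smul, smul_smul, smul_smul, inv_mul_cancel₀ hupos.ne',
            one_smul, div_eq_inv_mul, div_eq_inv_mul]
      _ = (φ z)⁻¹ • z := by rw [← hzz]
  rw [heq, norm_smul, hz1, mul_one, norm_inv, Real.norm_eq_abs, abs_of_pos hupos] at hy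
  have h1u : 1 ≤ φ z := by
    rwa [inv_le_one₀ hupos] at hy
  have hu1 : φ z ≤ 1 := by
    have := nrm_le hφ z
    rwa [hz1] at this
  exact le_antisymm hu1 h1u

omit [FiniteDimensional ℝ X] in
/-- If a functional in the unit ball is `1` on the sphere near a unit vector `w'`, it is the
chosen norming functional of `w'`. -/
private theorem nr_eq_of_near {w' : X} (hw' : ‖w'‖ = 1) {φ : X →L[ℝ] ℝ} (hφ : φ ∈ Nrm w') {ε : ℝ}
    (hε : 0 < ε) (h : ∀ z : X, ‖z‖ = 1 → ‖z - w'‖ < ε → φ z = 1) : nr w' = φ := by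
  have hψ := nr_mem hw'
  have hle : ∀ v : X, φ v = 0 → nr w' v ≤ 0 := by
    intro v hv
    let F : ℝ → X := fun s => (‖w' + s • v‖)⁻¹ • (w' + s • v)
    have hne0 : ‖w' + (0 : ℝ) • v‖ ≠ 0 := by simp [hw']
    have hF : ContinuousAt F 0 := by
      refine ContinuousAt.smul (ContinuousAt.inv₀ (by fun_prop) hne0) (by fun_prop)
    have hF0 : F 0 = w' := by simp [F, hw']
    obtain ⟨δ, hδ, hnear⟩ := Metric.continuousAt_iff.1 hF ε hε
    have hsδ : dist (δ / 2) (0 : ℝ) < δ := by
      rw [Real.dist_eq, sub_zero, abs_of_pos (by positivity)]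
      linarith
    have hnear' := hnear hsδ
    rw [hF0, dist_eq_norm] at hnear'
    have hφs : φ (w' + (δ / 2) • v) = 1 := by
      rw [map_add, map_smul, hv, hφ.2]
      simp
    have hne : w' + (δ / 2) • v ≠ 0 := by
      intro h0
      rw [h0, map_zero] at hφs
      exact zero_ne_one hφs
    have hnorm : ‖w' + (δ / 2) • v‖ ≠ 0 := norm_ne_zero_iff.2 hne
    have hF1 : ‖F (δ / 2)‖ = 1 := by
      simp only [F]
      rw [norm_smul, norm_inv, norm_norm, inv_mul_cancel₀ hnorm]
    have hφF := h _ hF1 hnear'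
    simp only [F, map_smul, hφs, smul_eq_mul, mul_one] at hφF
    have hnorm1 : ‖w' + (δ / 2) • v‖ = 1 := by
      rwa [inv_eq_one] at hφF
    have h3 := nrm_le hψ (w' + (δ / 2) • v)
    rw [hnorm1, map_add, map_smul, hψ.2, smul_eq_mul] at h3
    have h4 : (δ / 2) * nr w' v ≤ 0 := by linarith
    by_contra hpos
    push Not at hpos
    have : 0 < (δ / 2) * nr w' v := by positivity
    linarith
  ext y
  have hker : φ (y - φ y • w') = 0 := by
    rw [map_sub, map_smul, hφ.2]
    simp
  have h1 := hle _ hker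
  have h2 := hle (-(y - φ y • w')) (by rw [map_neg, hker, neg_zero])
  rw [map_neg] at h2
  have h3 : nr w' (y - φ y • w') = 0 := by linarith
  rw [map_sub, map_smul, hψ.2] at h3
  simp only [smul_eq_mul, mul_one] at h3
  linarith

omit [FiniteDimensional ℝ X] in
omit [FiniteDimensional ℝ X] in
/-- The flat points form an open subset of the sphere. -/
theorem isOpen_flat : IsOpen {x : Sph X | IsFlat (x : X)} := by
  rw [Metric.isOpen_iff]
  rintro ⟨x, hx⟩ ⟨ε, hε, hfl⟩
  have hx1 : ‖x‖ = 1 := by simpa using hx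
  refine ⟨ε, hε, ?_⟩
  rintro ⟨w', hw'⟩ hdist
  have hw'1 : ‖w'‖ = 1 := by simpa using hw'
  have hd : ‖w' - x‖ < ε := by
    have := hdist
    rwa [Metric.mem_ball, Subtype.dist_eq, dist_eq_norm] at this
  have hε' : 0 < ε - ‖w' - x‖ := by linarith
  have hnear : ∀ z : X, ‖z‖ = 1 → ‖z - w'‖ < ε - ‖w' - x‖ → nr x z = 1 := by
    intro z hz hzw
    refine hfl z hz ?_
    have : ‖z - x‖ ≤ ‖z - w'‖ + ‖w' - x‖ := by
      have := norm_add_le (z - w') (w' - x)
      simpa using this
    linarith
  have hφ : nr x ∈ Nrm w' := by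
    refine ⟨(nr_mem hx1).1, hfl w' hw'1 hd⟩
  have hnr := nr_eq_of_near hw'1 hφ hε' hnear
  show IsFlat w'
  refine ⟨ε - ‖w' - x‖, hε', fun z hz hzw => ?_⟩
  rw [hnr]
  exact hnear z hz hzw

/-- Midpoints of chords of length two. -/
def MidSet (X : Type*) [NormedAddCommGroup X] [NormedSpace ℝ X] : Set (Sph X) :=
  {x | ∃ d : X, ‖d‖ = 1 ∧ ∀ t ∈ Icc (-1 : ℝ) 1, ‖(x : X) + t • d‖ = 1}

theorem isClosed_mid : IsClosed (MidSet X) := by
  let K : Set (Sph X × X) :=
    {p | ‖p.2‖ = 1 ∧ ∀ t ∈ Icc (-1 : ℝ) 1, ‖(p.1 : X) + t • p.2‖ = 1}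
  have hKc : IsClosed K := by
    have : K = {p | ‖p.2‖ = 1} ∩ ⋂ t ∈ Icc (-1 : ℝ) 1, {p : Sph X × X | ‖(p.1 : X) + t • p.2‖ = 1} := by
      ext p
      simp [K]
    rw [this]
    refine (isClosed_eq (by fun_prop) continuous_const).inter ?_
    refine isClosed_biInter fun t _ => ?_
    exact isClosed_eq (by fun_prop) continuous_const
  have hKsub : K ⊆ univ ×ˢ Metric.sphere (0 : X) 1 := by
    intro p hp
    exact ⟨mem_univ _, by simpa using hp.1⟩
  have hKcomp : IsCompact K :=
    IsCompact.of_isClosed_subset (isCompact_univ.prod (isCompact_sphere 0 1)) hKc hKsub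
  have himg : MidSet X = Prod.fst '' K := by
    ext x
    constructor
    · rintro ⟨d, hd, ht⟩
      exact ⟨(x, d), ⟨hd, ht⟩, rfl⟩
    · rintro ⟨⟨y, d⟩, ⟨hd, ht⟩, rfl⟩
      exact ⟨d, hd, ht⟩
  rw [himg]
  exact (hKcomp.image continuous_fst).isClosed

private theorem mem_residual_of_isClosed {S : Type*} [TopologicalSpace S] {A : Set S}
    (hA : IsClosed A) : (frontier A)ᶜ ∈ residual S :=
  residual_of_dense_open isClosed_frontier.isOpen_compl
    (interior_eq_empty_iff_dense_compl.1 (interior_frontier hA))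

theorem residual_dic (hdim : Module.finrank ℝ X = 3) :
    {x : Sph X | Sm (x : X) → IsFlat (x : X) ∨ ∀ a ∈ Eo (x : X), ∀ b ∈ Eo (x : X),
      nr (x : X) a = 0 → nr (x : X) b = 0 → a = b} ∈ residual (Sph X) := by
  have hF : (frontier {x : Sph X | IsFlat (x : X)})ᶜ ∈ residual (Sph X) := by
    rw [← frontier_compl]
    exact mem_residual_of_isClosed isOpen_flat.isClosed_compl
  have hM := mem_residual_of_isClosed (isClosed_mid (X := X))
  refine Filter.mem_of_superset (Filter.inter_mem hF hM) ?_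
  rintro ⟨x, hx⟩ ⟨hxF, hxM⟩ hsm
  have hx1 : ‖x‖ = 1 := by simpa using hx
  by_contra hcon
  push Not at hcon
  obtain ⟨hnf, a, ha, b, hb, ha0, hb0, hab⟩ := hcon
  have hnrm := nr_mem hx1
  -- convex combinations in the triangle
  have hconv : ∀ α β : ℝ, 0 ≤ α → 0 ≤ β → α + β ≤ 1 → ‖x - α • a - β • b‖ ≤ 1 := by
    intro α β hα hβ hαβ
    have h1 : x - α • a - β • b = (1 - α - β) • x + α • (x - a) + β • (x - b) := by module
    rw [h1]
    calc ‖(1 - α - β) • x + α • (x - a) + β • (x - b)‖
        ≤ ‖(1 - α - β) • x‖ + ‖α • (x - a)‖ + ‖β • (x - b)‖ := norm_add₃_le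
      _ = (1 - α - β) * ‖x‖ + α * ‖x - a‖ + β * ‖x - b‖ := by
        rw [norm_smul, norm_smul, norm_smul, Real.norm_eq_abs, Real.norm_eq_abs, Real.norm_eq_abs,
          abs_of_nonneg hα, abs_of_nonneg hβ, abs_of_nonneg (by linarith)]
      _ = 1 := by rw [hx1, ha.2, hb.2]; ring
  have hφ1 : ∀ α β : ℝ, nr x (x - α • a - β • b) = 1 := by
    intro α β
    simp [map_sub, map_smul, ha0, hb0, hnrm.2]
  by_cases hdep : ∃ s t : ℝ, s • a + t • b = 0 ∧ (s ≠ 0 ∨ t ≠ 0)
  · -- `b = - a`: the point is a midpoint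
    obtain ⟨s, t, hst, hne⟩ := hdep
    have ha1 : ‖a‖ = 1 := ha.1
    have hb1 : ‖b‖ = 1 := hb.1
    have hnorms : |s| = |t| := by
      have h1 : s • a = -(t • b) := eq_neg_of_add_eq_zero_left hst
      have h2 := congrArg norm h1
      rw [norm_neg, norm_smul, norm_smul, ha1, hb1, mul_one, mul_one, Real.norm_eq_abs,
        Real.norm_eq_abs] at h2
      exact h2
    have hs0 : s ≠ 0 := by
      rintro rfl
      rcases hne with h | h
      · exact h rfl
      · rw [abs_zero] at hnorms
        exact h (abs_eq_zero.1 hnorms.symm)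
    have hbneg : b = -a := by
      rcases abs_eq_abs.1 hnorms with h | h
      · -- `s = t`: then `a = - b`
        subst h
        have h1 : s • (a + b) = 0 := by rw [smul_add]; exact hst
        have h2 : a + b = 0 := (smul_eq_zero.1 h1).resolve_left hs0
        exact eq_neg_of_add_eq_zero_right h2
      · -- `s = - t`: then `a = b`
        exfalso
        have h1 : s • (a - b) = 0 := by
          have ht : t = -s := by linarith
          rw [ht] at hst
          rw [smul_sub, sub_eq_add_neg]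
          rw [neg_smul] at hst
          exact hst
        have h2 : a - b = 0 := (smul_eq_zero.1 h1).resolve_left hs0
        exact hab (sub_eq_zero.1 h2)
    -- the chord through `x`
    have hchord : ∀ t ∈ Icc (-1 : ℝ) 1, ‖x + t • a‖ = 1 := by
      intro t ht
      refine le_antisymm ?_ ?_
      · rcases le_total 0 t with h0 | h0
        · have h1 := hconv 0 t le_rfl h0 (by linarith [ht.2])
          have h2 : x - (0 : ℝ) • a - t • b = x + t • a := by
            rw [hbneg]
            module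
          rwa [h2] at h1
        · have h1 := hconv (-t) 0 (by linarith) le_rfl (by linarith [ht.1])
          have h2 : x - (-t) • a - (0 : ℝ) • b = x + t • a := by module
          rwa [h2] at h1
      · have h1 := nrm_le hnrm (x + t • a)
        rw [map_add, map_smul, ha0, hnrm.2] at h1
        simpa using h1
    have hxmid : (⟨x, hx⟩ : Sph X) ∈ MidSet X := ⟨a, ha.1, hchord⟩
    have hint := (mem_interior_iff_notMem_frontier hxmid).2 hxM
    obtain ⟨δ, hδ, hball⟩ := Metric.isOpen_iff.1 isOpen_interior _ hint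
    set t₀ : ℝ := min (δ / 2) (1 / 2) with ht₀
    have ht₀pos : 0 < t₀ := lt_min (by positivity) (by norm_num)
    have ht₀le : t₀ ≤ 1 / 2 := min_le_right _ _
    have ht₀δ : t₀ < δ := lt_of_le_of_lt (min_le_left _ _) (by linarith)
    have hq1 : ‖x + t₀ • a‖ = 1 := hchord t₀ ⟨by linarith, by linarith⟩
    have hqmem : x + t₀ • a ∈ Metric.sphere (0 : X) 1 := by simpa using hq1
    have hqball : (⟨x + t₀ • a, hqmem⟩ : Sph X) ∈ Metric.ball (⟨x, hx⟩ : Sph X) δ := by
      rw [Metric.mem_ball, Subtype.dist_eq, dist_eq_norm]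
      simp only [add_sub_cancel_left]
      rw [norm_smul, ha.1, mul_one, Real.norm_eq_abs, abs_of_pos ht₀pos]
      exact ht₀δ
    obtain ⟨d, hd1, hdc⟩ := interior_subset (hball hqball)
    simp only at hdc
    set q := x + t₀ • a with hq
    have hψ := nr_mem hq1
    have hψd : nr q d = 0 := by
      refine nrm_kill_of_bound hψ (r := 1) one_pos ?_ ?_
      · exact (hdc 1 ⟨by norm_num, le_rfl⟩).le
      · have := hdc (-1) ⟨le_rfl, by norm_num⟩
        simp only [neg_smul, one_smul, ← sub_eq_add_neg] at this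
        simp only [one_smul]
        exact this.le
    have hψa : nr q a = 0 := by
      refine nrm_kill_of_bound hψ (r := 1 / 2) (by norm_num) ?_ ?_
      · have h1 := hchord (t₀ + 1 / 2) ⟨by linarith, by linarith⟩
        have h2 : q + (1 / 2 : ℝ) • a = x + (t₀ + 1 / 2) • a := by
          rw [hq]
          module
        rw [h2, h1]
      · have h1 := hchord (t₀ - 1 / 2) ⟨by linarith, by linarith⟩
        have h2 : q - (1 / 2 : ℝ) • a = x + (t₀ - 1 / 2) • a := by
          rw [hq]
          module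
        rw [h2, h1]
    have hψx : nr q x = 1 := by
      have h1 : x = q - t₀ • a := by
        rw [hq]
        module
      rw [h1, map_sub, map_smul, hψa, hψ.2]
      simp
    have hψnrm : nr q ∈ Nrm x := ⟨hψ.1, hψx⟩
    have hψeq : nr q = nr x := hsm _ hψnrm
    have hφd : nr x d = 0 := by rw [← hψeq]; exact hψd
    -- independence of `a, d`
    have hplus : ‖q + d‖ = 1 := by
      have := hdc 1 ⟨by norm_num, le_rfl⟩
      simpa using this
    have hminus : ‖q - d‖ = 1 := by
      have := hdc (-1) ⟨le_rfl, by norm_num⟩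
      simpa [← sub_eq_add_neg] using this
    have hxm : ‖x - a‖ = 1 := ha.2
    have hxp : ‖x + a‖ = 1 := by
      have := hchord 1 ⟨by norm_num, le_rfl⟩
      simpa using this
    have hli : ∀ s t : ℝ, s • a + t • d = 0 → s = 0 ∧ t = 0 := by
      intro s t hst
      by_cases ht : t = 0
      · subst ht
        simp only [zero_smul, add_zero] at hst
        have h1 : s = 0 := (smul_eq_zero.1 hst).resolve_right (fun h => by
          rw [h, norm_zero] at ha1
          exact zero_ne_one ha1)
        exact ⟨h1, rfl⟩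
      · exfalso
        -- `d` is a multiple of `a`, of modulus one
        set lam : ℝ := -(s / t) with hlam
        have hdl : d = lam • a := by
          have h1 : t • d = -(s • a) := eq_neg_of_add_eq_zero_right hst
          have h2 : d = t⁻¹ • (t • d) := by
            rw [smul_smul, inv_mul_cancel₀ ht, one_smul]
          rw [h2, h1, smul_neg, smul_smul, hlam, ← neg_smul]
          congr 1
          field_simp
        have hl1 : |lam| = 1 := by
          have := congrArg norm hdl
          rw [hd1, norm_smul, ha1, mul_one, Real.norm_eq_abs] at this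
          exact this.symm
        -- the long chord
        have hlong : ‖x + (1 + t₀) • a‖ = 1 := by
          rcases abs_eq (by norm_num : (0 : ℝ) ≤ 1) |>.1 hl1 with h | h
          · have h2 : x + (1 + t₀) • a = q + d := by
              rw [hq, hdl, h]
              module
            rw [h2]
            exact hplus
          · have h2 : x + (1 + t₀) • a = q - d := by
              rw [hq, hdl, h]
              module
            rw [h2]
            exact hminus
        have h3 : ‖(x + (1 + t₀) • a) - (x - a)‖ ≤ 2 := by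
          have := norm_sub_le (x + (1 + t₀) • a) (x - a)
          rw [hlong, hxm] at this
          linarith
        have h4 : (x + (1 + t₀) • a) - (x - a) = (2 + t₀) • a := by module
        rw [h4, norm_smul, ha1, mul_one, Real.norm_eq_abs, abs_of_pos (by linarith)] at h3
        linarith
    -- the patch at `x`
    refine hnf (flat_of_patch hdim hx1 hnrm ha0 hφd hli (r := 1 / 4) (by norm_num) ?_)
    intro s t hs ht
    set m : ℝ := |t| with hm
    have hm0 : 0 ≤ m := abs_nonneg t
    have hmle : m ≤ 1 / 4 := ht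
    obtain ⟨hts1, hts2⟩ := abs_le.1 (le_refl |t|)
    obtain ⟨hs1, hs2⟩ := abs_le.1 hs
    have hmt : 0 ≤ t₀ * m := by positivity
    have hmt2 : t₀ * m ≤ 1 / 8 := by nlinarith
    have h1 : x + s • a + t • d =
        ((1 - m - (s - t₀ * m)) / 2) • (x - a) + ((1 - m + (s - t₀ * m)) / 2) • (x + a) +
          ((m + t) / 2) • (q + d) + ((m - t) / 2) • (q - d) := by
      rw [hq]
      module
    rw [h1]
    have hc1 : 0 ≤ (1 - m - (s - t₀ * m)) / 2 := by linarith
    have hc2 : 0 ≤ (1 - m + (s - t₀ * m)) / 2 := by linarith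
    have hc3 : 0 ≤ (m + t) / 2 := by linarith
    have hc4 : 0 ≤ (m - t) / 2 := by linarith
    calc _ ≤ ‖((1 - m - (s - t₀ * m)) / 2) • (x - a)‖ + ‖((1 - m + (s - t₀ * m)) / 2) • (x + a)‖ +
          ‖((m + t) / 2) • (q + d)‖ + ‖((m - t) / 2) • (q - d)‖ := norm_add₄_le
      _ = 1 := by
        rw [norm_smul, norm_smul, norm_smul, norm_smul, hxm, hxp, hplus, hminus, Real.norm_eq_abs,
          Real.norm_eq_abs, Real.norm_eq_abs, Real.norm_eq_abs, abs_of_nonneg hc1, abs_of_nonneg hc2,
          abs_of_nonneg hc3, abs_of_nonneg hc4]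
        ring
  · -- independent: the triangle
    push Not at hdep
    have hli : ∀ s t : ℝ, s • a + t • b = 0 → s = 0 ∧ t = 0 := fun s t h => hdep s t h
    have hcl : (⟨x, hx⟩ : Sph X) ∈ closure {x : Sph X | IsFlat (x : X)} := by
      rw [Metric.mem_closure_iff]
      intro ε hε
      set τ : ℝ := min (1 / 4) (ε / 4) with hτ
      have hτpos : 0 < τ := lt_min (by norm_num) (by positivity)
      have hτ1 : τ ≤ 1 / 4 := min_le_left _ _
      have hτ2 : τ ≤ ε / 4 := min_le_right _ _
      set w := x - τ • a - τ • b with hw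
      have hw1 : ‖w‖ = 1 := by
        refine le_antisymm (hconv τ τ hτpos.le hτpos.le (by linarith)) ?_
        have := nrm_le hnrm w
        rw [hw, hφ1] at this
        rw [hw]
        exact this
      have hwmem : w ∈ Metric.sphere (0 : X) 1 := by simpa using hw1
      have hφw : nr x ∈ Nrm w := ⟨hnrm.1, by rw [hw]; exact hφ1 τ τ⟩
      have hfl : IsFlat w := by
        refine flat_of_patch hdim hw1 hφw ha0 hb0 hli (r := τ) hτpos ?_
        intro s t hs ht
        obtain ⟨hs1, hs2⟩ := abs_le.1 hs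
        obtain ⟨ht1, ht2⟩ := abs_le.1 ht
        have h1 : w + s • a + t • b = x - (τ - s) • a - (τ - t) • b := by
          rw [hw]
          module
        rw [h1]
        exact hconv _ _ (by linarith) (by linarith) (by linarith)
      refine ⟨⟨w, hwmem⟩, hfl, ?_⟩
      rw [Subtype.dist_eq, dist_eq_norm]
      have h2 : x - w = τ • a + τ • b := by
        rw [hw]
        module
      simp only
      rw [h2]
      calc ‖τ • a + τ • b‖ ≤ ‖τ • a‖ + ‖τ • b‖ := norm_add_le _ _
        _ = 2 * τ := by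
          rw [norm_smul, norm_smul, ha.1, hb.1, Real.norm_eq_abs, abs_of_pos hτpos]
          ring
        _ < ε := by linarith
    have hfront : frontier {x : Sph X | IsFlat (x : X)} = closure {x : Sph X | IsFlat (x : X)} \
        {x : Sph X | IsFlat (x : X)} := isOpen_flat.frontier_eq
    exact hxF (by rw [hfront]; exact ⟨hcl, hnf⟩)

end Vale.Agent.Lib.P084.D3
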