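import Vale.Agent.Lib.P084.D3.KU

/-!
Step 1: the local extremum lemma and the open projections of the unit-distance relation.
-/

namespace Vale.Agent.Lib.P084.D3

open Set Metric Filter Topology

variable {X : Type*} [NormedAddCommGroup X] [NormedSpace ℝ X]

/-- No norming functional of `c` kills `x`. -/
def NoKill (c x : X) : Prop := ∀ φ : StrongDual ℝ X, ‖φ‖ ≤ 1 → φ c = 1 → φ x ≠ 0

omit [NormedSpace ℝ X] in
private lemma norm_normalize_sub_le [NormedSpace ℝ X] {p : X} (hp : 0 < ‖p‖) :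
    ‖(‖p‖⁻¹ • p) - p‖ = |1 - ‖p‖| := by
  have : (‖p‖⁻¹ • p) - p = (‖p‖⁻¹ - 1) • p := by rw [sub_smul, one_smul]
  rw [this, norm_smul, Real.norm_eq_abs]
  have h1 : |‖p‖⁻¹ - 1| = |1 - ‖p‖| * ‖p‖⁻¹ := by
    have : ‖p‖⁻¹ - 1 = (1 - ‖p‖) * ‖p‖⁻¹ := by field_simp
    rw [this, abs_mul, abs_of_pos (inv_pos.2 hp)]
  rw [h1, mul_assoc, inv_mul_cancel₀ hp.ne', mul_one]

/-- If `c` is unit and `p` is within `e` of `c` with `e ≤ 1/2` then the normalisation of `p`
is within `2 e` of `c`. -/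
private lemma norm_normalize_near {c p : X} (hc : ‖c‖ = 1) {e : ℝ} (he : e ≤ 1 / 2)
    (hpc : ‖p - c‖ ≤ e) : 0 < ‖p‖ ∧ ‖(‖p‖⁻¹ • p) - c‖ ≤ 2 * e := by
  have h0 : 0 ≤ e := le_trans (norm_nonneg _) hpc
  have h1 : |‖p‖ - ‖c‖| ≤ ‖p - c‖ := abs_norm_sub_norm_le p c
  rw [hc] at h1
  have h2 := abs_le.1 (h1.trans hpc)
  have hp : 0 < ‖p‖ := by linarith [h2.1]
  refine ⟨hp, ?_⟩
  have h3 := norm_normalize_sub_le (X := X) hp
  have h4 : |1 - ‖p‖| ≤ e := by
    rw [abs_sub_comm]; exact h1.trans hpc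
  calc ‖(‖p‖⁻¹ • p) - c‖ = ‖((‖p‖⁻¹ • p) - p) + (p - c)‖ := by
        congr 1; abel
    _ ≤ ‖(‖p‖⁻¹ • p) - p‖ + ‖p - c‖ := norm_add_le _ _
    _ ≤ 2 * e := by rw [h3]; linarith

/-- Inside point: near `c` on the sphere there is a point at distance `< 1` from `x`. -/
theorem exists_inside {x c : X} (hc : ‖c‖ = 1) (hx : ‖x‖ = 1) (hxc : ‖x - c‖ = 1)
    (hn : NoKill c x) {ε : ℝ} (hε : 0 < ε) :
    ∃ c₁ : X, ‖c₁‖ = 1 ∧ ‖c₁ - c‖ < ε ∧ ‖c₁ - x‖ < 1 := by
  obtain ⟨φ, hφn, hφc⟩ : ∃ φ : StrongDual ℝ X, ‖φ‖ ≤ 1 ∧ φ c = 1 := by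
    have hne : c ≠ 0 := by
      intro h; rw [h, norm_zero] at hc; exact zero_ne_one hc
    obtain ⟨φ, h1, h2⟩ := exists_dual_vector ℝ c (norm_ne_zero_iff.2 hne)
    refine ⟨φ, h1.le, ?_⟩
    rw [h2, hc]; rfl
  have hφx : φ x ≠ 0 := hn φ hφn hφc
  have hle : ∀ v : X, |φ v| ≤ ‖v‖ := fun v => by
    have := φ.le_opNorm v
    rw [Real.norm_eq_abs] at this
    calc |φ v| ≤ ‖φ‖ * ‖v‖ := this
      _ ≤ 1 * ‖v‖ := by gcongr
      _ = ‖v‖ := one_mul _
  have hφxpos : 0 < φ x := by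
    have h1 : φ (c - x) ≤ 1 := by
      have := le_abs_self (φ (c - x))
      have h2 := hle (c - x)
      rw [norm_sub_rev, hxc] at h2
      linarith
    rw [map_sub, hφc] at h1
    exact lt_of_le_of_ne (by linarith) (Ne.symm hφx)
  -- y = c - x, s in (φ y, 1)
  set y := c - x with hy
  have hynorm : ‖y‖ = 1 := by rw [hy, norm_sub_rev]; exact hxc
  have hφy : φ y = 1 - φ x := by rw [hy, map_sub, hφc]
  have hφylow : -1 ≤ φ y := by
    have := abs_le.1 (hle y)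
    rw [hynorm] at this
    exact this.1
  set s := (1 + φ y) / 2 with hs
  have hs0 : 0 ≤ s := by rw [hs]; linarith
  have hs1 : s < 1 := by rw [hs, hφy]; linarith
  have hsy : φ y < s := by rw [hs, hφy]; linarith
  -- choose t
  set t := min (ε / 16) (1 / 8) with ht
  have ht0 : 0 < t := lt_min (by positivity) (by norm_num)
  have ht1 : t ≤ 1 / 8 := min_le_right _ _
  have htε : t ≤ ε / 16 := min_le_left _ _
  set v : X := s • c with hv
  have hvnorm : ‖v‖ = s := by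
    rw [hv, norm_smul, hc, mul_one, Real.norm_eq_abs, abs_of_nonneg hs0]
  set p : X := c + t • (v - y) with hp
  have hpc : ‖p - c‖ ≤ 2 * t := by
    have : p - c = t • (v - y) := by rw [hp]; abel
    rw [this, norm_smul, Real.norm_eq_abs, abs_of_pos ht0]
    have : ‖v - y‖ ≤ 2 := by
      calc ‖v - y‖ ≤ ‖v‖ + ‖y‖ := norm_sub_le _ _
        _ ≤ 2 := by rw [hvnorm, hynorm]; linarith
    nlinarith
  have hφp : 1 < φ p := by
    have : φ p = 1 + t * (s - φ y) := by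
      rw [hp, map_add, map_smul, map_sub, hφc, hv, map_smul, hφc]
      simp
    rw [this]
    have : 0 < t * (s - φ y) := mul_pos ht0 (by linarith)
    linarith
  have hpnorm : 1 < ‖p‖ := by
    have := hle p
    have h2 := le_abs_self (φ p)
    linarith
  have hpx : ‖p - x‖ < 1 := by
    have : p - x = (1 - t) • y + t • v := by
      rw [hp, hy]
      simp only [smul_sub, sub_smul, one_smul]
      abel
    rw [this]
    calc ‖(1 - t) • y + t • v‖ ≤ ‖(1 - t) • y‖ + ‖t • v‖ := norm_add_le _ _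
      _ = (1 - t) * 1 + t * s := by
          rw [norm_smul, norm_smul, hynorm, hvnorm, Real.norm_eq_abs, Real.norm_eq_abs,
            abs_of_pos (by linarith : (0 : ℝ) < 1 - t), abs_of_pos ht0]
      _ < 1 := by nlinarith
  obtain ⟨hp0, hnear⟩ := norm_normalize_near (c := c) (p := p) hc
    (e := 2 * t) (by linarith) hpc
  refine ⟨‖p‖⁻¹ • p, ?_, ?_, ?_⟩
  · rw [norm_smul, norm_inv, norm_norm, inv_mul_cancel₀ hp0.ne']
  · calc ‖(‖p‖⁻¹ • p) - c‖ ≤ 2 * (2 * t) := hnear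
      _ < ε := by nlinarith
  · -- convex combination of p and 0
    have hinv : 0 < ‖p‖⁻¹ := inv_pos.2 hp0
    have hinv1 : ‖p‖⁻¹ ≤ 1 := inv_le_one_of_one_le₀ hpnorm.le
    have : (‖p‖⁻¹ • p) - x = ‖p‖⁻¹ • (p - x) + (1 - ‖p‖⁻¹) • (-x) := by
      simp only [smul_sub, sub_smul, one_smul, smul_neg]
      abel
    rw [this]
    calc ‖‖p‖⁻¹ • (p - x) + (1 - ‖p‖⁻¹) • (-x)‖
        ≤ ‖‖p‖⁻¹ • (p - x)‖ + ‖(1 - ‖p‖⁻¹) • (-x)‖ := norm_add_le _ _
      _ = ‖p‖⁻¹ * ‖p - x‖ + (1 - ‖p‖⁻¹) * 1 := by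
          rw [norm_smul, norm_smul, norm_neg, hx, Real.norm_eq_abs, Real.norm_eq_abs,
            abs_of_pos hinv, abs_of_nonneg (by linarith)]
      _ < 1 := by nlinarith

/-- Outside point: near `c` on the sphere there is a point at distance `> 1` from `x`. -/
theorem exists_outside {x c : X} (hc : ‖c‖ = 1) (hx : ‖x‖ = 1) (hxc : ‖x - c‖ = 1)
    (hn : NoKill c x) {ε : ℝ} (hε : 0 < ε) :
    ∃ c₂ : X, ‖c₂‖ = 1 ∧ ‖c₂ - c‖ < ε ∧ 1 < ‖c₂ - x‖ := by
  set y := c - x with hy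
  have hynorm : ‖y‖ = 1 := by rw [hy, norm_sub_rev]; exact hxc
  obtain ⟨φ, hφn, hφy⟩ : ∃ φ : StrongDual ℝ X, ‖φ‖ ≤ 1 ∧ φ y = 1 := by
    have hne : y ≠ 0 := by
      intro h; rw [h, norm_zero] at hynorm; exact zero_ne_one hynorm
    obtain ⟨φ, h1, h2⟩ := exists_dual_vector ℝ y (norm_ne_zero_iff.2 hne)
    refine ⟨φ, h1.le, ?_⟩
    rw [h2, hynorm]; rfl
  have hle : ∀ v : X, |φ v| ≤ ‖v‖ := fun v => by
    have := φ.le_opNorm v
    rw [Real.norm_eq_abs] at this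
    calc |φ v| ≤ ‖φ‖ * ‖v‖ := this
      _ ≤ 1 * ‖v‖ := by gcongr
      _ = ‖v‖ := one_mul _
  have hφc : φ c = 1 + φ x := by
    have : c = y + x := by rw [hy]; abel
    rw [this, map_add, hφy]
  have hφcle : φ c ≤ 1 := by
    have := le_abs_self (φ c)
    have h2 := hle c
    rw [hc] at h2
    linarith
  have hφx : φ x < 0 := by
    have h1 : φ x ≤ 0 := by linarith
    refine lt_of_le_of_ne h1 ?_
    intro h0
    exact hn φ hφn (by rw [hφc, h0, add_zero]) h0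
  set t := min (ε / 8) (1 / 8) with ht
  have ht0 : 0 < t := lt_min (by positivity) (by norm_num)
  have ht1 : t ≤ 1 / 8 := min_le_right _ _
  have htε : t ≤ ε / 8 := min_le_left _ _
  set q : X := c - t • x with hq
  have hqc : ‖q - c‖ ≤ t := by
    have : q - c = -(t • x) := by rw [hq]; abel
    rw [this, norm_neg, norm_smul, hx, Real.norm_eq_abs, abs_of_pos ht0, mul_one]
  obtain ⟨hq0, hnear⟩ := norm_normalize_near (c := c) (p := q) hc (e := t) (by linarith) hqc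
  have hq1 : ‖q‖ ≤ 1 + t := by
    calc ‖q‖ ≤ ‖c‖ + ‖t • x‖ := norm_sub_le _ _
      _ = 1 + t := by rw [hc, norm_smul, hx, Real.norm_eq_abs, abs_of_pos ht0, mul_one]
  have hq2 : 1 - t ≤ ‖q‖ := by
    have := norm_sub_norm_le c (t • x)
    rw [hc, norm_smul, hx, Real.norm_eq_abs, abs_of_pos ht0, mul_one] at this
    linarith
  have hq3 : ‖q‖ ≤ 1 := by
    -- q = (1 - t) c + t y
    have : q = (1 - t) • c + t • y := by
      rw [hq, hy]
      simp only [smul_sub, sub_smul, one_smul]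
      abel
    rw [this]
    calc ‖(1 - t) • c + t • y‖ ≤ ‖(1 - t) • c‖ + ‖t • y‖ := norm_add_le _ _
      _ = (1 - t) * 1 + t * 1 := by
          rw [norm_smul, norm_smul, hc, hynorm, Real.norm_eq_abs, Real.norm_eq_abs,
            abs_of_pos (by linarith : (0 : ℝ) < 1 - t), abs_of_pos ht0]
      _ = 1 := by ring
  refine ⟨‖q‖⁻¹ • q, ?_, ?_, ?_⟩
  · rw [norm_smul, norm_inv, norm_norm, inv_mul_cancel₀ hq0.ne']
  · calc ‖(‖q‖⁻¹ • q) - c‖ ≤ 2 * t := hnear
      _ < ε := by nlinarith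
  · -- the functional
    have hφq : φ q = φ c - t * φ x := by
      rw [hq, map_sub, map_smul]; rfl
    have hkey : 1 < φ ((‖q‖⁻¹ • q) - x) := by
      rw [map_sub, map_smul, hφq]
      simp only [smul_eq_mul]
      have hqi : 0 < ‖q‖⁻¹ := inv_pos.2 hq0
      -- target: ‖q‖⁻¹ * (φ c - t φ x) - φ x > 1, i.e. φ c - t φ x > φ c ‖q‖
      have h3 : φ c * ‖q‖ < φ c - t * φ x := by
        by_cases hc0 : 0 ≤ φ c
        · have h4 : φ c * ‖q‖ ≤ φ c * 1 := by
            exact mul_le_mul_of_nonneg_left hq3 hc0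
          nlinarith
        · push Not at hc0
          -- φ c < 0: φ c ‖q‖ ≤ φ c (1 - t)
          have h4 : φ c * ‖q‖ ≤ φ c * (1 - t) := by
            exact mul_le_mul_of_nonpos_left hq2 hc0.le
          -- φ c (1 - t) < φ c - t φ x as φ x = φ c - 1
          have hx' : φ x = φ c - 1 := by linarith
          rw [hx']
          nlinarith
      have h5 : ‖q‖⁻¹ * (φ c - t * φ x) - φ x = ‖q‖⁻¹ * (φ c - t * φ x - φ x * ‖q‖) := by
        field_simp
      rw [h5]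
      have h6 : φ x = φ c - 1 := by linarith
      have h7 : φ c - t * φ x - φ x * ‖q‖ = (φ c - t * φ x - φ c * ‖q‖) + ‖q‖ := by
        rw [h6]; ring
      rw [h7]
      have h8 : 0 < φ c - t * φ x - φ c * ‖q‖ := by linarith
      calc 1 = ‖q‖⁻¹ * ‖q‖ := (inv_mul_cancel₀ hq0.ne').symm
        _ < ‖q‖⁻¹ * (φ c - t * φ x - φ c * ‖q‖ + ‖q‖) := by
            apply mul_lt_mul_of_pos_left _ hqi
            linarith
    have := hle ((‖q‖⁻¹ • q) - x)
    have h2 := le_abs_self (φ ((‖q‖⁻¹ • q) - x))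
    linarith

/-- Crossing: if `c ∈ E_x` and no norming functional of `c` kills `x`, then for `x'` near `x`
there is `c'` near `c` on the sphere with `‖x' - c'‖ = 1`. -/
theorem exists_near_unit_dist {x c : X} (hc : ‖c‖ = 1) (hx : ‖x‖ = 1) (hxc : ‖x - c‖ = 1)
    (hn : NoKill c x) {ε : ℝ} (hε : 0 < ε) :
    ∃ δ > 0, ∀ x' : X, ‖x' - x‖ < δ → ∃ c' : X, ‖c'‖ = 1 ∧ ‖c' - c‖ < ε ∧ ‖x' - c'‖ = 1 := by
  set e := min (ε / 4) (1 / 4) with he
  have he0 : 0 < e := lt_min (by positivity) (by norm_num)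
  have he1 : e ≤ 1 / 4 := min_le_right _ _
  have heε : e ≤ ε / 4 := min_le_left _ _
  obtain ⟨c₁, h1n, h1c, h1x⟩ := exists_inside hc hx hxc hn he0
  obtain ⟨c₂, h2n, h2c, h2x⟩ := exists_outside hc hx hxc hn he0
  refine ⟨min (1 - ‖c₁ - x‖) (‖c₂ - x‖ - 1), lt_min (by linarith) (by linarith), ?_⟩
  intro x' hx'
  have hd1 : ‖x' - x‖ < 1 - ‖c₁ - x‖ := lt_of_lt_of_le hx' (min_le_left _ _)
  have hd2 : ‖x' - x‖ < ‖c₂ - x‖ - 1 := lt_of_lt_of_le hx' (min_le_right _ _)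
  -- path from c₁ to c₂ on the sphere, near c
  let L : ℝ → X := fun u => (1 - u) • c₁ + u • c₂
  have hLcont : Continuous L := by fun_prop
  have hLnear : ∀ u ∈ Icc (0 : ℝ) 1, ‖L u - c‖ ≤ e := by
    intro u hu
    have : L u - c = (1 - u) • (c₁ - c) + u • (c₂ - c) := by
      simp only [L, smul_sub, sub_smul, one_smul]
      abel
    rw [this]
    calc ‖(1 - u) • (c₁ - c) + u • (c₂ - c)‖
        ≤ ‖(1 - u) • (c₁ - c)‖ + ‖u • (c₂ - c)‖ := norm_add_le _ _
      _ = (1 - u) * ‖c₁ - c‖ + u * ‖c₂ - c‖ := by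
          rw [norm_smul, norm_smul, Real.norm_eq_abs, Real.norm_eq_abs,
            abs_of_nonneg (by linarith [hu.2]), abs_of_nonneg hu.1]
      _ ≤ (1 - u) * e + u * e := by
          have := hu.1; have := hu.2
          gcongr
      _ = e := by ring
  have hLpos : ∀ u ∈ Icc (0 : ℝ) 1, L u ≠ 0 := by
    intro u hu h0
    have := hLnear u hu
    rw [h0, zero_sub, norm_neg, hc] at this
    linarith
  let γ : ℝ → X := fun u => ‖L u‖⁻¹ • L u
  have hγcont : ContinuousOn (fun u => ‖γ u - x'‖) (Icc (0 : ℝ) 1) := by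
    apply ContinuousOn.norm
    apply ContinuousOn.sub _ continuousOn_const
    apply ContinuousOn.smul _ hLcont.continuousOn
    apply ContinuousOn.inv₀ hLcont.norm.continuousOn
    intro u hu
    exact norm_ne_zero_iff.2 (hLpos u hu)
  have hγ0 : γ 0 = c₁ := by
    simp [γ, L, h1n]
  have hγ1 : γ 1 = c₂ := by
    simp [γ, L, h2n]
  have hlow : ‖γ 0 - x'‖ ≤ 1 := by
    rw [hγ0]
    calc ‖c₁ - x'‖ = ‖(c₁ - x) - (x' - x)‖ := by congr 1; abel
      _ ≤ ‖c₁ - x‖ + ‖x' - x‖ := norm_sub_le _ _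
      _ ≤ 1 := by linarith
  have hhigh : 1 ≤ ‖γ 1 - x'‖ := by
    rw [hγ1]
    have h := norm_sub_norm_le (c₂ - x) (x' - x)
    have h' : c₂ - x - (x' - x) = c₂ - x' := by abel
    rw [h'] at h
    linarith
  obtain ⟨u, hu, hu1⟩ := intermediate_value_Icc (zero_le_one) hγcont ⟨hlow, hhigh⟩
  obtain ⟨hpos, hnear⟩ := norm_normalize_near (c := c) (p := L u) hc (e := e) (by linarith)
    (hLnear u hu)
  refine ⟨γ u, ?_, ?_, ?_⟩
  · simp only [γ]
    rw [norm_smul, norm_inv, norm_norm, inv_mul_cancel₀ hpos.ne']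
  · have : ‖γ u - c‖ ≤ 2 * e := hnear
    linarith
  · rw [norm_sub_rev]; exact hu1

/-- The set of pairs `(c, x)` with a norming functional of `c` killing `x` is closed. -/
theorem isClosed_kill [FiniteDimensional ℝ X] :
    IsClosed {p : X × X | ∃ φ : StrongDual ℝ X, ‖φ‖ ≤ 1 ∧ φ p.1 = 1 ∧ φ p.2 = 0} := by
  have : ProperSpace (StrongDual ℝ X) := FiniteDimensional.proper_real _
  apply IsSeqClosed.isClosed
  intro pn p hpn hlim
  choose φ hφ1 hφ2 hφ3 using hpn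
  have hcomp : IsCompact (closedBall (0 : StrongDual ℝ X) 1) := isCompact_closedBall _ _
  obtain ⟨ψ, hψ, s, hs, hconv⟩ := hcomp.tendsto_subseq
    (x := φ) (fun n => by simpa using hφ1 n)
  have hfst : Tendsto (fun n => (pn (s n)).1) atTop (𝓝 p.1) :=
    (continuous_fst.tendsto p).comp (hlim.comp hs.tendsto_atTop)
  have hsnd : Tendsto (fun n => (pn (s n)).2) atTop (𝓝 p.2) :=
    (continuous_snd.tendsto p).comp (hlim.comp hs.tendsto_atTop)
  have hev : Continuous (fun q : StrongDual ℝ X × X => q.1 q.2) := by fun_prop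
  have h1 : Tendsto (fun n => φ (s n) (pn (s n)).1) atTop (𝓝 (ψ p.1)) :=
    (hev.tendsto (ψ, p.1)).comp (hconv.prodMk_nhds hfst)
  have h2 : Tendsto (fun n => φ (s n) (pn (s n)).2) atTop (𝓝 (ψ p.2)) :=
    (hev.tendsto (ψ, p.2)).comp (hconv.prodMk_nhds hsnd)
  refine ⟨ψ, by simpa using hψ, ?_, ?_⟩
  · refine tendsto_nhds_unique h1 ?_
    have : (fun n => φ (s n) (pn (s n)).1) = fun _ => (1 : ℝ) := by
      funext n
      exact hφ2 (s n)
    rw [this]
    exact tendsto_const_nhds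
  · refine tendsto_nhds_unique h2 ?_
    have : (fun n => φ (s n) (pn (s n)).2) = fun _ => (0 : ℝ) := by
      funext n
      exact hφ3 (s n)
    rw [this]
    exact tendsto_const_nhds

variable (X) in
/-- The relation `P0` of step 1: unit distance, no normal at either point kills the other point. -/
def P0 : Set (sphere (0 : X) 1 × sphere (0 : X) 1) :=
  {p | ‖(p.1 : X) - p.2‖ = 1 ∧ NoKill (p.2 : X) p.1 ∧ NoKill (p.1 : X) p.2}

theorem P0_symm {p : sphere (0 : X) 1 × sphere (0 : X) 1} (h : p ∈ P0 X) : p.swap ∈ P0 X :=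
  ⟨by simpa [norm_sub_rev] using h.1, h.2.2, h.2.1⟩

/-- The second projection and first projection of `P0` are open. -/
theorem openProj_P0 [FiniteDimensional ℝ X] : OpenProj (P0 X) := by
  -- openness of the NoKill region
  have hQ : IsOpen {p : sphere (0 : X) 1 × sphere (0 : X) 1 |
      NoKill (p.2 : X) p.1 ∧ NoKill (p.1 : X) p.2} := by
    have h1 : IsOpen {p : sphere (0 : X) 1 × sphere (0 : X) 1 | NoKill (p.2 : X) p.1} := by
      have hc : Continuous (fun p : sphere (0 : X) 1 × sphere (0 : X) 1 =>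
          ((p.2 : X), (p.1 : X))) := by fun_prop
      have := (isClosed_kill (X := X)).isOpen_compl.preimage hc
      convert this using 1
      ext p
      simp only [NoKill, mem_ofPred_eq, mem_preimage, mem_compl_iff, not_exists, not_and]
    have h2 : IsOpen {p : sphere (0 : X) 1 × sphere (0 : X) 1 | NoKill (p.1 : X) p.2} := by
      have hc : Continuous (fun p : sphere (0 : X) 1 × sphere (0 : X) 1 =>
          ((p.1 : X), (p.2 : X))) := by fun_prop
      have := (isClosed_kill (X := X)).isOpen_compl.preimage hc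
      convert this using 1
      ext p
      simp only [NoKill, mem_ofPred_eq, mem_preimage, mem_compl_iff, not_exists, not_and]
    exact h1.inter h2
  have hfst : ∀ U : Set (sphere (0 : X) 1 × sphere (0 : X) 1), IsOpen U →
      IsOpen (Prod.fst '' (U ∩ P0 X)) := by
    intro U hU
    rw [isOpen_iff_mem_nhds]
    rintro x₀ ⟨⟨x, c⟩, ⟨hU', hP⟩, rfl⟩
    have hW : IsOpen (U ∩ {p : sphere (0 : X) 1 × sphere (0 : X) 1 |
      NoKill (p.2 : X) p.1 ∧ NoKill (p.1 : X) p.2}) := hU.inter hQ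
    have hmem : (x, c) ∈ U ∩ {p : sphere (0 : X) 1 × sphere (0 : X) 1 |
      NoKill (p.2 : X) p.1 ∧ NoKill (p.1 : X) p.2} := ⟨hU', hP.2⟩
    obtain ⟨ε, hε, hball⟩ := Metric.isOpen_iff.1 hW _ hmem
    have hcn : ‖(c : X)‖ = 1 := by simp
    have hxn : ‖(x : X)‖ = 1 := by simp
    obtain ⟨δ, hδ, hnear⟩ := exists_near_unit_dist hcn hxn hP.1 hP.2.1 hε
    rw [Metric.mem_nhds_iff]
    refine ⟨min δ ε, lt_min hδ hε, ?_⟩
    intro x' hx'
    have hx'δ : ‖(x' : X) - x‖ < δ := by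
      have : dist x' x < min δ ε := hx'
      rw [Subtype.dist_eq, dist_eq_norm] at this
      exact lt_of_lt_of_le this (min_le_left _ _)
    have hx'ε : dist x' x < ε := by
      have : dist x' x < min δ ε := hx'
      exact lt_of_lt_of_le this (min_le_right _ _)
    obtain ⟨c', hc'n, hc'c, hc'd⟩ := hnear x' hx'δ
    let c'' : sphere (0 : X) 1 := ⟨c', by simpa using hc'n⟩
    have hin : (x', c'') ∈ ball (x, c) ε := by
      rw [mem_ball, Prod.dist_eq]
      refine max_lt hx'ε ?_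
      show dist c'' c < ε
      rw [Subtype.dist_eq, dist_eq_norm]
      exact hc'c
    have h := hball hin
    exact ⟨(x', c''), ⟨h.1, hc'd, h.2⟩, rfl⟩
  refine ⟨hfst, ?_⟩
  intro U hU
  have hsw : IsOpen (Prod.swap ⁻¹' U) := hU.preimage continuous_swap
  have := hfst _ hsw
  convert this using 1
  ext c
  constructor
  · rintro ⟨⟨x, c'⟩, ⟨hU', hP⟩, rfl⟩
    exact ⟨(c', x), ⟨hU', P0_symm hP⟩, rfl⟩
  · rintro ⟨⟨c', x⟩, ⟨hU', hP⟩, rfl⟩
    exact ⟨(x, c'), ⟨hU', P0_symm hP⟩, rfl⟩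

end Vale.Agent.Lib.P084.D3
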