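/-
Step 1 of the paper proof: the local extremum lemma, obtained from `LocalExt`.
-/
import Vale.Agent.Lib.P084.D3.Calc
import Vale.Agent.Lib.P084.D3.LocalExt

namespace Vale.Agent.Lib.P084.D3

variable {X : Type*} [NormedAddCommGroup X] [NormedSpace ℝ X]

/-- Inside point.  `r = (1-t) c + t x/2` is in both open balls, `p = c + t (v - y)` with
`y = c - x`, `v` in the open ball with `φ v > φ y`, `φ ∈ Nrm c` (`φ x > 0`) is in `x + int B`,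
outside `B`; the segment `[r,p]` stays in the open ball around `x` and crosses the sphere. -/
theorem exists_near_lt {x c : X} (hx : ‖x‖ = 1) (hc : c ∈ Eo x) (hn : ∀ φ ∈ Nrm c, φ x ≠ 0)
    {ε : ℝ} (hε : 0 < ε) : ∃ c' : X, ‖c'‖ = 1 ∧ ‖c' - c‖ < ε ∧ ‖x - c'‖ < 1 := by
  obtain ⟨c₁, h1, h2, h3⟩ := exists_inside hc.1 hx hc.2 (fun φ h1 h2 => hn φ ⟨h1, h2⟩) hε
  exact ⟨c₁, h1, h2, by rwa [norm_sub_rev]⟩

/-- Outside point.  `φ ∈ Nrm (c - x)` has `φ x < 0` (otherwise `φ x = 0`, `φ ∈ Nrm c`), so the half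
space `φ (· - x) > 1` is disjoint from `x + B`; it contains a point of `int B` near `c` and a point
outside `B` near `c`. -/
theorem exists_near_gt {x c : X} (hx : ‖x‖ = 1) (hc : c ∈ Eo x) (hn : ∀ φ ∈ Nrm c, φ x ≠ 0)
    {ε : ℝ} (hε : 0 < ε) : ∃ c' : X, ‖c'‖ = 1 ∧ ‖c' - c‖ < ε ∧ 1 < ‖x - c'‖ := by
  obtain ⟨c₁, h1, h2, h3⟩ := exists_outside hc.1 hx hc.2 (fun φ h1 h2 => hn φ ⟨h1, h2⟩) hε
  exact ⟨c₁, h1, h2, by rwa [norm_sub_rev]⟩

end Vale.Agent.Lib.P084.D3
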