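import Mathlib

/-!
Abstract Kuratowski-Ulam statement for a relation with open projections, and its self-improving
form: a residual set `G` such that for every `x` in `G`, the set `G` is residual in the fibre of `x`.
-/

namespace Vale.Agent.Lib.P084.D3

open Set TopologicalSpace

variable {S : Type*} [TopologicalSpace S]

/-- The fibre of a relation over `x`. -/
def Fib (P : Set (S × S)) (x : S) : Set S := {c | (x, c) ∈ P}

/-- Both projections of `P` are open maps on `P`. -/
def OpenProj (P : Set (S × S)) : Prop :=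
  (∀ U : Set (S × S), IsOpen U → IsOpen (Prod.fst '' (U ∩ P))) ∧
    (∀ U : Set (S × S), IsOpen U → IsOpen (Prod.snd '' (U ∩ P)))

/-- One open dense set `O`: for a residual set of `x`, the set `O` meets every relatively open
part of the fibre. -/
theorem residual_fibre_dense [SecondCountableTopology S] {P : Set (S × S)} (hP : OpenProj P)
    {O : Set S} (hO : IsOpen O) (hd : Dense O) :
    {x | ∀ c ∈ Fib P x, ∀ V : Set S, IsOpen V → c ∈ V → ∃ c' ∈ V ∩ O, c' ∈ Fib P x} ∈ residual S := by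
  classical
  obtain ⟨b, hbc, -, hb⟩ := TopologicalSpace.exists_countable_basis S
  -- the good open dense sets
  let A : Set S → Set S := fun V => Prod.fst '' ((univ ×ˢ V) ∩ P)
  let A' : Set S → Set S := fun V => Prod.fst '' ((univ ×ˢ (V ∩ O)) ∩ P)
  let T : Set S → Set S := fun V => A' V ∪ (closure (A V))ᶜ
  have hT : ∀ V ∈ b, T V ∈ residual S := by
    intro V hV
    have hVo : IsOpen V := hb.isOpen hV
    have hA'o : IsOpen (A' V) :=
      hP.1 _ (isOpen_univ.prod (hVo.inter hO))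
    have hTo : IsOpen (T V) := hA'o.union isClosed_closure.isOpen_compl
    refine residual_of_dense_open hTo ?_
    -- density
    rw [dense_iff_inter_open]
    intro U hU hne
    by_cases hUA : (U ∩ (closure (A V))ᶜ).Nonempty
    · obtain ⟨y, hyU, hy⟩ := hUA
      exact ⟨y, hyU, Or.inr hy⟩
    · -- U is inside the closure of A V: so U meets A V
      have hsub : U ⊆ closure (A V) := by
        intro y hy
        by_contra hc
        exact hUA ⟨y, hy, hc⟩
      obtain ⟨y, hyU⟩ := hne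
      have hy := hsub hyU
      obtain ⟨z, hzU, hzA⟩ := mem_closure_iff.1 hy U hU hyU
      obtain ⟨⟨x, c⟩, ⟨⟨-, hcV⟩, hxc⟩, rfl⟩ := hzA
      -- use the second projection
      have h2 : IsOpen (Prod.snd '' ((U ×ˢ V) ∩ P)) := hP.2 _ (hU.prod hVo)
      have hne2 : (Prod.snd '' ((U ×ˢ V) ∩ P)).Nonempty :=
        ⟨c, (x, c), ⟨⟨hzU, hcV⟩, hxc⟩, rfl⟩
      obtain ⟨c', hc', hc'O⟩ := hd.inter_open_nonempty _ h2 hne2
      obtain ⟨⟨x', c''⟩, ⟨⟨hx'U, hc''V⟩, hx'P⟩, rfl⟩ := hc'
      refine ⟨x', hx'U, Or.inl ?_⟩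
      exact ⟨(x', _), ⟨⟨mem_univ _, hc''V, hc'O⟩, hx'P⟩, rfl⟩
  have hall : ⋂ V ∈ b, T V ∈ residual S := by
    exact (countable_bInter_mem hbc).2 hT
  refine Filter.mem_of_superset hall ?_
  intro x hx c hc V hVo hcV
  obtain ⟨W, hWb, hcW, hWV⟩ := hb.exists_subset_of_mem_open hcV hVo
  have hxT := mem_iInter₂.1 hx W hWb
  have hxA : x ∈ A W := ⟨(x, c), ⟨⟨mem_univ _, hcW⟩, hc⟩, rfl⟩
  rcases hxT with h | h
  · obtain ⟨⟨x', c'⟩, ⟨⟨-, hc'W, hc'O⟩, hP'⟩, rfl⟩ := h
    exact ⟨c', ⟨hWV hc'W, hc'O⟩, hP'⟩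
  · exact absurd (subset_closure hxA) h

/-- A residual set is residual in the fibres over a residual set of points. -/
theorem residual_fibre [SecondCountableTopology S] {P : Set (S × S)} (hP : OpenProj P)
    {R : Set S} (hR : R ∈ residual S) :
    {x | ((↑) : Fib P x → S) ⁻¹' R ∈ residual (Fib P x)} ∈ residual S := by
  obtain ⟨𝒮, hopen, hdense, hcount, hsub⟩ := mem_residual_iff.1 hR
  have hall : ⋂ O ∈ 𝒮, {x | ∀ c ∈ Fib P x, ∀ V : Set S, IsOpen V → c ∈ V →
      ∃ c' ∈ V ∩ O, c' ∈ Fib P x} ∈ residual S :=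
    (countable_bInter_mem hcount).2 fun O hO => residual_fibre_dense hP (hopen O hO) (hdense O hO)
  refine Filter.mem_of_superset hall ?_
  intro x hx
  have hx' := mem_iInter₂.1 hx
  -- the preimage of each `O` is open dense in the fibre
  have hone : ∀ O ∈ 𝒮, ((↑) : Fib P x → S) ⁻¹' O ∈ residual (Fib P x) := by
    intro O hO
    refine residual_of_dense_open ((hopen O hO).preimage continuous_subtype_val) ?_
    rw [dense_iff_inter_open]
    intro U hU hne
    obtain ⟨V, hVo, rfl⟩ := isOpen_induced_iff.1 hU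
    obtain ⟨⟨c, hc⟩, hcV⟩ := hne
    obtain ⟨c', ⟨hc'V, hc'O⟩, hc'F⟩ := hx' O hO c hc V hVo hcV
    exact ⟨⟨c', hc'F⟩, hc'V, hc'O⟩
  have hinter : ⋂ O ∈ 𝒮, ((↑) : Fib P x → S) ⁻¹' O ∈ residual (Fib P x) :=
    (countable_bInter_mem hcount).2 hone
  refine Filter.mem_of_superset hinter ?_
  intro c hc
  apply hsub
  rw [mem_sInter]
  intro O hO
  exact mem_iInter₂.1 hc O hO

/-- Self-improving form: inside any residual set there is a residual set `G` with `G` residual in
the fibre of each of its points. -/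
theorem exists_self_residual [SecondCountableTopology S] {P : Set (S × S)} (hP : OpenProj P)
    {R : Set S} (hR : R ∈ residual S) :
    ∃ G ⊆ R, G ∈ residual S ∧ ∀ x ∈ G, ((↑) : Fib P x → S) ⁻¹' G ∈ residual (Fib P x) := by
  classical
  -- iterate
  let step : Set S → Set S := fun R => R ∩ {x | ((↑) : Fib P x → S) ⁻¹' R ∈ residual (Fib P x)}
  let seq : ℕ → Set S := fun n => Nat.rec R (fun _ A => step A) n
  have hseq : ∀ n, seq n ∈ residual S := by
    intro n
    induction n with
    | zero => exact hR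
    | succ n ih => exact Filter.inter_mem ih (residual_fibre hP ih)
  have hstep : ∀ n, seq (n + 1) = step (seq n) := fun n => rfl
  have hmono : ∀ n, seq (n + 1) ⊆ seq n := fun n => by
    rw [hstep]; exact inter_subset_left
  refine ⟨⋂ n, seq n, ?_, ?_, ?_⟩
  · exact fun x hx => mem_iInter.1 hx 0
  · exact countable_iInter_mem.2 hseq
  · intro x hx
    have hall : ∀ n, ((↑) : Fib P x → S) ⁻¹' (seq n) ∈ residual (Fib P x) := by
      intro n
      have h := mem_iInter.1 hx (n + 1)
      rw [hstep] at h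
      exact h.2
    have : ⋂ n, ((↑) : Fib P x → S) ⁻¹' (seq n) ∈ residual (Fib P x) :=
      countable_iInter_mem.2 hall
    refine Filter.mem_of_superset this ?_
    intro c hc
    exact mem_iInter.2 fun n => mem_iInter.1 hc n

/-- Consequence in a Baire fibre: `G` is dense in the fibre. -/
theorem dense_in_fibre {P : Set (S × S)} {x : S} {G : Set S}
    [BaireSpace (Fib P x)]
    (h : ((↑) : Fib P x → S) ⁻¹' G ∈ residual (Fib P x)) {c : S} (hc : c ∈ Fib P x)
    {V : Set S} (hV : IsOpen V) (hcV : c ∈ V) : ∃ c' ∈ V ∩ G, c' ∈ Fib P x := by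
  have hd := dense_of_mem_residual h
  have hVo : IsOpen (((↑) : Fib P x → S) ⁻¹' V) := hV.preimage continuous_subtype_val
  obtain ⟨⟨c', hc'⟩, h1, h2⟩ := hd.inter_open_nonempty _ hVo ⟨⟨c, hc⟩, hcV⟩
  exact ⟨c', ⟨h1, h2⟩, hc'⟩

end Vale.Agent.Lib.P084.D3
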