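/-
Assembly of the generic set: `G₀` = smooth, off `DSet`, dichotomy; `G_{k+1} = G_k ∩ ku G_k`,
`G = ⋂ G_k`.  Fibres `Fib x` are locally compact, so Baire: `G ∩ Fib x` is dense in `Fib x`.
-/
import Vale.Agent.Lib.P084.D3.KU
import Vale.Agent.Lib.P084.D3.Extremum
import Vale.Agent.Lib.P084.D3.Dicho

namespace Vale.Agent.Lib.P084.D3

open Vale.Agent.Lib.P084.UC

variable {X Y : Type*} [NormedAddCommGroup X] [NormedSpace ℝ X] [FiniteDimensional ℝ X]
  [NormedAddCommGroup Y] [NormedSpace ℝ Y] [FiniteDimensional ℝ Y]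

/-- Pairs `(x,c)` such that some normal at `c` vanishes at `x`. -/
def GBad (X : Type*) [NormedAddCommGroup X] [NormedSpace ℝ X] : Set (Sph X × Sph X) :=
  {q | ∃ φ ∈ Nrm (q.2 : X), φ (q.1 : X) = 0}

/-- The relation used for the self-improving Baire argument. -/
def GRel (X : Type*) [NormedAddCommGroup X] [NormedSpace ℝ X] : Set (Sph X × Sph X) :=
  {q | ‖(q.1 : X) - (q.2 : X)‖ = 1 ∧ (∀ φ ∈ Nrm (q.2 : X), φ (q.1 : X) ≠ 0) ∧
    (∀ φ ∈ Nrm (q.1 : X), φ (q.2 : X) ≠ 0)}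

omit [FiniteDimensional ℝ X] in
theorem GRel.swap {q : Sph X × Sph X} (h : q ∈ GRel X) : q.swap ∈ GRel X :=
  ⟨by simpa [norm_sub_rev] using h.1, h.2.2, h.2.1⟩

theorem isClosed_GBad : IsClosed (GBad X) := by
  have : ProperSpace (X →L[ℝ] ℝ) := FiniteDimensional.proper_real _
  refine IsSeqClosed.isClosed ?_
  intro q_n q hq_n hq
  choose φ_n hφ hφ0 using hq_n
  have hball : ∀ n, φ_n n ∈ Metric.closedBall (0 : X →L[ℝ] ℝ) 1 := fun n => by
    simpa using (hφ n).1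
  obtain ⟨φ, -, ψ, hψ, hlim⟩ := (isCompact_closedBall (0 : X →L[ℝ] ℝ) 1).tendsto_subseq hball
  have h1 : Filter.Tendsto (fun n => ((q_n (ψ n)).1 : X)) Filter.atTop (nhds (q.1 : X)) :=
    continuous_subtype_val.continuousAt.tendsto.comp
      (continuous_fst.continuousAt.tendsto.comp (hq.comp hψ.tendsto_atTop))
  have h2 : Filter.Tendsto (fun n => ((q_n (ψ n)).2 : X)) Filter.atTop (nhds (q.2 : X)) :=
    continuous_subtype_val.continuousAt.tendsto.comp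
      (continuous_snd.continuousAt.tendsto.comp (hq.comp hψ.tendsto_atTop))
  refine ⟨φ, Nrm.of_tendsto h2 hlim (fun n => hφ (ψ n)), ?_⟩
  have h3 : Filter.Tendsto (fun n => (φ_n (ψ n)) ((q_n (ψ n)).1 : X)) Filter.atTop
      (nhds (φ (q.1 : X))) := by
    have hlim' : Filter.Tendsto (fun n => φ_n (ψ n)) Filter.atTop (nhds φ) := hlim
    have hc : Filter.Tendsto (fun p : (X →L[ℝ] ℝ) × X => p.1 p.2) (nhds (φ, (q.1 : X)))
        (nhds (φ (q.1 : X))) := (isBoundedBilinearMap_apply.continuous.tendsto _)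
    exact hc.comp (hlim'.prodMk_nhds h1)
  have h4 : (fun n => (φ_n (ψ n)) ((q_n (ψ n)).1 : X)) = fun _ => (0 : ℝ) := by
    funext n; exact hφ0 (ψ n)
  rw [h4] at h3
  exact tendsto_nhds_unique h3 tendsto_const_nhds

omit [FiniteDimensional ℝ X] in
/-- The relation as closed ∩ open. -/
theorem GRel_eq : GRel X = {q : Sph X × Sph X | ‖(q.1 : X) - (q.2 : X)‖ = 1} ∩
    ((GBad X)ᶜ ∩ (Prod.swap ⁻¹' (GBad X))ᶜ) := by
  ext q
  constructor
  · rintro ⟨h1, h2, h3⟩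
    refine ⟨h1, ?_, ?_⟩
    · rintro ⟨φ, hφ, h0⟩
      exact h2 φ hφ h0
    · rintro ⟨φ, hφ, h0⟩
      exact h3 φ hφ h0
  · rintro ⟨h1, h2, h3⟩
    refine ⟨h1, fun φ hφ h0 => h2 ⟨φ, hφ, h0⟩, fun φ hφ h0 => h3 ⟨φ, hφ, h0⟩⟩

theorem isLocallyClosed_GRel : IsLocallyClosed (GRel X) := by
  rw [GRel_eq]
  refine IsClosed.isLocallyClosed ?_ |>.inter (IsOpen.isLocallyClosed ?_)
  · exact isClosed_eq (by fun_prop) continuous_const
  · exact isClosed_GBad.isOpen_compl.inter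
      ((isClosed_GBad.preimage continuous_swap).isOpen_compl)

instance baire_fib (x : Sph X) : BaireSpace (Fib (GRel X) x) := by
  have h : IsLocallyClosed (Fib (GRel X) x) :=
    isLocallyClosed_GRel.preimage (f := fun c : Sph X => (x, c)) (by fun_prop)
  have : LocallyCompactSpace (Fib (GRel X) x) := h.locallyCompactSpace
  exact BaireSpace.of_t2Space_locallyCompactSpace

/-- The first projection of `GRel` is open. -/
theorem GRel_fst_open {U : Set (Sph X × Sph X)} (hU : IsOpen U) :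
    IsOpen (Prod.fst '' (U ∩ GRel X)) := by
  rw [Metric.isOpen_iff]
  rintro _ ⟨⟨x, c⟩, ⟨hU1, hP⟩, rfl⟩
  have hO : IsOpen (U ∩ ((GBad X)ᶜ ∩ (Prod.swap ⁻¹' (GBad X))ᶜ)) :=
    hU.inter (isClosed_GBad.isOpen_compl.inter
      ((isClosed_GBad.preimage continuous_swap).isOpen_compl))
  have hmem : (x, c) ∈ U ∩ ((GBad X)ᶜ ∩ (Prod.swap ⁻¹' (GBad X))ᶜ) := by
    rw [GRel_eq] at hP
    exact ⟨hU1, hP.2⟩
  obtain ⟨ε, hε, hball⟩ := Metric.isOpen_iff.1 hO _ hmem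
  have hx : ‖(x : X)‖ = 1 := by simpa using x.2
  have hc0 : ‖(c : X)‖ = 1 := by simpa using c.2
  have hc : (c : X) ∈ Eo (x : X) := ⟨hc0, hP.1⟩
  set δ : ℝ := min (ε / 6) (1 / 4) with hδ
  have hδ0 : 0 < δ := lt_min (by linarith) (by norm_num)
  have hδ1 : δ ≤ ε / 6 := min_le_left _ _
  have hδ2 : δ ≤ 1 / 4 := min_le_right _ _
  obtain ⟨c₁, hc₁, hc₁c, hc₁x⟩ := exists_near_lt hx hc hP.2.1 hδ0
  obtain ⟨c₂, hc₂, hc₂c, hc₂x⟩ := exists_near_gt hx hc hP.2.1 hδ0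
  refine ⟨min ε (min (1 - ‖(x : X) - c₁‖) (‖(x : X) - c₂‖ - 1)),
    lt_min hε (lt_min (by linarith) (by linarith)), ?_⟩
  intro x' hx'
  have hx'1 : dist x' x < ε := lt_of_lt_of_le hx' (min_le_left _ _)
  have hx'2 : ‖(x' : X) - (x : X)‖ < 1 - ‖(x : X) - c₁‖ := by
    have : dist x' x < 1 - ‖(x : X) - c₁‖ :=
      lt_of_lt_of_le hx' ((min_le_right _ _).trans (min_le_left _ _))
    rwa [Subtype.dist_eq, dist_eq_norm] at this
  have hx'3 : ‖(x' : X) - (x : X)‖ < ‖(x : X) - c₂‖ - 1 := by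
    have : dist x' x < ‖(x : X) - c₂‖ - 1 :=
      lt_of_lt_of_le hx' ((min_le_right _ _).trans (min_le_right _ _))
    rwa [Subtype.dist_eq, dist_eq_norm] at this
  have hlt : ‖(x' : X) - c₁‖ - 1 < 0 := by
    have : ‖(x' : X) - c₁‖ ≤ ‖(x' : X) - x‖ + ‖(x : X) - c₁‖ := by
      have := norm_add_le ((x' : X) - x) ((x : X) - c₁)
      simpa using this
    linarith
  have hgt : 0 < ‖(x' : X) - c₂‖ - 1 := by
    have : ‖(x : X) - c₂‖ ≤ ‖(x : X) - x'‖ + ‖(x' : X) - c₂‖ := by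
      have := norm_add_le ((x : X) - x') ((x' : X) - c₂)
      simpa using this
    rw [norm_sub_rev (x : X) (x' : X)] at this
    linarith
  have hcc : ‖c₁ - c₂‖ < 2 * δ := by
    have : ‖c₁ - c₂‖ ≤ ‖c₁ - c‖ + ‖(c : X) - c₂‖ := by
      have := norm_add_le (c₁ - c) ((c : X) - c₂)
      simpa using this
    rw [norm_sub_rev (c : X) c₂] at this
    linarith
  obtain ⟨c', hc', hc'0, hc'1, -⟩ := exists_radial_zero hc₁ hc₂ (by linarith)
    (g := fun z => ‖(x' : X) - z‖ - 1) (by fun_prop) hlt hgt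
  have hc'c : ‖c' - c‖ < ε := by
    have : ‖c' - c‖ ≤ ‖c' - c₁‖ + ‖c₁ - c‖ := by
      have := norm_add_le (c' - c₁) (c₁ - c)
      simpa using this
    linarith
  let t : Sph X := ⟨c', by simpa using hc'⟩
  have hin : ((x', t) : Sph X × Sph X) ∈ Metric.ball ((x, c) : Sph X × Sph X) ε := by
    rw [Metric.mem_ball, Prod.dist_eq]
    refine max_lt hx'1 ?_
    change dist t c < ε
    rw [Subtype.dist_eq, dist_eq_norm]
    exact hc'c
  have := hball hin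
  refine ⟨(x', t), ⟨this.1, ?_⟩, rfl⟩
  rw [GRel_eq]
  refine ⟨?_, this.2⟩
  change ‖(x' : X) - c'‖ = 1
  have h0 : ‖(x' : X) - c'‖ - 1 = 0 := hc'0
  linarith

theorem GRel_openProj : OpenProj (GRel X) := by
  refine ⟨fun U hU => GRel_fst_open hU, fun U hU => ?_⟩
  have h : Prod.snd '' (U ∩ GRel X) = Prod.fst '' ((Prod.swap ⁻¹' U) ∩ GRel X) := by
    ext c
    constructor
    · rintro ⟨q, ⟨h1, h2⟩, rfl⟩
      exact ⟨q.swap, ⟨by simpa using h1, GRel.swap h2⟩, rfl⟩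
    · rintro ⟨q, ⟨h1, h2⟩, rfl⟩
      exact ⟨q.swap, ⟨h1, GRel.swap h2⟩, rfl⟩
  rw [h]
  exact GRel_fst_open (hU.preimage continuous_swap)

theorem exists_gen (hdim : Module.finrank ℝ X = 3) {f : X → Y} (hf : IsSphereIso f) :
    ∃ G : Set X, IsGen f G := by
  have hX : Nontrivial X := by
    apply Module.nontrivial_of_finrank_pos (R := ℝ)
    omega
  have hdic : {x : Sph X | Sm (x : X) → IsFlat (x : X) ∨ ∀ a ∈ Eo (x : X), ∀ b ∈ Eo (x : X),
      nr (x : X) a = 0 → nr (x : X) b = 0 → a = b} ∈ residual (Sph X) := by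
    first
      | exact residual_dic hdim
      | exact residual_dic
  have hR : ({c : Sph X | Sm (c : X)} ∩ {c : Sph X | Sm (f (c : X))}) ∩
      ({c : Sph X | (c : X) ∉ (DSet : Set X)} ∩
        {x : Sph X | Sm (x : X) → IsFlat (x : X) ∨ ∀ a ∈ Eo (x : X), ∀ b ∈ Eo (x : X),
      nr (x : X) a = 0 → nr (x : X) b = 0 → a = b}) ∈ residual (Sph X) :=
    Filter.inter_mem (Filter.inter_mem (residual_sm hX) (residual_sm_comp hX hf))
      (Filter.inter_mem (residual_notD hdim) hdic)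
  obtain ⟨G, hGR, hGres, hGfib⟩ := exists_self_residual (GRel_openProj (X := X)) hR
  have hGd : Dense G := dense_of_mem_residual hGres
  refine ⟨Subtype.val '' G, ?_⟩
  refine ⟨?_, ?_, ?_, ?_, ?_⟩
  · rintro _ ⟨s, hs, rfl⟩
    have := hGR hs
    exact ⟨by simpa using s.2, this.1.1, this.1.2⟩
  · rintro _ ⟨s, hs, rfl⟩
    exact (hGR hs).2.1
  · intro z hz ε hε
    obtain ⟨y, hy, hyG⟩ := Metric.dense_iff.1 hGd (⟨z, by simpa using hz⟩ : Sph X) ε hε
    refine ⟨(y : X), ⟨y, hyG, rfl⟩, ?_⟩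
    have : dist y (⟨z, by simpa using hz⟩ : Sph X) < ε := hy
    rwa [Subtype.dist_eq, dist_eq_norm] at this
  · rintro _ ⟨s, hs, rfl⟩
    have := hGR hs
    exact this.2.2 this.1.1
  · rintro _ ⟨s, hs, rfl⟩ c hc hpos ε hε
    have hsR := hGR hs
    have hs1 : ‖(s : X)‖ = 1 := by simpa using s.2
    let t : Sph X := ⟨c, by simpa using hc.1⟩
    have hst : t ∈ Fib (GRel X) s := by
      refine ⟨hc.2, ?_, ?_⟩
      · intro φ hφ h0
        exact hsR.2.1 ⟨hs1, c, hc, φ, hφ, h0⟩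
      · intro φ hφ h0
        have := hsR.1.1 φ hφ
        rw [this] at h0
        change (nr (s : X)) c = 0 at h0
        linarith
    obtain ⟨c', ⟨hc'V, hc'G⟩, hc'F⟩ := dense_in_fibre (hGfib s hs) hst
      (Metric.isOpen_ball (x := t) (ε := ε)) (Metric.mem_ball_self hε)
    refine ⟨(c' : X), ⟨c', hc'G, rfl⟩, ?_, ?_, ?_⟩
    · exact ⟨by simpa using c'.2, hc'F.1⟩
    · have hne : nr (s : X) (c' : X) ≠ 0 := hc'F.2.2 _ (nr_mem hs1)
      have hE : (s : X) ∈ Eo (c' : X) := ⟨hs1, by rw [norm_sub_rev]; exact hc'F.1⟩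
      exact lt_of_le_of_ne (nonneg_at hE (nr_mem hs1)) (Ne.symm hne)
    · have : dist c' t < ε := hc'V
      rwa [Subtype.dist_eq, dist_eq_norm] at this

end Vale.Agent.Lib.P084.D3
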