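/-
Step 11, cases (alpha), (beta) of the key proposition.
-/
import Vale.Agent.Lib.P084.D3.Absorb
import Vale.Agent.Lib.P084.D3.Extremum

namespace Vale.Agent.Lib.P084.D3

variable {X Y : Type*} [NormedAddCommGroup X] [NormedSpace ℝ X] [FiniteDimensional ℝ X]
  [NormedAddCommGroup Y] [NormedSpace ℝ Y] [FiniteDimensional ℝ Y]

variable {f : X → Y} {G : Set X}

/-- (alpha) Good crossing. `c̃ ∈ G ∩ Eo x` near `a`, `eq_of_adj`; `q` is no local extremum of `‖· - a‖`, so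
`Eo c̃` passes near `q`; `eq_on_Eo` at `c̃`. -/
theorem step_alpha (E : Env f G) {x q a : X} (hx : x ∈ G) {L : X ≃L[ℝ] Y} (hL : IsLin f G x L)
    (hq : q ∈ G) (ha : a ∈ Eo x) (hax : 0 < nr x a) (haq : a ∈ Eo q) (haq' : 0 < nr q a)
    {ε : ℝ} (hε : 0 < ε) : ∃ q' : X, ‖q'‖ = 1 ∧ ‖q' - q‖ < ε ∧ f q' = L q' := by
  obtain ⟨hqn, hqs, -⟩ := E.gen.reg q hq
  have hqa : q ∈ Eo a := Eo.comm hqn haq
  have hn : ∀ φ ∈ Nrm q, φ a ≠ 0 := by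
    intro φ hφ
    rw [hqs φ hφ]
    exact haq'.ne'
  obtain ⟨ε', hε'0, hε'1, hε'2⟩ : ∃ ε' : ℝ, 0 < ε' ∧ ε' ≤ 1 / 4 ∧ 5 * ε' < ε :=
    ⟨min (ε / 6) (1 / 4), lt_min (by linarith) (by norm_num), min_le_right _ _, by
      have := min_le_left (ε / 6) (1 / 4)
      linarith⟩
  obtain ⟨q1, hq1n, hq1d, hq1l⟩ := exists_near_lt haq.1 hqa hn hε'0
  obtain ⟨q2, hq2n, hq2d, hq2l⟩ := exists_near_gt haq.1 hqa hn hε'0
  obtain ⟨c, hcG, hcE, hcpos, hcd⟩ := E.gen.fib x hx a ha hax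
    (min (1 - ‖a - q1‖) (‖a - q2‖ - 1)) (lt_min (by linarith) (by linarith))
  have hcd1 : ‖c - a‖ < 1 - ‖a - q1‖ := lt_of_lt_of_le hcd (min_le_left _ _)
  have hcd2 : ‖c - a‖ < ‖a - q2‖ - 1 := lt_of_lt_of_le hcd (min_le_right _ _)
  obtain ⟨L', hL'⟩ := exists_isLin E hcG
  have hLL : L = L' := IsLin.eq_of_adj E hx hcG hcE hL hL'
  have hlt : ‖c - q1‖ < 1 := by
    have : ‖c - q1‖ ≤ ‖c - a‖ + ‖a - q1‖ := norm_sub_le_norm_sub_add_norm_sub c a q1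
    linarith
  have hgt : 1 < ‖c - q2‖ := by
    have : ‖a - q2‖ ≤ ‖a - c‖ + ‖c - q2‖ := norm_sub_le_norm_sub_add_norm_sub a c q2
    rw [norm_sub_rev a c] at this
    linarith
  have h12 : ‖q1 - q2‖ < 2 * ε' := by
    have : ‖q1 - q2‖ ≤ ‖q1 - q‖ + ‖q - q2‖ := norm_sub_le_norm_sub_add_norm_sub q1 q q2
    rw [norm_sub_rev q q2] at this
    linarith
  obtain ⟨p, hp, hg, hpd, -⟩ := exists_radial_zero hq1n hq2n (by linarith)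
    (g := fun z => ‖c - z‖ - 1) (by fun_prop) (by simpa using hlt) (by simpa using hgt)
  refine ⟨p, hp, ?_, ?_⟩
  · have : ‖p - q‖ ≤ ‖p - q1‖ + ‖q1 - q‖ := norm_sub_le_norm_sub_add_norm_sub p q1 q
    linarith
  · have hpE : p ∈ Eo c := ⟨hp, by linarith⟩
    rw [IsLin.eq_on_Eo E hcG hL' hpE, hLL]

/-- (beta) `a ∈ J(q)`, `q` flat, `a ∉ J(x)`. -/
theorem step_beta (E : Env f G) {x q a : X} (hx : x ∈ G) {L L' : X ≃L[ℝ] Y} (hL : IsLin f G x L)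
    (hq : q ∈ G) (hfl : IsFlat q) (hL' : IsLin f G q L') (ha : a ∈ Eo x) (haq : a ∈ Eo q)
    (haq0 : nr q a = 0)
    (hseq : ∀ ε > 0, ∃ c ∈ Eo x, 0 < nr x c ∧ ‖c - a‖ < ε ∧ ‖q - c‖ < 1) : L = L' := by
  obtain ⟨hqn, hqs, -⟩ := E.gen.reg q hq
  obtain ⟨ε₀, hε₀, hup⟩ := upper_near hqn hqs hfl haq haq0
  obtain ⟨c, hcE, hcpos, hcd, hcq⟩ := hseq ε₀ hε₀
  have hcnr : 0 < nr q c := by
    have h1 := nrm_le (nr_mem hqn) (q - c)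
    rw [map_sub, (nr_mem hqn).2] at h1
    linarith
  have hcB : c ∈ BPlus q := hup c hcE.1 hcd hcnr
  obtain ⟨ε₁, hε₁, hnear⟩ := BPlus.near hcB
  obtain ⟨c', hc'G, hc'E, hc'pos, hc'd⟩ := E.gen.fib x hx c hcE hcpos ε₁ hε₁
  have hc'B : c' ∈ BPlus q := hnear c' hc'E.1 hc'd
  obtain ⟨L'', hL''⟩ := exists_isLin E hc'G
  have h1 : L = L'' := IsLin.eq_of_adj E hx hc'G hc'E hL hL''
  have h2 : L' = L'' := absorb E hq hfl hc'G hc'B hL' hL''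
  rw [h1, h2]

end Vale.Agent.Lib.P084.D3
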