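/-
Step 11, cases (gamma), (delta) of the key proposition.
(gamma): `c̃` near `a`, `nr x c̃ > 0`, `‖q - c̃‖ < 1` (push a point of `hseq` up); `q̃ ∈ G` near `q` with `‖q̃ - a‖ > 1` (`exists_near_gt`, `q` smooth with `nr q a > 0`), still `‖q̃ - c̃‖ < 1`;
`c₊` near `a`, `nr x c₊ > 0`, `‖q̃ - c₊‖ > 1`; `exists_radial_zero` gives `c*` with `‖q̃ - c*‖ = 1`, near `a`, `nr x c* > 0`, `nr q̃ c* > 0` (`Sm.nr_near` at `q`); `fib` at `q̃` gives `c' ∈ G ∩ Eo q̃` near `c*`, `c' ∈ BPlus x` (`upper_near`);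
`L_q̃ = L_c' = L_x` by `eq_of_adj`, `absorb`; `f q̃ = L_q̃ q̃` by `val`.
(delta): the vector `x + q` is positive for both functionals; `c' ∈ G` near `a` with both positive (`IsGen.dense`, open); `absorb` twice.
-/
import Vale.Agent.Lib.P084.D3.Absorb
import Vale.Agent.Lib.P084.D3.Extremum

namespace Vale.Agent.Lib.P084.D3

variable {X Y : Type*} [NormedAddCommGroup X] [NormedSpace ℝ X] [FiniteDimensional ℝ X]
  [NormedAddCommGroup Y] [NormedSpace ℝ Y] [FiniteDimensional ℝ Y]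

variable {f : X → Y} {G : Set X}

omit [FiniteDimensional ℝ X] in
/-- Push a unit vector a little in a direction, and normalise. -/
theorem push_near {c₀ w : X} (hc : ‖c₀‖ = 1) (hw : ‖w‖ ≤ 2) {τ : ℝ} (hτ0 : 0 < τ) (hτ1 : τ < 1 / 4) :
    ∃ u : X, ‖u‖ = 1 ∧ ‖u - c₀‖ ≤ 4 * τ ∧ ∃ l : ℝ, 0 < l ∧ u = l • (c₀ + τ • w) := by
  set y := c₀ + τ • w with hy
  have h1 : ‖τ • w‖ ≤ 2 * τ := by
    rw [norm_smul, Real.norm_of_nonneg hτ0.le]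
    nlinarith
  have h2 : ‖y‖ ≤ 1 + 2 * τ := by
    calc ‖y‖ ≤ ‖c₀‖ + ‖τ • w‖ := norm_add_le _ _
      _ ≤ 1 + 2 * τ := by rw [hc]; linarith
  have h3 : 1 - 2 * τ ≤ ‖y‖ := by
    have : ‖c₀‖ ≤ ‖y‖ + ‖τ • w‖ := by
      have h4 : c₀ = y - τ • w := by rw [hy]; abel
      calc ‖c₀‖ = ‖y - τ • w‖ := by rw [← h4]
        _ ≤ ‖y‖ + ‖τ • w‖ := norm_sub_le _ _
    rw [hc] at this
    linarith
  have hypos : 0 < ‖y‖ := by linarith
  refine ⟨‖y‖⁻¹ • y, ?_, ?_, ‖y‖⁻¹, inv_pos.2 hypos, rfl⟩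
  · rw [norm_smul, norm_inv, norm_norm, inv_mul_cancel₀ hypos.ne']
  · have h5 : ‖‖y‖⁻¹ • y - y‖ = |1 - ‖y‖| := by
      have h6 : ‖y‖⁻¹ • y - y = (‖y‖⁻¹ - 1) • y := by rw [sub_smul, one_smul]
      rw [h6, norm_smul, Real.norm_eq_abs]
      have h7 : |‖y‖⁻¹ - 1| * ‖y‖ = |(‖y‖⁻¹ - 1) * ‖y‖| := by
        rw [abs_mul, abs_of_pos hypos]
      rw [h7, sub_mul, inv_mul_cancel₀ hypos.ne', one_mul]
    have h8 : |1 - ‖y‖| ≤ 2 * τ := by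
      rw [abs_le]; constructor <;> linarith
    have h9 : ‖y - c₀‖ ≤ 2 * τ := by
      rw [hy, add_sub_cancel_left]; exact h1
    calc ‖‖y‖⁻¹ • y - c₀‖ ≤ ‖‖y‖⁻¹ • y - y‖ + ‖y - c₀‖ := norm_sub_le_norm_sub_add_norm_sub _ _ _
      _ ≤ 4 * τ := by rw [h5]; linarith

/-- (gamma) `a ∈ J(x)`, `x` flat, `a ∉ J(q)`. -/
theorem step_gamma (E : Env f G) {x q a : X} (hx : x ∈ G) (hfl : IsFlat x) {L : X ≃L[ℝ] Y}
    (hL : IsLin f G x L) (hq : q ∈ G) (ha : a ∈ Eo x) (ha0 : nr x a = 0) (haq : a ∈ Eo q)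
    (haq' : 0 < nr q a) (hseq : ∀ ε > 0, ∃ c ∈ Eo x, ‖c - a‖ < ε ∧ ‖q - c‖ < 1)
    {ε : ℝ} (hε : 0 < ε) : ∃ q' : X, ‖q'‖ = 1 ∧ ‖q' - q‖ < ε ∧ f q' = L q' := by
  obtain ⟨hxn, hxs, -⟩ := E.gen.reg x hx
  obtain ⟨hqn, hqs, -⟩ := E.gen.reg q hq
  have hxφ := nr_mem hxn
  have hqa : q ∈ Eo a := Eo.comm hqn haq
  have hn : ∀ φ ∈ Nrm q, φ a ≠ 0 := by
    intro φ hφ
    rw [hqs φ hφ]
    exact haq'.ne'
  obtain ⟨ε₁, hε₁, hup⟩ := upper_near hxn hxs hfl ha ha0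
  set κ := nr q a with hκ
  obtain ⟨δ₁, hδ₁, hnear⟩ := Sm.nr_near hqn hqs (ε := κ / 4) (by positivity)
  -- the radius
  obtain ⟨r, hr0, hr1, hr2, hr3⟩ : ∃ r : ℝ, 0 < r ∧ 10 * r ≤ ε₁ ∧ 10 * r ≤ κ / 4 ∧ r ≤ 1 / 40 := by
    refine ⟨min (min (ε₁ / 10) (κ / 40)) (1 / 40), lt_min (lt_min (by linarith) (by positivity)) (by norm_num),
      ?_, ?_, min_le_right _ _⟩
    · have := (min_le_left (min (ε₁ / 10) (κ / 40)) (1 / 40)).trans (min_le_left _ _)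
      linarith
    · have := (min_le_left (min (ε₁ / 10) (κ / 40)) (1 / 40)).trans (min_le_right _ _)
      linarith
  -- step 1: the inside point, pushed up
  obtain ⟨c₀, hc₀, hc₀a, hc₀q⟩ := hseq r hr0
  have hc₀n := hc₀.1
  have hnn₀ : 0 ≤ nr x c₀ := nonneg_at (Eo.comm hxn hc₀) hxφ
  set η := 1 - ‖q - c₀‖ with hη
  have hη0 : 0 < η := by rw [hη]; linarith
  obtain ⟨τ, hτ0, hτ1, hτ2, hτ3⟩ : ∃ τ : ℝ, 0 < τ ∧ 4 * τ ≤ r ∧ 4 * τ < η ∧ τ < 1 / 4 := by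
    refine ⟨min (min (r / 4) (η / 8)) (1 / 8), lt_min (lt_min (by linarith) (by linarith)) (by norm_num),
      ?_, ?_, ?_⟩
    · have := (min_le_left (min (r / 4) (η / 8)) (1 / 8)).trans (min_le_left _ _)
      linarith
    · have := (min_le_left (min (r / 4) (η / 8)) (1 / 8)).trans (min_le_right _ _)
      linarith
    · have := min_le_right (min (r / 4) (η / 8)) (1 / 8)
      linarith
  obtain ⟨c₁, hc₁n, hc₁d, l₁, hl₁, hc₁⟩ := push_near hc₀n (w := x) (by rw [hxn]; norm_num) hτ0 hτ3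
  have hc₁x : 0 < nr x c₁ := by
    rw [hc₁, map_smul, map_add, map_smul, hxφ.2, smul_eq_mul, smul_eq_mul]
    have : 0 < nr x c₀ + τ * 1 := by linarith
    positivity
  have hc₁a : ‖c₁ - a‖ ≤ 2 * r := by
    have : ‖c₁ - a‖ ≤ ‖c₁ - c₀‖ + ‖c₀ - a‖ := norm_sub_le_norm_sub_add_norm_sub _ _ _
    linarith
  have hc₁q : ‖q - c₁‖ < 1 := by
    have h3 : ‖q - c₁‖ ≤ ‖q - c₀‖ + ‖c₀ - c₁‖ := norm_sub_le_norm_sub_add_norm_sub _ _ _
    rw [norm_sub_rev c₀ c₁] at h3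
    linarith
  -- step 2: the moved point
  set ξ := 1 - ‖q - c₁‖ with hξ
  have hξ0 : 0 < ξ := by rw [hξ]; linarith
  set ε₃ := min (min (ξ / 4) (δ₁ / 4)) (ε / 4) with hε₃
  have hε₃0 : 0 < ε₃ := lt_min (lt_min (by linarith) (by linarith)) (by linarith)
  have hε₃1 : ε₃ ≤ ξ / 4 := (min_le_left _ _).trans (min_le_left _ _)
  have hε₃2 : ε₃ ≤ δ₁ / 4 := (min_le_left _ _).trans (min_le_right _ _)
  have hε₃3 : ε₃ ≤ ε / 4 := min_le_right _ _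
  obtain ⟨q₁, hq₁n, hq₁d, hq₁a⟩ := exists_near_gt haq.1 hqa hn hε₃0
  set ρ := min ε₃ (‖a - q₁‖ - 1) with hρ
  have hρ0 : 0 < ρ := lt_min hε₃0 (by linarith)
  obtain ⟨q₂, hq₂, hq₂d⟩ := E.gen.dense q₁ hq₁n ρ hρ0
  have hq₂n := (E.gen.reg q₂ hq₂).1
  have hq₂q : ‖q₂ - q‖ < 2 * ε₃ := by
    have h3 : ‖q₂ - q‖ ≤ ‖q₂ - q₁‖ + ‖q₁ - q‖ := norm_sub_le_norm_sub_add_norm_sub _ _ _
    have := lt_of_lt_of_le hq₂d (min_le_left _ _)
    linarith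
  have hq₂a : 1 < ‖q₂ - a‖ := by
    have h3 : ‖a - q₁‖ ≤ ‖a - q₂‖ + ‖q₂ - q₁‖ := norm_sub_le_norm_sub_add_norm_sub _ _ _
    rw [norm_sub_rev a q₂] at h3
    have := lt_of_lt_of_le hq₂d (min_le_right _ _)
    linarith
  have hq₂c₁ : ‖q₂ - c₁‖ < 1 := by
    have h3 : ‖q₂ - c₁‖ ≤ ‖q₂ - q‖ + ‖q - c₁‖ := norm_sub_le_norm_sub_add_norm_sub _ _ _
    have : ‖q - c₁‖ = 1 - ξ := by rw [hξ]; ring
    linarith
  -- step 3: the outside point, pushed up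
  set ζ := ‖q₂ - a‖ - 1 with hζ
  have hζ0 : 0 < ζ := by rw [hζ]; linarith
  obtain ⟨τ', hτ'0, hτ'1, hτ'2, hτ'3⟩ : ∃ τ : ℝ, 0 < τ ∧ 4 * τ ≤ r ∧ 4 * τ < ζ ∧ τ < 1 / 4 := by
    refine ⟨min (min (r / 4) (ζ / 8)) (1 / 8), lt_min (lt_min (by linarith) (by linarith)) (by norm_num),
      ?_, ?_, ?_⟩
    · have := (min_le_left (min (r / 4) (ζ / 8)) (1 / 8)).trans (min_le_left _ _)
      linarith
    · have := (min_le_left (min (r / 4) (ζ / 8)) (1 / 8)).trans (min_le_right _ _)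
      linarith
    · have := min_le_right (min (r / 4) (ζ / 8)) (1 / 8)
      linarith
  obtain ⟨c₂, hc₂n, hc₂d, l₂, hl₂, hc₂⟩ := push_near ha.1 (w := x) (by rw [hxn]; norm_num) hτ'0 hτ'3
  have hc₂x : 0 < nr x c₂ := by
    rw [hc₂, map_smul, map_add, map_smul, hxφ.2, ha0, smul_eq_mul, smul_eq_mul]
    have : 0 < 0 + τ' * 1 := by linarith
    positivity
  have hc₂q : 1 < ‖q₂ - c₂‖ := by
    have h3 : ‖q₂ - a‖ ≤ ‖q₂ - c₂‖ + ‖c₂ - a‖ := norm_sub_le_norm_sub_add_norm_sub _ _ _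
    have : ‖q₂ - a‖ = 1 + ζ := by rw [hζ]; ring
    linarith
  -- step 4: crossing on a normalised segment
  have hc₁₂ : ‖c₁ - c₂‖ ≤ 3 * r := by
    have h3 : ‖c₁ - c₂‖ ≤ ‖c₁ - a‖ + ‖a - c₂‖ := norm_sub_le_norm_sub_add_norm_sub _ _ _
    rw [norm_sub_rev a c₂] at h3
    linarith
  obtain ⟨c₃, hc₃n, hc₃g, hc₃d, l, s, hl, hs, hc₃⟩ :=
    exists_radial_zero hc₁n hc₂n (p := c₁) (p' := c₂) (by linarith)
      (g := fun z => ‖q₂ - z‖ - 1) (by fun_prop) (by simpa using hq₂c₁) (by simpa using hc₂q)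
  have hc₃E : c₃ ∈ Eo q₂ := ⟨hc₃n, by simpa [sub_eq_zero] using hc₃g⟩
  have hc₃a : ‖c₃ - a‖ ≤ 8 * r := by
    have h3 : ‖c₃ - a‖ ≤ ‖c₃ - c₁‖ + ‖c₁ - a‖ := norm_sub_le_norm_sub_add_norm_sub _ _ _
    linarith
  have hc₃x : 0 < nr x c₃ := by
    rw [hc₃, map_smul, map_add, map_smul, map_smul, smul_eq_mul, smul_eq_mul, smul_eq_mul]
    have h0 : 0 < (1 - s) * nr x c₁ + s * nr x c₂ := by
      rcases hs with ⟨hs0, hs1⟩
      rcases hs0.lt_or_eq with h | h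
      · have : 0 ≤ (1 - s) * nr x c₁ := mul_nonneg (by linarith) hc₁x.le
        have : 0 < s * nr x c₂ := mul_pos h hc₂x
        linarith
      · rw [← h]; simpa using hc₁x
    positivity
  -- positivity at the moved point
  have hq₂φ := nr_mem hq₂n
  have hq₂near : ‖nr q₂ - nr q‖ < κ / 4 := by
    refine hnear q₂ hq₂n (by linarith) _ hq₂φ
  have hqφ := nr_mem hqn
  have hpos : ∀ c : X, ‖c‖ = 1 → ‖c - a‖ ≤ 9 * r → 0 < nr q₂ c := by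
    intro c hc hca
    have h1 : |(nr q₂ - nr q) c| ≤ ‖nr q₂ - nr q‖ * ‖c‖ := by
      have := (nr q₂ - nr q).le_opNorm c
      rwa [Real.norm_eq_abs] at this
    rw [hc, mul_one] at h1
    have h2 : |nr q (c - a)| ≤ ‖c - a‖ := nrm_abs_le hqφ _
    rw [map_sub] at h2
    have h3 := (abs_le.1 h1).1
    have h4 := (abs_le.1 h2).1
    rw [ContinuousLinearMap.sub_apply] at h3
    have : κ = nr q a := hκ
    linarith
  have hc₃q : 0 < nr q₂ c₃ := hpos c₃ hc₃n (by linarith)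
  -- step 5: a generic point on the fibre of the moved point
  obtain ⟨c', hc'G, hc'E, hc'pos, hc'd⟩ := E.gen.fib q₂ hq₂ c₃ hc₃E hc₃q
    (min r (nr x c₃)) (lt_min hr0 hc₃x)
  have hc'd1 : ‖c' - c₃‖ < r := lt_of_lt_of_le hc'd (min_le_left _ _)
  have hc'd2 : ‖c' - c₃‖ < nr x c₃ := lt_of_lt_of_le hc'd (min_le_right _ _)
  have hc'x : 0 < nr x c' := by
    have h2 : |nr x (c' - c₃)| ≤ ‖c' - c₃‖ := nrm_abs_le hxφ _
    rw [map_sub] at h2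
    have := (abs_le.1 h2).1
    linarith
  have hc'a : ‖c' - a‖ < ε₁ := by
    have h3 : ‖c' - a‖ ≤ ‖c' - c₃‖ + ‖c₃ - a‖ := norm_sub_le_norm_sub_add_norm_sub _ _ _
    linarith
  have hc'B : c' ∈ BPlus x := hup c' hc'E.1 hc'a hc'x
  -- step 6: conclude
  obtain ⟨L₂, hL₂⟩ := exists_isLin E hq₂
  obtain ⟨L', hL'⟩ := exists_isLin E hc'G
  have h1 : L₂ = L' := IsLin.eq_of_adj E hq₂ hc'G hc'E hL₂ hL'
  have h2 : L = L' := absorb E hx hfl hc'G hc'B hL hL'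
  refine ⟨q₂, hq₂n, by linarith, ?_⟩
  rw [h2, ← h1]
  exact hL₂.val.symm

/-- (delta) `a ∈ J(x) ∩ J(q)`, both flat. -/
theorem step_delta (E : Env f G) {x q a : X} (hx : x ∈ G) (hfl : IsFlat x) {L L' : X ≃L[ℝ] Y}
    (hL : IsLin f G x L) (hq : q ∈ G) (hflq : IsFlat q) (hL' : IsLin f G q L') (ha : a ∈ Eo x)
    (ha0 : nr x a = 0) (haq : a ∈ Eo q) (haq0 : nr q a = 0) (hxq : ‖x - q‖ < 1)
    (hqF : nr x q ≠ 1) : L = L' := by
  obtain ⟨hxn, hxs, -⟩ := E.gen.reg x hx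
  obtain ⟨hqn, hqs, -⟩ := E.gen.reg q hq
  have hxφ := nr_mem hxn
  have hqφ := nr_mem hqn
  obtain ⟨ε₁, hε₁, hup₁⟩ := upper_near hxn hxs hfl ha ha0
  obtain ⟨ε₂, hε₂, hup₂⟩ := upper_near hqn hqs hflq haq haq0
  -- `x + q` is positive for both functionals
  have h1 : 0 < nr x q := by
    have := nrm_le hxφ (x - q)
    rw [map_sub, hxφ.2] at this
    linarith
  have h2 : 0 < nr q x := by
    have := nrm_le hqφ (q - x)
    rw [map_sub, hqφ.2, norm_sub_rev] at this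
    linarith
  have hw : ‖x + q‖ ≤ 2 := by
    have := norm_add_le x q
    rw [hxn, hqn] at this
    linarith
  set r := min ε₁ ε₂ with hr
  have hr0 : 0 < r := lt_min hε₁ hε₂
  obtain ⟨τ, hτ0, hτ1, hτ2⟩ : ∃ τ : ℝ, 0 < τ ∧ 4 * τ < r ∧ τ < 1 / 4 := by
    refine ⟨min (r / 8) (1 / 8), lt_min (by linarith) (by norm_num), ?_, ?_⟩
    · have := min_le_left (r / 8) (1 / 8)
      linarith
    · have := min_le_right (r / 8) (1 / 8)
      linarith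
  obtain ⟨u, hun, hud, l, hl, hu⟩ := push_near haq.1 hw hτ0 hτ2
  have hux : 0 < nr x u := by
    rw [hu, map_smul, map_add, map_smul, map_add, hxφ.2, ha0, smul_eq_mul, smul_eq_mul]
    have : 0 < 0 + τ * (1 + nr x q) := by positivity
    positivity
  have huq : 0 < nr q u := by
    rw [hu, map_smul, map_add, map_smul, map_add, hqφ.2, haq0, smul_eq_mul, smul_eq_mul]
    have : 0 < 0 + τ * (nr q x + 1) := by positivity
    positivity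
  set ρ := min (min (r - 4 * τ) (nr x u)) (nr q u) with hρ
  have hρ0 : 0 < ρ := lt_min (lt_min (by linarith) hux) huq
  obtain ⟨c', hc'G, hc'd⟩ := E.gen.dense u hun ρ hρ0
  have hc'n := (E.gen.reg c' hc'G).1
  have hd1 : ‖c' - u‖ < r - 4 * τ :=
    lt_of_lt_of_le hc'd ((min_le_left _ _).trans (min_le_left _ _))
  have hd2 : ‖c' - u‖ < nr x u :=
    lt_of_lt_of_le hc'd ((min_le_left _ _).trans (min_le_right _ _))
  have hd3 : ‖c' - u‖ < nr q u := lt_of_lt_of_le hc'd (min_le_right _ _)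
  have hc'a : ‖c' - a‖ < r := by
    have h3 : ‖c' - a‖ ≤ ‖c' - u‖ + ‖u - a‖ := norm_sub_le_norm_sub_add_norm_sub _ _ _
    linarith
  have hc'x : 0 < nr x c' := by
    have h3 : |nr x (c' - u)| ≤ ‖c' - u‖ := nrm_abs_le hxφ _
    rw [map_sub] at h3
    have := (abs_le.1 h3).1
    linarith
  have hc'q : 0 < nr q c' := by
    have h3 : |nr q (c' - u)| ≤ ‖c' - u‖ := nrm_abs_le hqφ _
    rw [map_sub] at h3
    have := (abs_le.1 h3).1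
    linarith
  have hB₁ : c' ∈ BPlus x := hup₁ c' hc'n (lt_of_lt_of_le hc'a (min_le_left _ _)) hc'x
  have hB₂ : c' ∈ BPlus q := hup₂ c' hc'n (lt_of_lt_of_le hc'a (min_le_right _ _)) hc'q
  obtain ⟨L₂, hL₂⟩ := exists_isLin E hc'G
  have h3 : L = L₂ := absorb E hx hfl hc'G hB₁ hL hL₂
  have h4 : L' = L₂ := absorb E hq hflq hc'G hB₂ hL' hL₂
  rw [h3, h4]

end Vale.Agent.Lib.P084.D3
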