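/-
Step 11: `f = L_x` on `W_x = {q unit, ‖x - q‖ < 1, nr x q ≠ 1}`.
-/
import Vale.Agent.Lib.P084.D3.StepAB
import Vale.Agent.Lib.P084.D3.StepGD
import Vale.Agent.Lib.P084.D3.Crossing

namespace Vale.Agent.Lib.P084.D3

variable {X Y : Type*} [NormedAddCommGroup X] [NormedSpace ℝ X] [FiniteDimensional ℝ X]
  [NormedAddCommGroup Y] [NormedSpace ℝ Y] [FiniteDimensional ℝ Y]

variable {f : X → Y} {G : Set X}

/-- Two distinct crossing points, each a limit of points of `Eo x` strictly inside the ball of `q`. -/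
theorem crossing_data (E : Env f G) {x q : X} (hx : x ∈ G) (hq : ‖q‖ = 1) (hxq : ‖x - q‖ < 1)
    (hqF : nr x q ≠ 1) :
    ∃ A B : X, A ∈ Eo x ∧ B ∈ Eo x ∧ A ∈ Eo q ∧ B ∈ Eo q ∧ A ≠ B ∧
      (∀ ε > 0, ∃ c ∈ Eo x, ‖c - A‖ < ε ∧ ‖q - c‖ < 1) ∧
      (∀ ε > 0, ∃ c ∈ Eo x, ‖c - B‖ < ε ∧ ‖q - c‖ < 1) := by
  obtain ⟨hx1, hxs, -⟩ := E.gen.reg x hx
  obtain ⟨γ, hl⟩ := exists_loop E.dim hx1 (E.gen.notD x hx)
  obtain ⟨t₁, a, b, h1, h2, h3, h4, ha, hb, hA, hB⟩ := exists_crossings hx1 hxs hl hq hxq hqF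
  obtain ⟨C, hC⟩ := hl.lip
  have hcont : Continuous γ := hC.continuous
  refine ⟨γ a, γ b, hl.mem a, hl.mem b, ⟨(hl.mem a).1, ha⟩, ⟨(hl.mem b).1, hb⟩, ?_, ?_, ?_⟩
  · have : γ b ≠ γ a := hl.inj b a (by linarith) (by linarith)
    exact this.symm
  · intro ε hε
    have hca : ContinuousAt γ a := hcont.continuousAt
    rw [Metric.continuousAt_iff] at hca
    obtain ⟨δ, hδ, hδ'⟩ := hca ε hε
    set t := max t₁ (a - δ / 2) with ht
    have ht1 : t₁ ≤ t := le_max_left _ _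
    have ht2 : a - δ / 2 ≤ t := le_max_right _ _
    have ht3 : t < a := max_lt h1 (by linarith)
    refine ⟨γ t, hl.mem t, ?_, hA t ⟨ht1, ht3⟩⟩
    have : dist (γ t) (γ a) < ε := hδ' (by rw [Real.dist_eq, abs_lt]; constructor <;> linarith)
    rwa [dist_eq_norm] at this
  · intro ε hε
    have hca : ContinuousAt γ b := hcont.continuousAt
    rw [Metric.continuousAt_iff] at hca
    obtain ⟨δ, hδ, hδ'⟩ := hca ε hε
    set t := min t₁ (b + δ / 2) with ht
    have ht1 : t ≤ t₁ := min_le_left _ _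
    have ht2 : t ≤ b + δ / 2 := min_le_right _ _
    have ht3 : b < t := lt_min h4 (by linarith)
    refine ⟨γ t, hl.mem t, ?_, hB t ⟨ht3, ht1⟩⟩
    have : dist (γ t) (γ b) < ε := hδ' (by rw [Real.dist_eq, abs_lt]; constructor <;> linarith)
    rwa [dist_eq_norm] at this

/-- Positivity of `nr x` on `Eo x`. -/
theorem nr_nonneg_of_Eo {x c : X} (hx : ‖x‖ = 1) (hc : c ∈ Eo x) : 0 ≤ nr x c :=
  nonneg_at (Eo.comm hx hc) (nr_mem hx)

/-- A crossing with `nr x A > 0`: cases (alpha), (beta). -/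
theorem crossing_pos (E : Env f G) {x q A : X} (hx : x ∈ G) {L : X ≃L[ℝ] Y} (hL : IsLin f G x L)
    (hq : q ∈ G) (hA : A ∈ Eo x) (hAx : 0 < nr x A) (hAq : A ∈ Eo q)
    (hseq : ∀ ε > 0, ∃ c ∈ Eo x, ‖c - A‖ < ε ∧ ‖q - c‖ < 1)
    (hcase : 0 < nr q A ∨ IsFlat q) {ε : ℝ} (hε : 0 < ε) :
    ∃ q' : X, ‖q'‖ = 1 ∧ ‖q' - q‖ < ε ∧ f q' = L q' := by
  obtain ⟨hq1, -, -⟩ := E.gen.reg q hq
  have hx1 := (E.gen.reg x hx).1
  by_cases hpos : 0 < nr q A
  · exact step_alpha E hx hL hq hA hAx hAq hpos hε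
  · have hq0 : nr q A = 0 := le_antisymm (not_lt.1 hpos) (nr_nonneg_of_Eo hq1 hAq)
    have hfl : IsFlat q := hcase.resolve_left hpos
    obtain ⟨L', hL'⟩ := exists_isLin E hq
    have hseq' : ∀ ε > 0, ∃ c ∈ Eo x, 0 < nr x c ∧ ‖c - A‖ < ε ∧ ‖q - c‖ < 1 := by
      intro ε hε
      obtain ⟨c, hc, h1, h2⟩ := hseq (min ε (nr x A)) (lt_min hε hAx)
      refine ⟨c, hc, ?_, lt_of_lt_of_le h1 (min_le_left _ _), h2⟩
      have h3 := nrm_abs_le (nr_mem hx1) (c - A)
      have h4 : ‖c - A‖ < nr x A := lt_of_lt_of_le h1 (min_le_right _ _)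
      rw [map_sub] at h3
      have := (abs_le.1 h3).1
      linarith
    have hLL : L = L' := step_beta E hx hL hq hfl hL' hA hAq hq0 hseq'
    refine ⟨q, hq1, by simpa using hε, ?_⟩
    rw [hLL]
    exact hL'.val.symm

/-- For generic `q`, an approximate solution near `q`. -/
theorem keyprop_gen (E : Env f G) {x q : X} (hx : x ∈ G) {L : X ≃L[ℝ] Y} (hL : IsLin f G x L)
    (hq : q ∈ G) (hxq : ‖x - q‖ < 1) (hqF : nr x q ≠ 1) {ε : ℝ} (hε : 0 < ε) :
    ∃ q' : X, ‖q'‖ = 1 ∧ ‖q' - q‖ < ε ∧ f q' = L q' := by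
  obtain ⟨hx1, hxs, -⟩ := E.gen.reg x hx
  obtain ⟨hq1, hqs, -⟩ := E.gen.reg q hq
  obtain ⟨A, B, hAx, hBx, hAq, hBq, hAB, hsA, hsB⟩ := crossing_data E hx hq1 hxq hqF
  have hA0 := nr_nonneg_of_Eo hx1 hAx
  have hB0 := nr_nonneg_of_Eo hx1 hBx
  have hA0' := nr_nonneg_of_Eo hq1 hAq
  have hB0' := nr_nonneg_of_Eo hq1 hBq
  rcases E.gen.dic x hx with hflx | hsx
  · -- `x` flat
    rcases E.gen.dic q hq with hflq | hsq
    · -- both flat: use `A`
      rcases hA0.lt_or_eq with hAp | hAz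
      · exact crossing_pos E hx hL hq hAx hAp hAq hsA (Or.inr hflq) hε
      · rcases hA0'.lt_or_eq with hAp' | hAz'
        · exact step_gamma E hx hflx hL hq hAx hAz.symm hAq hAp' hsA hε
        · obtain ⟨L', hL'⟩ := exists_isLin E hq
          have hLL : L = L' :=
            step_delta E hx hflx hL hq hflq hL' hAx hAz.symm hAq hAz'.symm hxq hqF
          refine ⟨q, hq1, by simpa using hε, ?_⟩
          rw [hLL]
          exact hL'.val.symm
    · -- `q` has at most one exceptional point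
      have key : ∀ D : X, D ∈ Eo x → D ∈ Eo q → (∀ ε > 0, ∃ c ∈ Eo x, ‖c - D‖ < ε ∧ ‖q - c‖ < 1) →
          0 < nr q D → ∃ q' : X, ‖q'‖ = 1 ∧ ‖q' - q‖ < ε ∧ f q' = L q' := by
        intro D hDx hDq hsD hDp
        have hD0 := nr_nonneg_of_Eo hx1 hDx
        rcases hD0.lt_or_eq with hp | hz
        · exact step_alpha E hx hL hq hDx hp hDq hDp hε
        · exact step_gamma E hx hflx hL hq hDx hz.symm hDq hDp hsD hε
      rcases hA0'.lt_or_eq with hAp' | hAz'
      · exact key A hAx hAq hsA hAp'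
      · have hBp' : 0 < nr q B := by
          rcases hB0'.lt_or_eq with h | h
          · exact h
          · exact absurd (hsq A hAq B hBq hAz'.symm h.symm) hAB
        exact key B hBx hBq hsB hBp'
  · -- `x` has at most one exceptional point
    rcases E.gen.dic q hq with hflq | hsq
    · -- `q` flat
      rcases hA0.lt_or_eq with hAp | hAz
      · exact crossing_pos E hx hL hq hAx hAp hAq hsA (Or.inr hflq) hε
      · have hBp : 0 < nr x B := by
          rcases hB0.lt_or_eq with h | h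
          · exact h
          · exact absurd (hsx A hAx B hBx hAz.symm h.symm) hAB
        exact crossing_pos E hx hL hq hBx hBp hBq hsB (Or.inr hflq) hε
    · -- both have at most one exceptional point
      by_cases h1 : 0 < nr x A ∧ 0 < nr q A
      · exact step_alpha E hx hL hq hAx h1.1 hAq h1.2 hε
      by_cases h2 : 0 < nr x B ∧ 0 < nr q B
      · exact step_alpha E hx hL hq hBx h2.1 hBq h2.2 hε
      -- the exceptional point `d` of `x` is one of `A`, `B`, and it is not exceptional for `q`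
      have hex : ∃ d : X, d ∈ Eo x ∧ d ∈ Eo q ∧ nr x d = 0 ∧ 0 < nr q d := by
        have hA' : nr x A = 0 ∨ nr q A = 0 := by
          by_contra hc
          push_neg at hc
          exact h1 ⟨lt_of_le_of_ne hA0 hc.1.symm, lt_of_le_of_ne hA0' hc.2.symm⟩
        have hB' : nr x B = 0 ∨ nr q B = 0 := by
          by_contra hc
          push_neg at hc
          exact h2 ⟨lt_of_le_of_ne hB0 hc.1.symm, lt_of_le_of_ne hB0' hc.2.symm⟩
        rcases hA' with hAz | hAz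
        · refine ⟨A, hAx, hAq, hAz, lt_of_le_of_ne hA0' ?_⟩
          intro h
          rcases hB' with hBz | hBz
          · exact hAB (hsx A hAx B hBx hAz hBz)
          · exact hAB (hsq A hAq B hBq h.symm hBz)
        · rcases hB' with hBz | hBz
          · refine ⟨B, hBx, hBq, hBz, lt_of_le_of_ne hB0' ?_⟩
            intro h
            exact hAB (hsq A hAq B hBq hAz h.symm)
          · exact absurd (hsq A hAq B hBq hAz hBz) hAB
      obtain ⟨d, hdx, hdq, hd0, hdp⟩ := hex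
      -- move `q` so that `d` is no longer at distance one
      have hd1 : ‖d‖ = 1 := hdx.1
      have hqd : q ∈ Eo d := Eo.comm hq1 hdq
      have hn : ∀ φ ∈ Nrm q, φ d ≠ 0 := by
        intro φ hφ
        rw [hqs φ hφ]
        exact hdp.ne'
      have hW : ∃ η > 0, ∀ z : X, ‖z‖ = 1 → ‖z - q‖ < η → ‖x - z‖ < 1 ∧ nr x z ≠ 1 := by
        have hlt : nr x q < 1 := by
          refine lt_of_le_of_ne ?_ hqF
          have := nrm_le (nr_mem hx1) q
          rwa [hq1] at this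
        refine ⟨min (1 - ‖x - q‖) (1 - nr x q), lt_min (by linarith) (by linarith), ?_⟩
        intro z _ hzq
        constructor
        · have h3 : ‖x - z‖ ≤ ‖x - q‖ + ‖q - z‖ := norm_sub_le_norm_sub_add_norm_sub x q z
          rw [norm_sub_rev q z] at h3
          have := lt_of_lt_of_le hzq (min_le_left _ _)
          linarith
        · have h3 := nrm_abs_le (nr_mem hx1) (z - q)
          rw [map_sub] at h3
          have h4 := (abs_le.1 h3).2
          have := lt_of_lt_of_le hzq (min_le_right _ _)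
          linarith
      obtain ⟨η, hη, hWη⟩ := hW
      obtain ⟨p, hp1, hpq, hpd⟩ := exists_near_gt hd1 hqd hn (lt_min hη (half_pos hε))
      have hpq1 : ‖p - q‖ < η := lt_of_lt_of_le hpq (min_le_left _ _)
      have hpq2 : ‖p - q‖ < ε / 2 := lt_of_lt_of_le hpq (min_le_right _ _)
      -- a generic point near `p`, still far from `d`
      set ρ : ℝ := min (min (η - ‖p - q‖) (ε / 2 - ‖p - q‖)) (‖d - p‖ - 1) with hρ
      have hρ0 : 0 < ρ := by
        refine lt_min (lt_min (by linarith) (by linarith)) (by linarith)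
      obtain ⟨q₂, hq₂, hq₂p⟩ := E.gen.dense p hp1 ρ hρ0
      have h21 : ‖q₂ - q‖ ≤ ‖q₂ - p‖ + ‖p - q‖ := norm_sub_le_norm_sub_add_norm_sub q₂ p q
      have hr1 : ρ ≤ η - ‖p - q‖ := (min_le_left _ _).trans (min_le_left _ _)
      have hr2 : ρ ≤ ε / 2 - ‖p - q‖ := (min_le_left _ _).trans (min_le_right _ _)
      have hr3 : ρ ≤ ‖d - p‖ - 1 := min_le_right _ _
      have hq₂q : ‖q₂ - q‖ < η := by linarith
      have hq₂q' : ‖q₂ - q‖ < ε / 2 := by linarith
      have hq₂1 := (E.gen.reg q₂ hq₂).1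
      obtain ⟨hxq₂, hq₂F⟩ := hWη q₂ hq₂1 hq₂q
      have hdq₂ : 1 < ‖q₂ - d‖ := by
        have h3 : ‖d - p‖ ≤ ‖d - q₂‖ + ‖q₂ - p‖ := norm_sub_le_norm_sub_add_norm_sub d q₂ p
        rw [norm_sub_rev d q₂] at h3
        linarith
      -- the crossings of `q₂` are not exceptional for `x`
      obtain ⟨A₂, B₂, hA₂x, hB₂x, hA₂q, hB₂q, hAB₂, hsA₂, hsB₂⟩ :=
        crossing_data E hx hq₂1 hxq₂ hq₂F
      have hne : ∀ D : X, D ∈ Eo x → D ∈ Eo q₂ → 0 < nr x D := by
        intro D hDx hDq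
        rcases (nr_nonneg_of_Eo hx1 hDx).lt_or_eq with h | h
        · exact h
        · have := hsx D hDx d hdx h.symm hd0
          rw [this] at hDq
          have h4 := hDq.2
          rw [h4] at hdq₂
          exact absurd hdq₂ (lt_irrefl _)
      have hfin : ∃ q' : X, ‖q'‖ = 1 ∧ ‖q' - q₂‖ < ε / 2 ∧ f q' = L q' := by
        rcases E.gen.dic q₂ hq₂ with hflq₂ | hsq₂
        · exact crossing_pos E hx hL hq₂ hA₂x (hne A₂ hA₂x hA₂q) hA₂q hsA₂ (Or.inr hflq₂)
            (half_pos hε)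
        · have hq₂1' := hq₂1
          rcases (nr_nonneg_of_Eo hq₂1' hA₂q).lt_or_eq with h | h
          · exact step_alpha E hx hL hq₂ hA₂x (hne A₂ hA₂x hA₂q) hA₂q h (half_pos hε)
          · rcases (nr_nonneg_of_Eo hq₂1' hB₂q).lt_or_eq with h' | h'
            · exact step_alpha E hx hL hq₂ hB₂x (hne B₂ hB₂x hB₂q) hB₂q h' (half_pos hε)
            · exact absurd (hsq₂ A₂ hA₂q B₂ hB₂q h.symm h'.symm) hAB₂
      obtain ⟨q', hq'1, hq'2, hq'3⟩ := hfin
      refine ⟨q', hq'1, ?_, hq'3⟩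
      have h5 : ‖q' - q‖ ≤ ‖q' - q₂‖ + ‖q₂ - q‖ := norm_sub_le_norm_sub_add_norm_sub q' q₂ q
      linarith

/-- Step 11. -/
theorem keyprop (E : Env f G) {x q : X} (hx : x ∈ G) {L : X ≃L[ℝ] Y} (hL : IsLin f G x L)
    (hq : ‖q‖ = 1) (hxq : ‖x - q‖ < 1) (hqF : nr x q ≠ 1) : f q = L q := by
  obtain ⟨hx1, hxs, -⟩ := E.gen.reg x hx
  have hlt : nr x q < 1 := by
    refine lt_of_le_of_ne ?_ hqF
    have := nrm_le (nr_mem hx1) q
    rwa [hq] at this
  have hmain : ∀ ε > 0, ‖f q - L q‖ ≤ (1 + ‖(L : X →L[ℝ] Y)‖) * ε := by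
    intro ε hε
    -- a generic point near `q` in the good open set
    set ρ : ℝ := min (min (1 - ‖x - q‖) (1 - nr x q)) (ε / 2) with hρ
    have hρ0 : 0 < ρ := lt_min (lt_min (by linarith) (by linarith)) (half_pos hε)
    obtain ⟨p, hp, hpq⟩ := E.gen.dense q hq ρ hρ0
    have hr1 : ρ ≤ 1 - ‖x - q‖ := (min_le_left _ _).trans (min_le_left _ _)
    have hr2 : ρ ≤ 1 - nr x q := (min_le_left _ _).trans (min_le_right _ _)
    have hr3 : ρ ≤ ε / 2 := min_le_right _ _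
    have hp1 : ‖x - p‖ < 1 := by
      have h3 : ‖x - p‖ ≤ ‖x - q‖ + ‖q - p‖ := norm_sub_le_norm_sub_add_norm_sub x q p
      rw [norm_sub_rev q p] at h3
      linarith
    have hp2 : nr x p ≠ 1 := by
      have h3 := nrm_abs_le (nr_mem hx1) (p - q)
      rw [map_sub] at h3
      have h4 := (abs_le.1 h3).2
      intro h5
      linarith
    obtain ⟨q', hq'1, hq'2, hq'3⟩ := keyprop_gen E hx hL hp hp1 hp2 (half_pos hε)
    have h6 : ‖q' - q‖ ≤ ε := by
      have h7 : ‖q' - q‖ ≤ ‖q' - p‖ + ‖p - q‖ := norm_sub_le_norm_sub_add_norm_sub q' p q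
      linarith
    have h8 : f q - L q = (f q - f q') + L (q' - q) := by
      rw [map_sub, hq'3]; abel
    rw [h8]
    have h9 : ‖f q - f q'‖ = ‖q - q'‖ := E.ctx.iso.iso q q' hq hq'1
    have h10 : ‖L (q' - q)‖ ≤ ‖(L : X →L[ℝ] Y)‖ * ‖q' - q‖ := (L : X →L[ℝ] Y).le_opNorm _
    calc ‖(f q - f q') + L (q' - q)‖ ≤ ‖f q - f q'‖ + ‖L (q' - q)‖ := norm_add_le _ _
      _ ≤ ‖q' - q‖ + ‖(L : X →L[ℝ] Y)‖ * ‖q' - q‖ := by rw [h9, norm_sub_rev]; linarith
      _ = (1 + ‖(L : X →L[ℝ] Y)‖) * ‖q' - q‖ := by ring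
      _ ≤ (1 + ‖(L : X →L[ℝ] Y)‖) * ε :=
        mul_le_mul_of_nonneg_left h6 (by positivity)
  have hzero : ‖f q - L q‖ ≤ 0 := by
    by_contra hc
    push_neg at hc
    have hpos : 0 < 1 + ‖(L : X →L[ℝ] Y)‖ := by positivity
    have := hmain (‖f q - L q‖ / (2 * (1 + ‖(L : X →L[ℝ] Y)‖))) (by positivity)
    have h2 : (1 + ‖(L : X →L[ℝ] Y)‖) * (‖f q - L q‖ / (2 * (1 + ‖(L : X →L[ℝ] Y)‖)))
        = ‖f q - L q‖ / 2 := by
      field_simp
    rw [h2] at this
    linarith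
  exact sub_eq_zero.1 (norm_le_zero_iff.1 hzero)

end Vale.Agent.Lib.P084.D3
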