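/-
Step 12: the end of the proof, and the assembly for all finite dimensions at least three.
-/
import Vale.Agent.Lib.P084.D3.KeyProp
import Vale.Agent.Lib.P084.D3.Gen
import Vale.Agent.Lib.P084.NS.Main

namespace Vale.Agent.Lib.P084.D3

open Vale.Agent.Lib.P084.UC
open Metric

variable {X Y : Type*} [NormedAddCommGroup X] [NormedSpace ℝ X] [FiniteDimensional ℝ X]
  [NormedAddCommGroup Y] [NormedSpace ℝ Y]

/-- The standing facts, from the landed non strict line. -/
theorem Ctx.of_iso [FiniteDimensional ℝ Y] {f : X → Y} (hf : IsSphereIso f) : Ctx f := by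
  have hodd : ∀ x : X, ‖x‖ = 1 → f (-x) = - f x := fun x hx => NS.sphereIso_odd hf hx
  have haff : ∀ a b : X, (∀ t ∈ Set.Icc (0 : ℝ) 1, ‖a + t • (b - a)‖ = 1) →
      ∀ t ∈ Set.Icc (0 : ℝ) 1, f (a + t • (b - a)) = f a + t • (f b - f a) := by
    intro a b hseg t ht
    have ha : ‖a‖ = 1 := by
      have := hseg 0 ⟨le_rfl, zero_le_one⟩
      simpa using this
    have hb : ‖b‖ = 1 := by
      have := hseg 1 ⟨zero_le_one, le_rfl⟩
      simpa using this
    have hrew : ∀ s : ℝ, (1 - s) • a + s • b = a + s • (b - a) := fun s => by module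
    have h1 := NS.segAff hf a b ha hb (fun s hs => by rw [hrew]; exact hseg s hs) t ht
    rw [hrew] at h1
    rw [h1]
    module
  exact ⟨hf, hodd, NS.additive_of_odd_affine hf hodd haff, haff⟩

/-- `y` in the good set of `x`: the first order models agree. -/
theorem L_eq_of_near [FiniteDimensional ℝ Y] {f : X → Y} {G : Set X} (E : Env f G) {x y : X}
    (hx : x ∈ G) (hy : y ∈ G) {L L' : X ≃L[ℝ] Y} (hL : IsLin f G x L) (hL' : IsLin f G y L')
    (hxy : ‖x - y‖ < 1) (hF : nr x y ≠ 1) : L = L' := by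
  have hx1 := (E.gen.reg x hx).1
  have hlt : nr x y < 1 := by
    refine lt_of_le_of_ne ?_ hF
    have := nrm_le (nr_mem hx1) y
    rwa [(E.gen.reg y hy).1] at this
  have hε : 0 < min (1 - ‖x - y‖) (1 - nr x y) := lt_min (by linarith) (by linarith)
  have h := IsLin.eq_of_eq_near E hy hL' (T := (L : X →L[ℝ] Y)) hε (fun z hz hzy => by
    refine keyprop E hx hL hz ?_ ?_
    · have h3 : ‖x - z‖ ≤ ‖x - y‖ + ‖y - z‖ := norm_sub_le_norm_sub_add_norm_sub x y z
      rw [norm_sub_rev y z] at h3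
      have := lt_of_lt_of_le hzy (min_le_left _ _)
      linarith
    · have h3 := nrm_abs_le (nr_mem hx1) (z - y)
      rw [map_sub] at h3
      have h4 := (abs_le.1 h3).2
      have := lt_of_lt_of_le hzy (min_le_right _ _)
      intro h5
      linarith)
  have : (L : X →L[ℝ] Y) = L' := h.symm
  ext v
  exact congrArg (fun T : X →L[ℝ] Y => T v) this

/-- Step 12. -/
theorem L_const [FiniteDimensional ℝ Y] {f : X → Y} {G : Set X} (E : Env f G) :
    ∃ T : X ≃L[ℝ] Y, ∀ x : X, ‖x‖ = 1 → f x = T x := by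
  classical
  have hlin : ∀ x ∈ G, ∃ L : X ≃L[ℝ] Y, IsLin f G x L := fun x hx => exists_isLin E hx
  -- the sphere is connected and nonempty
  have hrank : 1 < Module.rank ℝ X := by
    have : Module.rank ℝ X = (Module.finrank ℝ X : Cardinal) :=
      (Module.finrank_eq_rank ℝ X).symm
    rw [this, E.dim]
    norm_cast
  have hconn : IsPreconnected (sphere (0 : X) 1) := isPreconnected_sphere hrank 0 1
  have hne : (sphere (0 : X) 1).Nonempty := by
    have : Nontrivial X := Module.nontrivial_of_finrank_pos (R := ℝ) (by rw [E.dim]; norm_num)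
    exact NormedSpace.sphere_nonempty.2 zero_le_one
  obtain ⟨w₀, hw₀⟩ := hne
  have hw₀1 : ‖w₀‖ = 1 := by simpa using hw₀
  obtain ⟨x₀, hx₀, -⟩ := E.gen.dense w₀ hw₀1 1 one_pos
  haveI : Nonempty (X ≃L[ℝ] Y) := ⟨(hlin x₀ hx₀).choose⟩
  choose! Lm hLm using hlin
  set T := Lm x₀ with hT
  -- all models agree
  have hall : ∀ y ∈ G, Lm y = T := by
    by_contra hcon
    push_neg at hcon
    obtain ⟨y₀, hy₀, hy₀T⟩ := hcon
    set C₁ : Set X := {z | z ∈ G ∧ Lm z = T} with hC₁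
    set C₂ : Set X := {z | z ∈ G ∧ Lm z ≠ T} with hC₂
    have hcov : sphere (0 : X) 1 ⊆ closure C₁ ∪ closure C₂ := by
      intro z hz
      have hz1 : ‖z‖ = 1 := by simpa using hz
      have hcl : z ∈ closure (C₁ ∪ C₂) := by
        rw [Metric.mem_closure_iff]
        intro ε hε
        obtain ⟨p, hp, hpz⟩ := E.gen.dense z hz1 ε hε
        refine ⟨p, ?_, by rw [dist_eq_norm, norm_sub_rev]; exact hpz⟩
        by_cases h : Lm p = T
        · exact Or.inl ⟨hp, h⟩
        · exact Or.inr ⟨hp, h⟩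
      rwa [closure_union] at hcl
    have hsub₁ : (sphere (0 : X) 1 ∩ closure C₁).Nonempty :=
      ⟨x₀, by simpa using (E.gen.reg x₀ hx₀).1, subset_closure ⟨hx₀, rfl⟩⟩
    have hsub₂ : (sphere (0 : X) 1 ∩ closure C₂).Nonempty :=
      ⟨y₀, by simpa using (E.gen.reg y₀ hy₀).1, subset_closure ⟨hy₀, hy₀T⟩⟩
    obtain ⟨z₀, hz₀, hz₀1, hz₀2⟩ := (isPreconnected_closed_iff.1 hconn) _ _ isClosed_closure
      isClosed_closure hcov hsub₁ hsub₂
    have hz₀n : ‖z₀‖ = 1 := by simpa using hz₀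
    -- points of the two classes near `z₀`
    obtain ⟨z₁, hz₁, hz₁d⟩ := Metric.mem_closure_iff.1 hz₀1 (1 / 3) (by norm_num)
    obtain ⟨z₂, hz₂, hz₂d⟩ := Metric.mem_closure_iff.1 hz₀2 (1 / 3) (by norm_num)
    rw [dist_eq_norm] at hz₁d hz₂d
    have hz₁G := hz₁.1
    have hz₂G := hz₂.1
    -- different classes, close: same face
    have hface : ∀ a ∈ G, ∀ b ∈ G, Lm a ≠ Lm b → ‖a - z₀‖ < 1 / 3 → ‖b - z₀‖ < 1 / 3 → nr a b = 1 := by
      intro a ha b hb hab h1 h2
      by_contra hc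
      refine hab (L_eq_of_near E ha hb (hLm a ha) (hLm b hb) ?_ hc)
      have h3 : ‖a - b‖ ≤ ‖a - z₀‖ + ‖z₀ - b‖ := norm_sub_le_norm_sub_add_norm_sub a z₀ b
      rw [norm_sub_rev z₀ b] at h3
      linarith
    have hz₁' : ‖z₁ - z₀‖ < 1 / 3 := by rw [norm_sub_rev]; exact hz₁d
    have hz₂' : ‖z₂ - z₀‖ < 1 / 3 := by rw [norm_sub_rev]; exact hz₂d
    have hne12 : Lm z₁ ≠ Lm z₂ := by
      rw [hz₁.2]; exact fun h => hz₂.2 h.symm
    have h12 : nr z₁ z₂ = 1 := hface z₁ hz₁G z₂ hz₂G hne12 hz₁' hz₂'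
    -- the common functional
    have hz₁1 := (E.gen.reg z₁ hz₁G).1
    have hz₂1 := (E.gen.reg z₂ hz₂G).1
    have hφ : nr z₁ = nr z₂ := (E.gen.reg z₂ hz₂G).2.1 _ ⟨(nr_mem hz₁1).1, h12⟩
    -- every generic point near `z₀` is in the face
    have hGface : ∀ z ∈ G, ‖z - z₀‖ < 1 / 3 → nr z₂ z = 1 := by
      intro z hz hzd
      by_cases hzT : Lm z = T
      · refine hface z₂ hz₂G z hz ?_ hz₂' hzd
        rw [hzT]; exact hz₂.2
      · rw [← hφ]
        refine hface z₁ hz₁G z hz ?_ hz₁' hzd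
        rw [hz₁.2]; exact fun h => hzT h.symm
    have hface' : ∀ w : X, ‖w‖ = 1 → ‖w - z₀‖ < 1 / 3 → nr z₂ w = 1 := by
      intro w hw hwd
      -- by density and continuity
      have hzero : ∀ ε > 0, |nr z₂ w - 1| ≤ ε := by
        intro ε hε
        obtain ⟨p, hp, hpw⟩ := E.gen.dense w hw (min ε (1 / 3 - ‖w - z₀‖))
          (lt_min hε (by linarith))
        have hpd : ‖p - z₀‖ < 1 / 3 := by
          have h3 : ‖p - z₀‖ ≤ ‖p - w‖ + ‖w - z₀‖ := norm_sub_le_norm_sub_add_norm_sub p w z₀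
          have := lt_of_lt_of_le hpw (min_le_right _ _)
          linarith
        have h1 := hGface p hp hpd
        have h2 := nrm_abs_le (nr_mem hz₂1) (w - p)
        rw [map_sub, h1] at h2
        have h3 : ‖w - p‖ < ε := by
          rw [norm_sub_rev]; exact lt_of_lt_of_le hpw (min_le_left _ _)
        linarith
      by_contra hc
      have hpos : 0 < |nr z₂ w - 1| := abs_pos.2 (sub_ne_zero.2 hc)
      have := hzero (|nr z₂ w - 1| / 2) (half_pos hpos)
      linarith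
    -- `f = L_{z₁}` near `z₂`
    have hδ : 0 < 1 / 3 - ‖z₂ - z₀‖ := by linarith
    have hnear := IsLin.eq_of_eq_near E hz₂G (hLm z₂ hz₂G) (T := (Lm z₁ : X →L[ℝ] Y)) hδ
      (fun w hw hwd => by
        refine IsLin.eq_on_face E hz₁G (hLm z₁ hz₁G) hw ?_
        rw [hφ]
        refine hface' w hw ?_
        have h3 : ‖w - z₀‖ ≤ ‖w - z₂‖ + ‖z₂ - z₀‖ := norm_sub_le_norm_sub_add_norm_sub w z₂ z₀
        linarith)
    refine hne12 ?_
    ext v
    exact (congrArg (fun T : X →L[ℝ] Y => T v) hnear).symm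
  refine ⟨T, fun x hx => ?_⟩
  have hzero : ∀ ε > 0, ‖f x - T x‖ ≤ (1 + ‖(T : X →L[ℝ] Y)‖) * ε := by
    intro ε hε
    obtain ⟨p, hp, hpx⟩ := E.gen.dense x hx ε hε
    have hp1 := (E.gen.reg p hp).1
    have h1 : f p = T p := by
      have := (hLm p hp).val
      rw [hall p hp] at this
      exact this.symm
    have h8 : f x - T x = (f x - f p) + T (p - x) := by
      rw [map_sub, h1]; abel
    rw [h8]
    have h9 : ‖f x - f p‖ = ‖x - p‖ := E.ctx.iso.iso x p hx hp1
    have h10 : ‖T (p - x)‖ ≤ ‖(T : X →L[ℝ] Y)‖ * ‖p - x‖ := (T : X →L[ℝ] Y).le_opNorm _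
    calc ‖(f x - f p) + T (p - x)‖ ≤ ‖f x - f p‖ + ‖T (p - x)‖ := norm_add_le _ _
      _ ≤ ‖p - x‖ + ‖(T : X →L[ℝ] Y)‖ * ‖p - x‖ := by rw [h9, norm_sub_rev]; linarith
      _ = (1 + ‖(T : X →L[ℝ] Y)‖) * ‖p - x‖ := by ring
      _ ≤ (1 + ‖(T : X →L[ℝ] Y)‖) * ε :=
        mul_le_mul_of_nonneg_left hpx.le (by positivity)
  have h0 : ‖f x - T x‖ ≤ 0 := by
    by_contra hc
    push_neg at hc
    have hpos : 0 < 1 + ‖(T : X →L[ℝ] Y)‖ := by positivity
    have := hzero (‖f x - T x‖ / (2 * (1 + ‖(T : X →L[ℝ] Y)‖))) (by positivity)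
    have h2 : (1 + ‖(T : X →L[ℝ] Y)‖) * (‖f x - T x‖ / (2 * (1 + ‖(T : X →L[ℝ] Y)‖)))
        = ‖f x - T x‖ / 2 := by
      field_simp
    rw [h2] at this
    linarith
  exact sub_eq_zero.1 (norm_le_zero_iff.1 h0)

/-- The target is finite dimensional. -/
theorem finiteDimensional_target {f : X → Y} (hf : IsSphereIso f) : FiniteDimensional ℝ Y := by
  have hcX : IsCompact (sphere (0 : X) 1) := isCompact_sphere 0 1
  have hcont : ContinuousOn f (sphere (0 : X) 1) := by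
    rw [Metric.continuousOn_iff]
    intro a ha ε hε
    refine ⟨ε, hε, fun b hb hab => ?_⟩
    have ha1 : ‖a‖ = 1 := by simpa using ha
    have hb1 : ‖b‖ = 1 := by simpa using hb
    rw [dist_eq_norm] at hab ⊢
    rwa [hf.iso b a hb1 ha1]
  have himg : sphere (0 : Y) 1 = f '' sphere (0 : X) 1 := by
    ext z
    constructor
    · intro hz
      obtain ⟨x, hx, hxz⟩ := hf.surj z (by simpa using hz)
      exact ⟨x, by simpa using hx, hxz⟩
    · rintro ⟨x, hx, rfl⟩
      have hx1 : ‖x‖ = 1 := by simpa using hx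
      simpa using hf.norm_eq x hx1
  have hcY : IsCompact (sphere (0 : Y) 1) := by
    rw [himg]; exact hcX.image_of_continuousOn hcont
  exact NS.finiteDimensional_of_compact_sphere hcY

/-- Dimension three, any norm. -/
theorem exists_linear_dim3 (hdim : Module.finrank ℝ X = 3) {f : X → Y} (hf : IsSphereIso f) :
    ∃ T : X ≃ₗᵢ[ℝ] Y, ∀ x, ‖x‖ = 1 → T x = f x := by
  have hFD : FiniteDimensional ℝ Y := finiteDimensional_target hf
  obtain ⟨G, hG⟩ := exists_gen hdim hf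
  have E : Env f G := ⟨Ctx.of_iso hf, hG, hdim⟩
  obtain ⟨T, hT⟩ := L_const E
  have hnorm : ∀ v : X, ‖T v‖ = ‖v‖ := by
    intro v
    by_cases hv : v = 0
    · simp [hv]
    · have hv0 : ‖v‖ ≠ 0 := norm_ne_zero_iff.2 hv
      have hu : ‖‖v‖⁻¹ • v‖ = 1 := by
        rw [norm_smul, norm_inv, norm_norm, inv_mul_cancel₀ hv0]
      have h1 := hf.norm_eq _ hu
      rw [hT _ hu, map_smul, norm_smul, norm_inv, norm_norm] at h1
      field_simp at h1
      linarith
  refine ⟨LinearIsometryEquiv.mk T.toLinearEquiv hnorm, fun x hx => ?_⟩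
  exact (hT x hx).symm

/-- Every finite dimension at least three, any norm, ambient maps. -/
theorem exists_linear_findim3 (hdim : 3 ≤ Module.finrank ℝ X) {f : X → Y} (hf : IsSphereIso f) :
    ∃ T : X ≃ₗᵢ[ℝ] Y, ∀ x, ‖x‖ = 1 → T x = f x := by
  rcases eq_or_lt_of_le hdim with h | h
  · exact exists_linear_dim3 h.symm hf
  · exact NS.exists_linear_of_isSphereIso h hf

/-- Every finite dimension at least three, any norm. -/
theorem sphere_isometry_findim3 (hdim : 3 ≤ Module.finrank ℝ X)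
    (f : Metric.sphere (0 : X) 1 → Metric.sphere (0 : Y) 1) (hf : Isometry f)
    (hs : Function.Surjective f) :
    ∃ T : X ≃ₗᵢ[ℝ] Y, ∀ x : Metric.sphere (0 : X) 1, T (x : X) = (f x : Y) := by
  classical
  have hmemX : ∀ a : X, ‖a‖ = 1 → a ∈ sphere (0 : X) 1 := fun a ha => by simpa using ha
  have hmemY : ∀ y : Y, ‖y‖ = 1 → y ∈ sphere (0 : Y) 1 := fun y hy => by simpa using hy
  have hnormX : ∀ a : sphere (0 : X) 1, ‖(a : X)‖ = 1 := fun a => by simpa using a.2
  have hnormY : ∀ y : sphere (0 : Y) 1, ‖(y : Y)‖ = 1 := fun y => by simpa using y.2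
  set g : X → Y := fun a => if h : ‖a‖ = 1 then (f ⟨a, hmemX a h⟩ : Y) else 0 with hg
  have hgv : ∀ a (h : ‖a‖ = 1), g a = f ⟨a, hmemX a h⟩ := fun a h => by simp [hg, h]
  have hfdist : ∀ a b : sphere (0 : X) 1, ‖(f a : Y) - f b‖ = ‖(a : X) - b‖ := by
    intro a b
    have := hf.dist_eq a b
    simpa [Subtype.dist_eq, dist_eq_norm] using this
  have hG : IsSphereIso g := by
    refine ⟨fun a ha => ?_, fun a b ha hb => ?_, fun y hy => ?_⟩
    · rw [hgv a ha]; exact hnormY _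
    · rw [hgv a ha, hgv b hb, hfdist]
    · obtain ⟨a, ha⟩ := hs ⟨y, hmemY y hy⟩
      refine ⟨a, hnormX a, ?_⟩
      rw [hgv a (hnormX a)]
      simp [ha]
  obtain ⟨T, hT⟩ := exists_linear_findim3 hdim hG
  refine ⟨T, fun x => ?_⟩
  rw [hT x (hnormX x), hgv x (hnormX x)]

end Vale.Agent.Lib.P084.D3
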